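import Mathlib
import Vale.Agent.Lib.P037.H20.PDefs

namespace Vale.Agent.Lib.P037.H20.Blow

open Finset

/-- One step of the power-mean counting: blowing up one variable. -/
theorem stage {Ω V : Type*} [Fintype Ω] [Fintype V] [DecidableEq V] (a : ℕ) (g : Ω → V → ℝ)
    (hg : ∀ ω v, 0 ≤ g ω v) :
    (∑ ω, ∑ v, g ω v) ^ (a + 1) ≤
      (Fintype.card Ω : ℝ) ^ a * ∑ ω, ∑ ρ : Fin (a + 1) → V, ∏ i, g ω (ρ i) := by
  have h1 : ∀ ω, ∑ ρ : Fin (a + 1) → V, ∏ i, g ω (ρ i) = (∑ v, g ω v) ^ (a + 1) := by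
    intro ω
    rw [Fintype.sum_pow]
  simp_rw [h1]
  have h2 := pow_sum_le_card_mul_sum_pow (s := (univ : Finset Ω)) (f := fun ω => ∑ v, g ω v)
    (fun ω _ => Finset.sum_nonneg (fun v _ => hg ω v)) a
  simpa using h2

/-- Normalised form of `stage`. -/
theorem stage_norm {Ω V : Type*} [Fintype Ω] [Fintype V] [DecidableEq V] (a m n : ℕ) (hn : 1 ≤ n)
    (hΩ : Fintype.card Ω = n ^ m) (g : Ω → V → ℝ) (hg : ∀ ω v, 0 ≤ g ω v) :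
    ((∑ ω, ∑ v, g ω v) / (n : ℝ) ^ (m + 1)) ^ (a + 1) ≤
      (∑ ω, ∑ ρ : Fin (a + 1) → V, ∏ i, g ω (ρ i)) / (n : ℝ) ^ (m + (a + 1)) := by
  have hn0 : (0 : ℝ) < n := by exact_mod_cast hn
  have h := stage a g hg
  rw [hΩ] at h
  push_cast at h
  rw [div_pow, div_le_div_iff₀ (by positivity) (by positivity)]
  have e : ((n : ℝ) ^ (m + 1)) ^ (a + 1) = (n : ℝ) ^ (m + (a + 1)) * ((n : ℝ) ^ m) ^ a := by
    rw [← pow_mul, ← pow_mul, ← pow_add]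
    congr 1
    ring
  rw [e]
  have h3 : (∑ ω, ∑ v, g ω v) ^ (a + 1) * (n : ℝ) ^ (m + (a + 1)) ≤
      (((n : ℝ) ^ m) ^ a * ∑ ω, ∑ ρ : Fin (a + 1) → V, ∏ i, g ω (ρ i)) * (n : ℝ) ^ (m + (a + 1)) :=
    mul_le_mul_of_nonneg_right h (by positivity)
  linarith

end Vale.Agent.Lib.P037.H20.Blow
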