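import Mathlib
import Vale.Agent.Lib.P037.H20.PDefs
import Vale.Agent.Lib.P037.H20.BlowA

namespace Vale.Agent.Lib.P037.H20.Blow

open Finset

section reorder

variable {A B C D : Type*} [Fintype A] [Fintype B] [Fintype C] [Fintype D]

theorem reorder1 (f : A → B → C → D → ℝ) :
    ∑ ω : B × C × D, ∑ a, f a ω.1 ω.2.1 ω.2.2 = ∑ a, ∑ b, ∑ c, ∑ d, f a b c d := by
  simp only [Fintype.sum_prod_type]
  calc ∑ b, ∑ c, ∑ d, ∑ a, f a b c d = ∑ b, ∑ c, ∑ a, ∑ d, f a b c d := by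
        apply Finset.sum_congr rfl; intro b _
        apply Finset.sum_congr rfl; intro c _
        exact Finset.sum_comm
    _ = ∑ b, ∑ a, ∑ c, ∑ d, f a b c d := by
        apply Finset.sum_congr rfl; intro b _
        exact Finset.sum_comm
    _ = ∑ a, ∑ b, ∑ c, ∑ d, f a b c d := Finset.sum_comm

theorem reorder2 (f : A → B → C → D → ℝ) :
    ∑ ω : A × C × D, ∑ b, f ω.1 b ω.2.1 ω.2.2 = ∑ a, ∑ b, ∑ c, ∑ d, f a b c d := by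
  simp only [Fintype.sum_prod_type]
  apply Finset.sum_congr rfl; intro a _
  calc ∑ c, ∑ d, ∑ b, f a b c d = ∑ c, ∑ b, ∑ d, f a b c d := by
        apply Finset.sum_congr rfl; intro c _
        exact Finset.sum_comm
    _ = ∑ b, ∑ c, ∑ d, f a b c d := Finset.sum_comm

theorem reorder3 (f : A → B → C → D → ℝ) :
    ∑ ω : A × B × D, ∑ c, f ω.1 ω.2.1 c ω.2.2 = ∑ a, ∑ b, ∑ c, ∑ d, f a b c d := by
  simp only [Fintype.sum_prod_type]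
  apply Finset.sum_congr rfl; intro a _
  apply Finset.sum_congr rfl; intro b _
  exact Finset.sum_comm

theorem reorder4 (f : A → B → C → D → ℝ) :
    ∑ ω : A × B × C, ∑ d, f ω.1 ω.2.1 ω.2.2 d = ∑ a, ∑ b, ∑ c, ∑ d, f a b c d := by
  simp only [Fintype.sum_prod_type]

end reorder

variable {n : ℕ}

/-- Rows `r1 < r2` and columns `c1 < c2` of `A` carry the `2 × 2` pattern `H'`. -/
def hcp (H' : Fin 2 → Fin 2 → Bool) (A : Fin n → Fin n → Bool) (r1 r2 c1 c2 : Fin n) : Prop :=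
  r1 < r2 ∧ c1 < c2 ∧ A r1 c1 = H' 0 0 ∧ A r1 c2 = H' 0 1 ∧ A r2 c1 = H' 1 0 ∧ A r2 c2 = H' 1 1

instance (H' : Fin 2 → Fin 2 → Bool) (A : Fin n → Fin n → Bool) (r1 r2 c1 c2 : Fin n) :
    Decidable (hcp H' A r1 r2 c1 c2) := by
  unfold hcp; infer_instance

/-- Indicator of a copy. -/
noncomputable def F0 (H' : Fin 2 → Fin 2 → Bool) (A : Fin n → Fin n → Bool)
    (r1 r2 c1 c2 : Fin n) : ℝ :=
  if hcp H' A r1 r2 c1 c2 then 1 else 0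

noncomputable def F1 (H' : Fin 2 → Fin 2 → Bool) (A : Fin n → Fin n → Bool) {a1 : ℕ}
    (ρ1 : Fin a1 → Fin n) (r2 c1 c2 : Fin n) : ℝ :=
  ∏ i, F0 H' A (ρ1 i) r2 c1 c2

noncomputable def F2 (H' : Fin 2 → Fin 2 → Bool) (A : Fin n → Fin n → Bool) {a1 a2 : ℕ}
    (ρ1 : Fin a1 → Fin n) (ρ2 : Fin a2 → Fin n) (c1 c2 : Fin n) : ℝ :=
  ∏ i, F1 H' A ρ1 (ρ2 i) c1 c2

noncomputable def F3 (H' : Fin 2 → Fin 2 → Bool) (A : Fin n → Fin n → Bool) {a1 a2 b1 : ℕ}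
    (ρ1 : Fin a1 → Fin n) (ρ2 : Fin a2 → Fin n) (κ1 : Fin b1 → Fin n) (c2 : Fin n) : ℝ :=
  ∏ j, F2 H' A ρ1 ρ2 (κ1 j) c2

noncomputable def F4 (H' : Fin 2 → Fin 2 → Bool) (A : Fin n → Fin n → Bool) {a1 a2 b1 b2 : ℕ}
    (ρ1 : Fin a1 → Fin n) (ρ2 : Fin a2 → Fin n) (κ1 : Fin b1 → Fin n) (κ2 : Fin b2 → Fin n) : ℝ :=
  ∏ j, F3 H' A ρ1 ρ2 κ1 (κ2 j)

theorem F0_nonneg (H' : Fin 2 → Fin 2 → Bool) (A : Fin n → Fin n → Bool) (r1 r2 c1 c2 : Fin n) :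
    0 ≤ F0 H' A r1 r2 c1 c2 := by
  unfold F0; split_ifs <;> norm_num

theorem F1_nonneg (H' : Fin 2 → Fin 2 → Bool) (A : Fin n → Fin n → Bool) {a1 : ℕ}
    (ρ1 : Fin a1 → Fin n) (r2 c1 c2 : Fin n) : 0 ≤ F1 H' A ρ1 r2 c1 c2 :=
  Finset.prod_nonneg (fun _ _ => F0_nonneg _ _ _ _ _ _)

theorem F2_nonneg (H' : Fin 2 → Fin 2 → Bool) (A : Fin n → Fin n → Bool) {a1 a2 : ℕ}
    (ρ1 : Fin a1 → Fin n) (ρ2 : Fin a2 → Fin n) (c1 c2 : Fin n) : 0 ≤ F2 H' A ρ1 ρ2 c1 c2 :=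
  Finset.prod_nonneg (fun _ _ => F1_nonneg _ _ _ _ _ _)

theorem F3_nonneg (H' : Fin 2 → Fin 2 → Bool) (A : Fin n → Fin n → Bool) {a1 a2 b1 : ℕ}
    (ρ1 : Fin a1 → Fin n) (ρ2 : Fin a2 → Fin n) (κ1 : Fin b1 → Fin n) (c2 : Fin n) :
    0 ≤ F3 H' A ρ1 ρ2 κ1 c2 :=
  Finset.prod_nonneg (fun _ _ => F2_nonneg _ _ _ _ _ _)

/-- The four total counts. -/
noncomputable def S0 (H' : Fin 2 → Fin 2 → Bool) (A : Fin n → Fin n → Bool) : ℝ :=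
  ∑ r1, ∑ r2, ∑ c1, ∑ c2, F0 H' A r1 r2 c1 c2

noncomputable def S1 (H' : Fin 2 → Fin 2 → Bool) (A : Fin n → Fin n → Bool) (a1 : ℕ) : ℝ :=
  ∑ ρ1 : Fin a1 → Fin n, ∑ r2, ∑ c1, ∑ c2, F1 H' A ρ1 r2 c1 c2

noncomputable def S2 (H' : Fin 2 → Fin 2 → Bool) (A : Fin n → Fin n → Bool) (a1 a2 : ℕ) : ℝ :=
  ∑ ρ1 : Fin a1 → Fin n, ∑ ρ2 : Fin a2 → Fin n, ∑ c1, ∑ c2, F2 H' A ρ1 ρ2 c1 c2

noncomputable def S3 (H' : Fin 2 → Fin 2 → Bool) (A : Fin n → Fin n → Bool) (a1 a2 b1 : ℕ) : ℝ :=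
  ∑ ρ1 : Fin a1 → Fin n, ∑ ρ2 : Fin a2 → Fin n, ∑ κ1 : Fin b1 → Fin n, ∑ c2,
    F3 H' A ρ1 ρ2 κ1 c2

noncomputable def S4 (H' : Fin 2 → Fin 2 → Bool) (A : Fin n → Fin n → Bool) (a1 a2 b1 b2 : ℕ) :
    ℝ :=
  ∑ ρ1 : Fin a1 → Fin n, ∑ ρ2 : Fin a2 → Fin n, ∑ κ1 : Fin b1 → Fin n, ∑ κ2 : Fin b2 → Fin n,
    F4 H' A ρ1 ρ2 κ1 κ2

theorem stage1 (H' : Fin 2 → Fin 2 → Bool) (A : Fin n → Fin n → Bool) (hn : 1 ≤ n) (p : ℕ) :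
    (S0 H' A / (n : ℝ) ^ 4) ^ (p + 1) ≤ S1 H' A (p + 1) / (n : ℝ) ^ (3 + (p + 1)) := by
  have h := stage_norm (Ω := Fin n × Fin n × Fin n) (V := Fin n) p 3 n hn
    (by simp [Fintype.card_prod]; ring)
    (fun ω v => F0 H' A v ω.1 ω.2.1 ω.2.2) (fun ω v => F0_nonneg _ _ _ _ _ _)
  rw [reorder1 (fun a b c d => F0 H' A a b c d)] at h
  have e : ∑ ω : Fin n × Fin n × Fin n, ∑ ρ : Fin (p + 1) → Fin n,
      ∏ i, F0 H' A (ρ i) ω.1 ω.2.1 ω.2.2 = S1 H' A (p + 1) := by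
    unfold S1
    rw [← reorder1 (fun (a : Fin (p + 1) → Fin n) b c d => F1 H' A a b c d)]
    rfl
  rw [e] at h
  exact h

theorem stage2 (H' : Fin 2 → Fin 2 → Bool) (A : Fin n → Fin n → Bool) (hn : 1 ≤ n) (a1 q : ℕ) :
    (S1 H' A a1 / (n : ℝ) ^ (a1 + 2 + 1)) ^ (q + 1) ≤
      S2 H' A a1 (q + 1) / (n : ℝ) ^ (a1 + 2 + (q + 1)) := by
  have h := stage_norm (Ω := (Fin a1 → Fin n) × Fin n × Fin n) (V := Fin n) q (a1 + 2) n hn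
    (by simp [Fintype.card_prod]; ring)
    (fun ω v => F1 H' A ω.1 v ω.2.1 ω.2.2) (fun ω v => F1_nonneg _ _ _ _ _ _)
  rw [reorder2 (fun (a : Fin a1 → Fin n) b c d => F1 H' A a b c d)] at h
  have e : ∑ ω : (Fin a1 → Fin n) × Fin n × Fin n, ∑ ρ : Fin (q + 1) → Fin n,
      ∏ i, F1 H' A ω.1 (ρ i) ω.2.1 ω.2.2 = S2 H' A a1 (q + 1) := by
    unfold S2
    rw [← reorder2 (fun (a : Fin a1 → Fin n) (b : Fin (q + 1) → Fin n) c d => F2 H' A a b c d)]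
    rfl
  rw [e] at h
  exact h

theorem stage3 (H' : Fin 2 → Fin 2 → Bool) (A : Fin n → Fin n → Bool) (hn : 1 ≤ n)
    (a1 a2 s : ℕ) :
    (S2 H' A a1 a2 / (n : ℝ) ^ (a1 + a2 + 1 + 1)) ^ (s + 1) ≤
      S3 H' A a1 a2 (s + 1) / (n : ℝ) ^ (a1 + a2 + 1 + (s + 1)) := by
  have h := stage_norm (Ω := (Fin a1 → Fin n) × (Fin a2 → Fin n) × Fin n) (V := Fin n) s
    (a1 + a2 + 1) n hn
    (by simp [Fintype.card_prod]; ring)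
    (fun ω v => F2 H' A ω.1 ω.2.1 v ω.2.2) (fun ω v => F2_nonneg _ _ _ _ _ _)
  rw [reorder3 (fun (a : Fin a1 → Fin n) (b : Fin a2 → Fin n) c d => F2 H' A a b c d)] at h
  have e : ∑ ω : (Fin a1 → Fin n) × (Fin a2 → Fin n) × Fin n, ∑ ρ : Fin (s + 1) → Fin n,
      ∏ i, F2 H' A ω.1 ω.2.1 (ρ i) ω.2.2 = S3 H' A a1 a2 (s + 1) := by
    unfold S3
    rw [← reorder3 (fun (a : Fin a1 → Fin n) (b : Fin a2 → Fin n) (c : Fin (s + 1) → Fin n) d =>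
      F3 H' A a b c d)]
    rfl
  rw [e] at h
  exact h

theorem stage4 (H' : Fin 2 → Fin 2 → Bool) (A : Fin n → Fin n → Bool) (hn : 1 ≤ n)
    (a1 a2 b1 t : ℕ) :
    (S3 H' A a1 a2 b1 / (n : ℝ) ^ (a1 + a2 + b1 + 1)) ^ (t + 1) ≤
      S4 H' A a1 a2 b1 (t + 1) / (n : ℝ) ^ (a1 + a2 + b1 + (t + 1)) := by
  have h := stage_norm (Ω := (Fin a1 → Fin n) × (Fin a2 → Fin n) × (Fin b1 → Fin n))
    (V := Fin n) t (a1 + a2 + b1) n hn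
    (by simp [Fintype.card_prod]; ring)
    (fun ω v => F3 H' A ω.1 ω.2.1 ω.2.2 v) (fun ω v => F3_nonneg _ _ _ _ _ _)
  rw [reorder4 (fun (a : Fin a1 → Fin n) (b : Fin a2 → Fin n) (c : Fin b1 → Fin n) d =>
    F3 H' A a b c d)] at h
  have e : ∑ ω : (Fin a1 → Fin n) × (Fin a2 → Fin n) × (Fin b1 → Fin n),
      ∑ ρ : Fin (t + 1) → Fin n, ∏ i, F3 H' A ω.1 ω.2.1 ω.2.2 (ρ i) = S4 H' A a1 a2 b1 (t + 1) := by
    unfold S4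
    rw [← reorder4 (fun (a : Fin a1 → Fin n) (b : Fin a2 → Fin n) (c : Fin b1 → Fin n)
      (d : Fin (t + 1) → Fin n) => F4 H' A a b c d)]
    rfl
  rw [e] at h
  exact h

/-- The chained supersaturation bound. -/
theorem chain (H' : Fin 2 → Fin 2 → Bool) (A : Fin n → Fin n → Bool) (hn : 1 ≤ n)
    (p q s t : ℕ) :
    (S0 H' A / (n : ℝ) ^ 4) ^ ((p + 1) * (q + 1) * (s + 1) * (t + 1)) ≤
      S4 H' A (p + 1) (q + 1) (s + 1) (t + 1) /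
        (n : ℝ) ^ ((p + 1) + (q + 1) + (s + 1) + (t + 1)) := by
  have hn0 : (0 : ℝ) < n := by exact_mod_cast hn
  have h1 := stage1 H' A hn p
  have h2 := stage2 H' A hn (p + 1) q
  have h3 := stage3 H' A hn (p + 1) (q + 1) s
  have h4 := stage4 H' A hn (p + 1) (q + 1) (s + 1) t
  have e1 : 3 + (p + 1) = p + 1 + 2 + 1 := by ring
  have e2 : p + 1 + 2 + (q + 1) = p + 1 + (q + 1) + 1 + 1 := by ring
  have e3 : p + 1 + (q + 1) + 1 + (s + 1) = p + 1 + (q + 1) + (s + 1) + 1 := by ring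
  rw [e1] at h1
  rw [e2] at h2
  rw [e3] at h3
  have hS0 : 0 ≤ S0 H' A / (n : ℝ) ^ 4 := by
    apply div_nonneg _ (by positivity)
    unfold S0
    exact Finset.sum_nonneg (fun _ _ => Finset.sum_nonneg (fun _ _ => Finset.sum_nonneg
      (fun _ _ => Finset.sum_nonneg (fun _ _ => F0_nonneg _ _ _ _ _ _))))
  have g1 : (S0 H' A / (n : ℝ) ^ 4) ^ ((p + 1) * (q + 1)) ≤
      S2 H' A (p + 1) (q + 1) / (n : ℝ) ^ (p + 1 + (q + 1) + 1 + 1) := by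
    rw [pow_mul]
    exact le_trans (pow_le_pow_left₀ (pow_nonneg hS0 _) h1 _) h2
  have g2 : (S0 H' A / (n : ℝ) ^ 4) ^ ((p + 1) * (q + 1) * (s + 1)) ≤
      S3 H' A (p + 1) (q + 1) (s + 1) / (n : ℝ) ^ (p + 1 + (q + 1) + (s + 1) + 1) := by
    rw [pow_mul]
    exact le_trans (pow_le_pow_left₀ (pow_nonneg hS0 _) g1 _) h3
  rw [pow_mul]
  exact le_trans (pow_le_pow_left₀ (pow_nonneg hS0 _) g2 _) h4

end Vale.Agent.Lib.P037.H20.Blow
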