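import Mathlib
import Vale.Agent.Lib.P037.H20.PDefs
import Vale.Agent.Lib.P037.H20.BlowB

namespace Vale.Agent.Lib.P037.H20.Blow

open Finset

variable {n : ℕ}

theorem chain' (H' : Fin 2 → Fin 2 → Bool) (A : Fin n → Fin n → Bool) (hn : 1 ≤ n)
    (a1 a2 b1 b2 : ℕ) (h1 : 0 < a1) (h2 : 0 < a2) (h3 : 0 < b1) (h4 : 0 < b2) :
    (S0 H' A / (n : ℝ) ^ 4) ^ (a1 * a2 * b1 * b2) ≤
      S4 H' A a1 a2 b1 b2 / (n : ℝ) ^ (a1 + a2 + b1 + b2) := by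
  obtain ⟨p, rfl⟩ : ∃ p, a1 = p + 1 := ⟨a1 - 1, by omega⟩
  obtain ⟨q, rfl⟩ : ∃ q, a2 = q + 1 := ⟨a2 - 1, by omega⟩
  obtain ⟨s, rfl⟩ : ∃ s, b1 = s + 1 := ⟨b1 - 1, by omega⟩
  obtain ⟨t, rfl⟩ : ∃ t, b2 = t + 1 := ⟨b2 - 1, by omega⟩
  exact chain H' A hn p q s t

/-- All selections from the four groups carry the pattern. -/
def P4 (H' : Fin 2 → Fin 2 → Bool) (A : Fin n → Fin n → Bool) {a1 a2 b1 b2 : ℕ}
    (ρ1 : Fin a1 → Fin n) (ρ2 : Fin a2 → Fin n) (κ1 : Fin b1 → Fin n) (κ2 : Fin b2 → Fin n) :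
    Prop :=
  ∀ i i' j j', hcp H' A (ρ1 i) (ρ2 i') (κ1 j) (κ2 j')

instance (H' : Fin 2 → Fin 2 → Bool) (A : Fin n → Fin n → Bool) {a1 a2 b1 b2 : ℕ}
    (ρ1 : Fin a1 → Fin n) (ρ2 : Fin a2 → Fin n) (κ1 : Fin b1 → Fin n) (κ2 : Fin b2 → Fin n) :
    Decidable (P4 H' A ρ1 ρ2 κ1 κ2) := by
  unfold P4; infer_instance

theorem F1_eq (H' : Fin 2 → Fin 2 → Bool) (A : Fin n → Fin n → Bool) {a1 : ℕ}
    (ρ1 : Fin a1 → Fin n) (r2 c1 c2 : Fin n) :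
    F1 H' A ρ1 r2 c1 c2 = if (∀ i, hcp H' A (ρ1 i) r2 c1 c2) then 1 else 0 := by
  unfold F1 F0
  rw [Fintype.prod_boole]
  congr

theorem F2_eq (H' : Fin 2 → Fin 2 → Bool) (A : Fin n → Fin n → Bool) {a1 a2 : ℕ}
    (ρ1 : Fin a1 → Fin n) (ρ2 : Fin a2 → Fin n) (c1 c2 : Fin n) :
    F2 H' A ρ1 ρ2 c1 c2 = if (∀ i' i, hcp H' A (ρ1 i) (ρ2 i') c1 c2) then 1 else 0 := by
  unfold F2
  simp_rw [F1_eq]
  rw [Fintype.prod_boole]
  congr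

theorem F3_eq (H' : Fin 2 → Fin 2 → Bool) (A : Fin n → Fin n → Bool) {a1 a2 b1 : ℕ}
    (ρ1 : Fin a1 → Fin n) (ρ2 : Fin a2 → Fin n) (κ1 : Fin b1 → Fin n) (c2 : Fin n) :
    F3 H' A ρ1 ρ2 κ1 c2 = if (∀ j i' i, hcp H' A (ρ1 i) (ρ2 i') (κ1 j) c2) then 1 else 0 := by
  unfold F3
  simp_rw [F2_eq]
  rw [Fintype.prod_boole]
  congr

theorem F4_eq' (H' : Fin 2 → Fin 2 → Bool) (A : Fin n → Fin n → Bool) {a1 a2 b1 b2 : ℕ}
    (ρ1 : Fin a1 → Fin n) (ρ2 : Fin a2 → Fin n) (κ1 : Fin b1 → Fin n) (κ2 : Fin b2 → Fin n) :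
    F4 H' A ρ1 ρ2 κ1 κ2 =
      if (∀ j' j i' i, hcp H' A (ρ1 i) (ρ2 i') (κ1 j) (κ2 j')) then 1 else 0 := by
  unfold F4
  simp_rw [F3_eq]
  rw [Fintype.prod_boole]
  congr

theorem F4_eq (H' : Fin 2 → Fin 2 → Bool) (A : Fin n → Fin n → Bool) {a1 a2 b1 b2 : ℕ}
    (ρ1 : Fin a1 → Fin n) (ρ2 : Fin a2 → Fin n) (κ1 : Fin b1 → Fin n) (κ2 : Fin b2 → Fin n) :
    F4 H' A ρ1 ρ2 κ1 κ2 = if P4 H' A ρ1 ρ2 κ1 κ2 then 1 else 0 := by
  rw [F4_eq']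
  have e : (∀ (j' : Fin b2) (j : Fin b1) (i' : Fin a2) (i : Fin a1),
      hcp H' A (ρ1 i) (ρ2 i') (κ1 j) (κ2 j')) ↔ P4 H' A ρ1 ρ2 κ1 κ2 := by
    unfold P4
    constructor
    · intro h i i' j j'
      exact h j' j i' i
    · intro h j' j i' i
      exact h i i' j j'
  by_cases h : P4 H' A ρ1 ρ2 κ1 κ2
  · rw [if_pos h, if_pos (e.mpr h)]
  · rw [if_neg h, if_neg (fun h' => h (e.mp h'))]

/-- The set of all blown-up configurations. -/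
noncomputable def X4 (H' : Fin 2 → Fin 2 → Bool) (A : Fin n → Fin n → Bool) (a1 a2 b1 b2 : ℕ) :
    Finset ((Fin a1 → Fin n) × (Fin a2 → Fin n) × (Fin b1 → Fin n) × (Fin b2 → Fin n)) :=
  univ.filter (fun x => P4 H' A x.1 x.2.1 x.2.2.1 x.2.2.2)

theorem S4_eq (H' : Fin 2 → Fin 2 → Bool) (A : Fin n → Fin n → Bool) (a1 a2 b1 b2 : ℕ) :
    S4 H' A a1 a2 b1 b2 = ((X4 H' A a1 a2 b1 b2).card : ℝ) := by
  unfold S4 X4
  rw [Finset.card_filter]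
  push_cast
  simp only [Fintype.sum_prod_type]
  apply Finset.sum_congr rfl; intro ρ1 _
  apply Finset.sum_congr rfl; intro ρ2 _
  apply Finset.sum_congr rfl; intro κ1 _
  apply Finset.sum_congr rfl; intro κ2 _
  rw [F4_eq]

/-- The set of copies of the `2 × 2` pattern. -/
noncomputable def X0 (H' : Fin 2 → Fin 2 → Bool) (A : Fin n → Fin n → Bool) :
    Finset (Fin n × Fin n × Fin n × Fin n) :=
  univ.filter (fun x => hcp H' A x.1 x.2.1 x.2.2.1 x.2.2.2)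

theorem S0_eq (H' : Fin 2 → Fin 2 → Bool) (A : Fin n → Fin n → Bool) :
    S0 H' A = ((X0 H' A).card : ℝ) := by
  unfold S0 X0
  rw [Finset.card_filter]
  push_cast
  simp only [Fintype.sum_prod_type]
  rfl

theorem copyCount_le_X0 (H' : Fin 2 → Fin 2 → Bool) (A : Fin n → Fin n → Bool) :
    copyCount H' A ≤ (X0 H' A).card := by
  classical
  unfold copyCount
  rw [Nat.card_eq_fintype_card, Fintype.card_subtype]
  apply Finset.card_le_card_of_injOn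
    (fun p : (Fin 2 → Fin n) × (Fin 2 → Fin n) => (p.1 0, p.1 1, p.2 0, p.2 1))
  · intro p hp
    simp only [coe_filter, mem_univ, true_and, Set.mem_ofPred_eq] at hp
    obtain ⟨h1, h2, h3⟩ := hp
    unfold X0
    simp only [coe_filter, mem_univ, true_and, Set.mem_ofPred_eq]
    exact ⟨h1 (by decide), h2 (by decide), h3 0 0, h3 0 1, h3 1 0, h3 1 1⟩
  · intro p _ p' _ h
    simp only [Prod.mk.injEq] at h
    obtain ⟨e1, e2, e3, e4⟩ := h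
    apply Prod.ext
    · funext i
      fin_cases i
      · exact e1
      · exact e2
    · funext i
      fin_cases i
      · exact e3
      · exact e4

end Vale.Agent.Lib.P037.H20.Blow
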