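import Mathlib
import Vale.Agent.Lib.P037.H20.PDefs
import Vale.Agent.Lib.P037.H20.BlowC

namespace Vale.Agent.Lib.P037.H20.Blow

open Finset

variable {n : ℕ}

theorem card_eq_pair {a : ℕ} (i i' : Fin a) (h : i ≠ i') :
    ((univ : Finset (Fin a → Fin n)).filter (fun ρ => ρ i = ρ i')).card ≤ n ^ (a - 1) := by
  classical
  have hc : Fintype.card ({j : Fin a // j ≠ i'} → Fin n) = n ^ (a - 1) := by
    rw [Fintype.card_fun, Fintype.card_fin, Fintype.card_subtype_compl]
    simp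
  rw [← hc, ← Finset.card_univ]
  apply Finset.card_le_card_of_injOn (fun ρ => fun j : {j : Fin a // j ≠ i'} => ρ j.1)
  · intro ρ _
    simp
  · intro ρ hρ ρ' hρ' heq
    simp only [coe_filter, mem_univ, true_and, Set.mem_ofPred_eq] at hρ hρ'
    funext j
    by_cases hj : j = i'
    · subst hj
      rw [← hρ, ← hρ']
      exact congrFun heq ⟨i, h⟩
    · exact congrFun heq ⟨j, hj⟩

theorem card_noninj (a : ℕ) :
    ((univ : Finset (Fin a → Fin n)).filter (fun ρ => ¬ Function.Injective ρ)).card ≤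
      a * a * n ^ (a - 1) := by
  classical
  have hsub : (univ : Finset (Fin a → Fin n)).filter (fun ρ => ¬ Function.Injective ρ) ⊆
      ((univ : Finset (Fin a × Fin a)).filter (fun p => p.1 ≠ p.2)).biUnion
        (fun p => (univ : Finset (Fin a → Fin n)).filter (fun ρ => ρ p.1 = ρ p.2)) := by
    intro ρ hρ
    rw [mem_filter] at hρ
    have h2 := hρ.2
    simp only [Function.Injective, not_forall] at h2
    obtain ⟨i, i', h3, h4⟩ := h2
    rw [mem_biUnion]
    exact ⟨(i, i'), by simp [h4], by simp [h3]⟩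
  refine le_trans (Finset.card_le_card hsub) (le_trans Finset.card_biUnion_le ?_)
  have h1 : ∑ p ∈ (univ : Finset (Fin a × Fin a)).filter (fun p => p.1 ≠ p.2),
      ((univ : Finset (Fin a → Fin n)).filter (fun ρ => ρ p.1 = ρ p.2)).card ≤
      ∑ _p ∈ (univ : Finset (Fin a × Fin a)).filter (fun p => p.1 ≠ p.2), n ^ (a - 1) := by
    apply Finset.sum_le_sum
    intro p hp
    rw [mem_filter] at hp
    exact card_eq_pair p.1 p.2 hp.2
  refine le_trans h1 ?_
  rw [Finset.sum_const, smul_eq_mul]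
  apply Nat.mul_le_mul_right
  refine le_trans (Finset.card_filter_le _ _) ?_
  simp

/-- All four components injective. -/
def AllInj {a1 a2 b1 b2 : ℕ}
    (x : (Fin a1 → Fin n) × (Fin a2 → Fin n) × (Fin b1 → Fin n) × (Fin b2 → Fin n)) : Prop :=
  Function.Injective x.1 ∧ Function.Injective x.2.1 ∧ Function.Injective x.2.2.1 ∧
    Function.Injective x.2.2.2

/-- All four components strictly increasing. -/
def AllSM {a1 a2 b1 b2 : ℕ}
    (x : (Fin a1 → Fin n) × (Fin a2 → Fin n) × (Fin b1 → Fin n) × (Fin b2 → Fin n)) : Prop :=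
  StrictMono x.1 ∧ StrictMono x.2.1 ∧ StrictMono x.2.2.1 ∧ StrictMono x.2.2.2

instance {a1 a2 b1 b2 : ℕ}
    (x : (Fin a1 → Fin n) × (Fin a2 → Fin n) × (Fin b1 → Fin n) × (Fin b2 → Fin n)) :
    Decidable (AllInj x) := by
  unfold AllInj; infer_instance

instance {a1 a2 b1 b2 : ℕ}
    (x : (Fin a1 → Fin n) × (Fin a2 → Fin n) × (Fin b1 → Fin n) × (Fin b2 → Fin n)) :
    Decidable (AllSM x) := by
  unfold AllSM StrictMono; infer_instance

theorem card_not_allInj (a1 a2 b1 b2 : ℕ) (h1 : 0 < a1) (h2 : 0 < a2) (h3 : 0 < b1)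
    (h4 : 0 < b2) :
    ((univ : Finset ((Fin a1 → Fin n) × (Fin a2 → Fin n) × (Fin b1 → Fin n) ×
      (Fin b2 → Fin n))).filter (fun x => ¬ AllInj x)).card ≤
      (a1 * a1 + a2 * a2 + b1 * b1 + b2 * b2) * n ^ (a1 + a2 + b1 + b2 - 1) := by
  classical
  set N1 := (univ : Finset (Fin a1 → Fin n)).filter (fun ρ => ¬ Function.Injective ρ)
  set N2 := (univ : Finset (Fin a2 → Fin n)).filter (fun ρ => ¬ Function.Injective ρ)
  set N3 := (univ : Finset (Fin b1 → Fin n)).filter (fun ρ => ¬ Function.Injective ρ)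
  set N4 := (univ : Finset (Fin b2 → Fin n)).filter (fun ρ => ¬ Function.Injective ρ)
  have hsub : (univ : Finset ((Fin a1 → Fin n) × (Fin a2 → Fin n) × (Fin b1 → Fin n) ×
      (Fin b2 → Fin n))).filter (fun x => ¬ AllInj x) ⊆
      (N1 ×ˢ (univ ×ˢ (univ ×ˢ univ))) ∪ (univ ×ˢ (N2 ×ˢ (univ ×ˢ univ))) ∪
      (univ ×ˢ (univ ×ˢ (N3 ×ˢ univ))) ∪ (univ ×ˢ (univ ×ˢ (univ ×ˢ N4))) := by
    intro x hx
    rw [mem_filter] at hx
    have h := hx.2
    unfold AllInj at h
    simp only [mem_union, mem_product, mem_univ, true_and, and_true, N1, N2, N3, N4, mem_filter]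
    tauto
  refine le_trans (Finset.card_le_card hsub) ?_
  refine le_trans (Finset.card_union_le _ _) ?_
  have c1 : (N1 ×ˢ ((univ : Finset (Fin a2 → Fin n)) ×ˢ ((univ : Finset (Fin b1 → Fin n)) ×ˢ
      (univ : Finset (Fin b2 → Fin n))))).card ≤ a1 * a1 * n ^ (a1 + a2 + b1 + b2 - 1) := by
    rw [card_product, card_product, card_product]
    simp only [card_univ, Fintype.card_fun, Fintype.card_fin]
    have := card_noninj (n := n) a1
    calc N1.card * (n ^ a2 * (n ^ b1 * n ^ b2))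
        ≤ (a1 * a1 * n ^ (a1 - 1)) * (n ^ a2 * (n ^ b1 * n ^ b2)) := Nat.mul_le_mul_right _ this
      _ = a1 * a1 * n ^ (a1 + a2 + b1 + b2 - 1) := by
        rw [mul_assoc (a1 * a1), ← pow_add, ← pow_add, ← pow_add]
        congr 2
        omega
  have c2 : ((univ : Finset (Fin a1 → Fin n)) ×ˢ (N2 ×ˢ ((univ : Finset (Fin b1 → Fin n)) ×ˢ
      (univ : Finset (Fin b2 → Fin n))))).card ≤ a2 * a2 * n ^ (a1 + a2 + b1 + b2 - 1) := by
    rw [card_product, card_product, card_product]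
    simp only [card_univ, Fintype.card_fun, Fintype.card_fin]
    have := card_noninj (n := n) a2
    calc n ^ a1 * (N2.card * (n ^ b1 * n ^ b2))
        ≤ n ^ a1 * ((a2 * a2 * n ^ (a2 - 1)) * (n ^ b1 * n ^ b2)) :=
          Nat.mul_le_mul_left _ (Nat.mul_le_mul_right _ this)
      _ = a2 * a2 * (n ^ a1 * (n ^ (a2 - 1) * (n ^ b1 * n ^ b2))) := by ring
      _ = a2 * a2 * n ^ (a1 + a2 + b1 + b2 - 1) := by
        rw [← pow_add, ← pow_add, ← pow_add]
        congr 2
        omega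
  have c3 : ((univ : Finset (Fin a1 → Fin n)) ×ˢ ((univ : Finset (Fin a2 → Fin n)) ×ˢ (N3 ×ˢ
      (univ : Finset (Fin b2 → Fin n))))).card ≤ b1 * b1 * n ^ (a1 + a2 + b1 + b2 - 1) := by
    rw [card_product, card_product, card_product]
    simp only [card_univ, Fintype.card_fun, Fintype.card_fin]
    have := card_noninj (n := n) b1
    calc n ^ a1 * (n ^ a2 * (N3.card * n ^ b2))
        ≤ n ^ a1 * (n ^ a2 * ((b1 * b1 * n ^ (b1 - 1)) * n ^ b2)) :=
          Nat.mul_le_mul_left _ (Nat.mul_le_mul_left _ (Nat.mul_le_mul_right _ this))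
      _ = b1 * b1 * (n ^ a1 * (n ^ a2 * (n ^ (b1 - 1) * n ^ b2))) := by ring
      _ = b1 * b1 * n ^ (a1 + a2 + b1 + b2 - 1) := by
        rw [← pow_add, ← pow_add, ← pow_add]
        congr 2
        omega
  have c4 : ((univ : Finset (Fin a1 → Fin n)) ×ˢ ((univ : Finset (Fin a2 → Fin n)) ×ˢ
      ((univ : Finset (Fin b1 → Fin n)) ×ˢ N4))).card ≤
      b2 * b2 * n ^ (a1 + a2 + b1 + b2 - 1) := by
    rw [card_product, card_product, card_product]
    simp only [card_univ, Fintype.card_fun, Fintype.card_fin]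
    have := card_noninj (n := n) b2
    calc n ^ a1 * (n ^ a2 * (n ^ b1 * N4.card))
        ≤ n ^ a1 * (n ^ a2 * (n ^ b1 * (b2 * b2 * n ^ (b2 - 1)))) :=
          Nat.mul_le_mul_left _ (Nat.mul_le_mul_left _ (Nat.mul_le_mul_left _ this))
      _ = b2 * b2 * (n ^ a1 * (n ^ a2 * (n ^ b1 * n ^ (b2 - 1)))) := by ring
      _ = b2 * b2 * n ^ (a1 + a2 + b1 + b2 - 1) := by
        rw [← pow_add, ← pow_add, ← pow_add]
        congr 2
        omega
  have u1 := Finset.card_union_le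
    ((N1 ×ˢ ((univ : Finset (Fin a2 → Fin n)) ×ˢ ((univ : Finset (Fin b1 → Fin n)) ×ˢ
      (univ : Finset (Fin b2 → Fin n))))) ∪
      ((univ : Finset (Fin a1 → Fin n)) ×ˢ (N2 ×ˢ ((univ : Finset (Fin b1 → Fin n)) ×ˢ
      (univ : Finset (Fin b2 → Fin n))))))
    ((univ : Finset (Fin a1 → Fin n)) ×ˢ ((univ : Finset (Fin a2 → Fin n)) ×ˢ (N3 ×ˢ
      (univ : Finset (Fin b2 → Fin n)))))
  have u2 := Finset.card_union_le
    (N1 ×ˢ ((univ : Finset (Fin a2 → Fin n)) ×ˢ ((univ : Finset (Fin b1 → Fin n)) ×ˢ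
      (univ : Finset (Fin b2 → Fin n)))))
    ((univ : Finset (Fin a1 → Fin n)) ×ˢ (N2 ×ˢ ((univ : Finset (Fin b1 → Fin n)) ×ˢ
      (univ : Finset (Fin b2 → Fin n)))))
  nlinarith [c1, c2, c3, c4, u1, u2]

end Vale.Agent.Lib.P037.H20.Blow
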