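import Mathlib
import Vale.Agent.Lib.P037.H20.PDefs
import Vale.Agent.Lib.P037.H20.BlowD

namespace Vale.Agent.Lib.P037.H20.Blow

open Finset

variable {n : ℕ}

theorem sort_sm {a : ℕ} (ρ : Fin a → Fin n) (h : Function.Injective ρ) :
    StrictMono (ρ ∘ Tuple.sort ρ) :=
  (Tuple.monotone_sort ρ).strictMono_of_injective (h.comp (Tuple.sort ρ).injective)

theorem card_inj_le (H' : Fin 2 → Fin 2 → Bool) (A : Fin n → Fin n → Bool) (a1 a2 b1 b2 : ℕ) :
    ((X4 H' A a1 a2 b1 b2).filter AllInj).card ≤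
      ((X4 H' A a1 a2 b1 b2).filter AllSM).card *
        (a1.factorial * (a2.factorial * (b1.factorial * b2.factorial))) := by
  classical
  have hc : ((X4 H' A a1 a2 b1 b2).filter AllSM ×ˢ
      (univ : Finset (Equiv.Perm (Fin a1) × Equiv.Perm (Fin a2) × Equiv.Perm (Fin b1) ×
        Equiv.Perm (Fin b2)))).card =
      ((X4 H' A a1 a2 b1 b2).filter AllSM).card *
        (a1.factorial * (a2.factorial * (b1.factorial * b2.factorial))) := by
    rw [card_product, card_univ]
    simp [Fintype.card_prod, Fintype.card_perm]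
  rw [← hc]
  apply Finset.card_le_card_of_injOn
    (fun x : (Fin a1 → Fin n) × (Fin a2 → Fin n) × (Fin b1 → Fin n) × (Fin b2 → Fin n) =>
      ((x.1 ∘ Tuple.sort x.1, x.2.1 ∘ Tuple.sort x.2.1, x.2.2.1 ∘ Tuple.sort x.2.2.1,
        x.2.2.2 ∘ Tuple.sort x.2.2.2),
       (Tuple.sort x.1, Tuple.sort x.2.1, Tuple.sort x.2.2.1, Tuple.sort x.2.2.2)))
  · intro x hx
    rw [mem_coe, mem_filter] at hx
    obtain ⟨hx4, hinj⟩ := hx
    unfold X4 at hx4
    rw [mem_filter] at hx4
    have hP := hx4.2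
    unfold AllInj at hinj
    obtain ⟨i1, i2, i3, i4⟩ := hinj
    rw [mem_coe, mem_product]
    refine ⟨?_, mem_univ _⟩
    rw [mem_filter]
    constructor
    · unfold X4
      rw [mem_filter]
      refine ⟨mem_univ _, ?_⟩
      intro i i' j j'
      exact hP _ _ _ _
    · exact ⟨sort_sm _ i1, sort_sm _ i2, sort_sm _ i3, sort_sm _ i4⟩
  · intro x _ y _ hxy
    simp only [Prod.mk.injEq] at hxy
    obtain ⟨⟨e1, e2, e3, e4⟩, s1, s2, s3, s4⟩ := hxy
    rw [s1] at e1
    rw [s2] at e2
    rw [s3] at e3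
    rw [s4] at e4
    have f1 := (Tuple.sort y.1).surjective.injective_comp_right e1
    have f2 := (Tuple.sort y.2.1).surjective.injective_comp_right e2
    have f3 := (Tuple.sort y.2.2.1).surjective.injective_comp_right e3
    have f4 := (Tuple.sort y.2.2.2).surjective.injective_comp_right e4
    exact Prod.ext f1 (Prod.ext f2 (Prod.ext f3 f4))

/-- Concatenation of two index maps. -/
def glue (a k : ℕ) (ρ1 : Fin a → Fin n) (ρ2 : Fin (k - a) → Fin n) : Fin k → Fin n :=
  fun i => if h : i.val < a then ρ1 ⟨i.val, h⟩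
    else ρ2 ⟨i.val - a, by have := i.isLt; omega⟩

theorem glue_sm (a k : ℕ) (ρ1 : Fin a → Fin n) (ρ2 : Fin (k - a) → Fin n)
    (h1 : StrictMono ρ1) (h2 : StrictMono ρ2) (h12 : ∀ i i', ρ1 i < ρ2 i') :
    StrictMono (glue a k ρ1 ρ2) := by
  intro i j hij
  have hij' : i.val < j.val := hij
  unfold glue
  by_cases hi : i.val < a
  · by_cases hj : j.val < a
    · rw [dif_pos hi, dif_pos hj]
      exact h1 (by simpa using hij')
    · rw [dif_pos hi, dif_neg hj]
      exact h12 _ _
  · have hj : ¬ j.val < a := by omega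
    rw [dif_neg hi, dif_neg hj]
    apply h2
    rw [Fin.lt_def]
    simp only
    omega

theorem glue_inj (a k : ℕ) (hak : a ≤ k) (ρ1 ρ1' : Fin a → Fin n) (ρ2 ρ2' : Fin (k - a) → Fin n)
    (h : glue a k ρ1 ρ2 = glue a k ρ1' ρ2') : ρ1 = ρ1' ∧ ρ2 = ρ2' := by
  constructor
  · funext i
    have hi := i.isLt
    have := congrFun h ⟨i.val, by omega⟩
    unfold glue at this
    simp only [hi, dif_pos] at this
    exact this
  · funext i
    have hi := i.isLt
    have := congrFun h ⟨i.val + a, by omega⟩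
    unfold glue at this
    have hn : ¬ (i.val + a < a) := by omega
    simp only [hn, dif_neg, not_false_iff, Nat.add_sub_cancel] at this
    exact this

theorem SM4_le_copyCount (H' : Fin 2 → Fin 2 → Bool) (A : Fin n → Fin n → Bool) (k a b : ℕ)
    (ha : 0 < a) (hak : a < k) (hb : 0 < b) (hbk : b < k) (H : Fin k → Fin k → Bool)
    (hH : ∀ i j, H i j = H' (if i.val < a then 0 else 1) (if j.val < b then 0 else 1)) :
    ((X4 H' A a (k - a) b (k - b)).filter AllSM).card ≤ copyCount H A := by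
  classical
  unfold copyCount
  rw [Nat.card_eq_fintype_card, Fintype.card_subtype]
  apply Finset.card_le_card_of_injOn
    (fun x : (Fin a → Fin n) × (Fin (k - a) → Fin n) × (Fin b → Fin n) × (Fin (k - b) → Fin n) =>
      (glue a k x.1 x.2.1, glue b k x.2.2.1 x.2.2.2))
  · intro x hx
    rw [mem_coe, mem_filter] at hx
    obtain ⟨hx4, hsm⟩ := hx
    unfold X4 at hx4
    rw [mem_filter] at hx4
    have hP := hx4.2
    unfold AllSM at hsm
    obtain ⟨s1, s2, s3, s4⟩ := hsm
    have i0 : Fin a := ⟨0, ha⟩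
    have i0' : Fin (k - a) := ⟨0, by omega⟩
    have j0 : Fin b := ⟨0, hb⟩
    have j0' : Fin (k - b) := ⟨0, by omega⟩
    simp only [coe_filter, mem_univ, true_and, Set.mem_ofPred_eq]
    refine ⟨?_, ?_, ?_⟩
    · exact glue_sm a k _ _ s1 s2 (fun i i' => (hP i i' j0 j0').1)
    · exact glue_sm b k _ _ s3 s4 (fun j j' => (hP i0 i0' j j').2.1)
    · intro i j
      rw [hH]
      unfold glue
      by_cases hi : i.val < a
      · by_cases hj : j.val < b
        · simp only [hi, hj, dif_pos, if_pos]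
          exact (hP ⟨i.val, hi⟩ i0' ⟨j.val, hj⟩ j0').2.2.1
        · simp only [hi, hj, dif_pos, dif_neg, if_pos, if_neg, not_false_iff]
          exact (hP ⟨i.val, hi⟩ i0' j0 _).2.2.2.1
      · by_cases hj : j.val < b
        · simp only [hi, hj, dif_pos, dif_neg, if_pos, if_neg, not_false_iff]
          exact (hP i0 _ ⟨j.val, hj⟩ j0').2.2.2.2.1
        · simp only [hi, hj, dif_neg, if_neg, not_false_iff]
          exact (hP i0 _ j0 _).2.2.2.2.2
  · intro x _ y _ hxy
    simp only [Prod.mk.injEq] at hxy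
    obtain ⟨e1, e2⟩ := hxy
    obtain ⟨f1, f2⟩ := glue_inj a k hak.le _ _ _ _ e1
    obtain ⟨f3, f4⟩ := glue_inj b k hbk.le _ _ _ _ e2
    exact Prod.ext f1 (Prod.ext f2 (Prod.ext f3 f4))

end Vale.Agent.Lib.P037.H20.Blow
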