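import Mathlib

/-!
Polynomial removal for the three-entry pattern `x, !x / !x, *` in matrices indexed by
finite linear orders.
-/

namespace Vale.Agent.Lib.P037.H20

open Finset

set_option linter.unusedSectionVars false

variable {R C : Type*} [Fintype R] [Fintype C] [LinearOrder R] [LinearOrder C]

/-- number of columns `c' ≥ c` with `A r c' = false`. -/
noncomputable def zr (A : R → C → Bool) (r : R) (c : C) : ℕ :=
  (univ.filter fun c' : C => c ≤ c' ∧ A r c' = false).card

/-- number of rows `r' ≥ r` with `A r' c = false`. -/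
noncomputable def zc (A : R → C → Bool) (r : R) (c : C) : ℕ :=
  (univ.filter fun r' : R => r ≤ r' ∧ A r' c = false).card

/-- the rounded matrix: `false` exactly where both counts exceed `t`. -/
noncomputable def roundP (A : R → C → Bool) (t : ℝ) (r : R) (c : C) : Bool :=
  !(decide (t < (zr A r c : ℝ)) && decide (t < (zc A r c : ℝ)))

/-- number of quadruples `r < r'`, `c < c'` with `A r c = true`, `A r c' = false`,
`A r' c = false`. -/
noncomputable def tcount (A : R → C → Bool) : ℕ :=
  (univ.filter fun q : (R × R) × (C × C) =>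
    q.1.1 < q.1.2 ∧ q.2.1 < q.2.2 ∧ A q.1.1 q.2.1 = true ∧ A q.1.1 q.2.2 = false ∧
      A q.1.2 q.2.1 = false).card

theorem zr_anti (A : R → C → Bool) (r : R) {c c' : C} (h : c ≤ c') : zr A r c' ≤ zr A r c := by
  unfold zr
  apply card_le_card
  intro x hx
  simp only [mem_filter, mem_univ, true_and] at hx ⊢
  exact ⟨le_trans h hx.1, hx.2⟩

theorem zc_anti (A : R → C → Bool) (c : C) {r r' : R} (h : r ≤ r') : zc A r' c ≤ zc A r c := by
  unfold zc
  apply card_le_card
  intro x hx
  simp only [mem_filter, mem_univ, true_and] at hx ⊢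
  exact ⟨le_trans h hx.1, hx.2⟩

theorem roundP_eq_false_iff (A : R → C → Bool) (t : ℝ) (r : R) (c : C) :
    roundP A t r c = false ↔ t < (zr A r c : ℝ) ∧ t < (zc A r c : ℝ) := by
  unfold roundP
  simp

theorem roundP_free (A : R → C → Bool) (t : ℝ) {r r' : R} {c c' : C} (hr : r < r')
    (hc : c < c') :
    ¬ (roundP A t r c = true ∧ roundP A t r c' = false ∧ roundP A t r' c = false) := by
  rintro ⟨h1, h2, h3⟩
  rw [roundP_eq_false_iff] at h2 h3
  have h4 : roundP A t r c = false := by
    rw [roundP_eq_false_iff]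
    constructor
    · have := zr_anti A r hc.le
      have h5 : (zr A r c' : ℝ) ≤ zr A r c := by exact_mod_cast this
      linarith [h2.1]
    · have := zc_anti A c hr.le
      have h5 : (zc A r' c : ℝ) ≤ zc A r c := by exact_mod_cast this
      linarith [h3.2]
  rw [h4] at h1
  exact Bool.false_ne_true h1

/-- In a row, at most `t` zeros have at most `t` zeros weakly to their right. -/
theorem row_shallow (A : R → C → Bool) (t : ℝ) (ht : 0 ≤ t) (r : R) :
    ((univ.filter fun c : C => A r c = false ∧ (zr A r c : ℝ) ≤ t).card : ℝ) ≤ t := by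
  have hinj : Set.InjOn (zr A r) (univ.filter fun c : C => A r c = false ∧ (zr A r c : ℝ) ≤ t) := by
    intro c₁ h₁ c₂ h₂ heq
    simp only [coe_filter, mem_univ, true_and, Set.mem_ofPred_eq] at h₁ h₂
    by_contra hne
    have key : ∀ a b : C, A r a = false → a < b → zr A r b < zr A r a := by
      intro a b ha hab
      unfold zr
      apply card_lt_card
      constructor
      · intro x hx
        simp only [mem_filter, mem_univ, true_and] at hx ⊢
        exact ⟨le_trans hab.le hx.1, hx.2⟩
      · intro hsub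
        have : a ∈ univ.filter fun c' : C => b ≤ c' ∧ A r c' = false := by
          apply hsub
          simp only [mem_filter, mem_univ, true_and]
          exact ⟨le_refl a, ha⟩
        simp only [mem_filter, mem_univ, true_and] at this
        exact absurd this.1 (not_le.mpr hab)
    rcases lt_or_gt_of_ne hne with h | h
    · have := key c₁ c₂ h₁.1 h
      omega
    · have := key c₂ c₁ h₂.1 h
      omega
  have hmaps : ∀ c ∈ univ.filter fun c : C => A r c = false ∧ (zr A r c : ℝ) ≤ t,
      zr A r c ∈ Finset.Icc 1 ⌊t⌋₊ := by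
    intro c hc
    simp only [mem_filter, mem_univ, true_and] at hc
    rw [Finset.mem_Icc]
    constructor
    · unfold zr
      rw [Nat.succ_le_iff, card_pos]
      exact ⟨c, by simp only [mem_filter, mem_univ, true_and]; exact ⟨le_refl c, hc.1⟩⟩
    · exact Nat.le_floor hc.2
  have hcard := card_le_card_of_injOn (zr A r) hmaps hinj
  rw [Nat.card_Icc] at hcard
  have h1 : ((univ.filter fun c : C => A r c = false ∧ (zr A r c : ℝ) ≤ t).card : ℝ)
      ≤ (⌊t⌋₊ : ℝ) := by
    have : (univ.filter fun c : C => A r c = false ∧ (zr A r c : ℝ) ≤ t).card ≤ ⌊t⌋₊ := by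
      omega
    exact_mod_cast this
  exact le_trans h1 (Nat.floor_le ht)

/-- In a column, at most `t` zeros have at most `t` zeros weakly below them. -/
theorem col_shallow (A : R → C → Bool) (t : ℝ) (ht : 0 ≤ t) (c : C) :
    ((univ.filter fun r : R => A r c = false ∧ (zc A r c : ℝ) ≤ t).card : ℝ) ≤ t := by
  have hinj : Set.InjOn (fun r => zc A r c)
      (univ.filter fun r : R => A r c = false ∧ (zc A r c : ℝ) ≤ t) := by
    intro r₁ h₁ r₂ h₂ heq
    simp only [coe_filter, mem_univ, true_and, Set.mem_ofPred_eq] at h₁ h₂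
    by_contra hne
    have key : ∀ a b : R, A a c = false → a < b → zc A b c < zc A a c := by
      intro a b ha hab
      unfold zc
      apply card_lt_card
      constructor
      · intro x hx
        simp only [mem_filter, mem_univ, true_and] at hx ⊢
        exact ⟨le_trans hab.le hx.1, hx.2⟩
      · intro hsub
        have : a ∈ univ.filter fun r' : R => b ≤ r' ∧ A r' c = false := by
          apply hsub
          simp only [mem_filter, mem_univ, true_and]
          exact ⟨le_refl a, ha⟩
        simp only [mem_filter, mem_univ, true_and] at this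
        exact absurd this.1 (not_le.mpr hab)
    simp only at heq
    rcases lt_or_gt_of_ne hne with h | h
    · have := key r₁ r₂ h₁.1 h
      omega
    · have := key r₂ r₁ h₂.1 h
      omega
  have hmaps : ∀ r ∈ univ.filter fun r : R => A r c = false ∧ (zc A r c : ℝ) ≤ t,
      (fun r => zc A r c) r ∈ Finset.Icc 1 ⌊t⌋₊ := by
    intro r hr
    simp only [mem_filter, mem_univ, true_and] at hr
    rw [Finset.mem_Icc]
    constructor
    · show 1 ≤ zc A r c
      unfold zc
      rw [Nat.succ_le_iff, card_pos]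
      exact ⟨r, by simp only [mem_filter, mem_univ, true_and]; exact ⟨le_refl r, hr.1⟩⟩
    · exact Nat.le_floor hr.2
  have hcard := card_le_card_of_injOn (fun r => zc A r c) hmaps hinj
  rw [Nat.card_Icc] at hcard
  have h1 : ((univ.filter fun r : R => A r c = false ∧ (zc A r c : ℝ) ≤ t).card : ℝ)
      ≤ (⌊t⌋₊ : ℝ) := by
    have : (univ.filter fun r : R => A r c = false ∧ (zc A r c : ℝ) ≤ t).card ≤ ⌊t⌋₊ := by
      omega
    exact_mod_cast this
  exact le_trans h1 (Nat.floor_le ht)

theorem card_filter_prod_le (P : R → C → Prop) [∀ r, DecidablePred (P r)]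
    [DecidablePred fun p : R × C => P p.1 p.2] (t : ℝ)
    (h : ∀ r, ((univ.filter fun c : C => P r c).card : ℝ) ≤ t) :
    ((univ.filter fun p : R × C => P p.1 p.2).card : ℝ) ≤ Fintype.card R * t := by
  rw [card_filter, Fintype.sum_prod_type]
  push_cast
  have h2 : ∀ r : R, (∑ c : C, (if P r c then (1 : ℝ) else 0)) ≤ t := by
    intro r
    have := h r
    rw [card_filter] at this
    push_cast at this
    exact this
  calc (∑ r : R, ∑ c : C, (if P r c then (1 : ℝ) else 0)) ≤ ∑ r : R, t :=
        Finset.sum_le_sum fun r _ => h2 r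
    _ = Fintype.card R * t := by simp

theorem card_filter_prod_le' (P : R → C → Prop) [∀ c, DecidablePred (fun r => P r c)]
    [DecidablePred fun p : R × C => P p.1 p.2] (t : ℝ)
    (h : ∀ c, ((univ.filter fun r : R => P r c).card : ℝ) ≤ t) :
    ((univ.filter fun p : R × C => P p.1 p.2).card : ℝ) ≤ Fintype.card C * t := by
  rw [card_filter, Fintype.sum_prod_type, Finset.sum_comm]
  push_cast
  have h2 : ∀ c : C, (∑ r : R, (if P r c then (1 : ℝ) else 0)) ≤ t := by
    intro c
    have := h c
    rw [card_filter] at this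
    push_cast at this
    exact this
  calc (∑ c : C, ∑ r : R, (if P r c then (1 : ℝ) else 0)) ≤ ∑ c : C, t :=
        Finset.sum_le_sum fun c _ => h2 c
    _ = Fintype.card C * t := by simp

/-- deep ones are few: each is the corner of more than `t^2` counted quadruples. -/
theorem deep_ones (A : R → C → Bool) (t : ℝ) (ht : 0 ≤ t) :
    ((univ.filter fun p : R × C =>
        A p.1 p.2 = true ∧ t < (zr A p.1 p.2 : ℝ) ∧ t < (zc A p.1 p.2 : ℝ)).card : ℝ) * t ^ 2
      ≤ (tcount A : ℝ) := by
  set M := univ.filter fun p : R × C =>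
        A p.1 p.2 = true ∧ t < (zr A p.1 p.2 : ℝ) ∧ t < (zc A p.1 p.2 : ℝ) with hM
  set S := M.sigma (fun p => (univ.filter fun r' : R => p.1 ≤ r' ∧ A r' p.2 = false) ×ˢ
      (univ.filter fun c' : C => p.2 ≤ c' ∧ A p.1 c' = false)) with hS
  have hcard : S.card = ∑ p ∈ M, zc A p.1 p.2 * zr A p.1 p.2 := by
    rw [hS, card_sigma]
    apply Finset.sum_congr rfl
    intro p _
    rw [card_product]
    rfl
  have hle : S.card ≤ tcount A := by
    unfold tcount
    apply card_le_card_of_injOn (fun x => ((x.1.1, x.2.1), (x.1.2, x.2.2)))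
    · intro x hx
      rw [hS] at hx
      simp only [coe_sigma, Set.mem_sigma_iff, mem_coe, mem_product, mem_filter, mem_univ,
        true_and, hM] at hx
      obtain ⟨⟨h1, -, -⟩, ⟨h2, h3⟩, h4, h5⟩ := hx
      simp only [coe_filter, mem_univ, true_and, Set.mem_ofPred_eq]
      refine ⟨?_, ?_, h1, h5, h3⟩
      · rcases lt_or_eq_of_le h2 with h | h
        · exact h
        · rw [← h, h1] at h3
          exact absurd h3 (by simp)
      · rcases lt_or_eq_of_le h4 with h | h
        · exact h
        · rw [← h, h1] at h5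
          exact absurd h5 (by simp)
    · intro x _ y _ hxy
      rcases x with ⟨⟨r, c⟩, ⟨r', c'⟩⟩
      rcases y with ⟨⟨s, d⟩, ⟨s', d'⟩⟩
      simp only [Prod.mk.injEq] at hxy
      obtain ⟨⟨h1, h2⟩, h3, h4⟩ := hxy
      subst h1 h2 h3 h4
      rfl
  have hsum : (M.card : ℝ) * t ^ 2 ≤ ∑ p ∈ M, ((zc A p.1 p.2 : ℝ) * (zr A p.1 p.2 : ℝ)) := by
    rw [← nsmul_eq_mul, ← Finset.sum_const]
    apply Finset.sum_le_sum
    intro p hp
    rw [hM] at hp
    simp only [mem_filter, mem_univ, true_and] at hp
    nlinarith [hp.2.1, hp.2.2]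
  calc (M.card : ℝ) * t ^ 2 ≤ ∑ p ∈ M, ((zc A p.1 p.2 : ℝ) * (zr A p.1 p.2 : ℝ)) := hsum
    _ = ((S.card : ℕ) : ℝ) := by rw [hcard]; push_cast; rfl
    _ ≤ (tcount A : ℝ) := by exact_mod_cast hle

/-- The rounded matrix differs from `A` in at most `t (|R| + |C|) + T / t^2` entries. -/
theorem diff_roundP_le (A : R → C → Bool) (t : ℝ) (ht : 0 < t) :
    ((univ.filter fun p : R × C => A p.1 p.2 ≠ roundP A t p.1 p.2).card : ℝ)
      ≤ t * ((Fintype.card R : ℝ) + Fintype.card C) + (tcount A : ℝ) / t ^ 2 := by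
  set M1 := univ.filter fun p : R × C => A p.1 p.2 = false ∧ (zr A p.1 p.2 : ℝ) ≤ t with hM1
  set M2 := univ.filter fun p : R × C => A p.1 p.2 = false ∧ (zc A p.1 p.2 : ℝ) ≤ t with hM2
  set M3 := univ.filter fun p : R × C =>
        A p.1 p.2 = true ∧ t < (zr A p.1 p.2 : ℝ) ∧ t < (zc A p.1 p.2 : ℝ) with hM3
  have hsub : (univ.filter fun p : R × C => A p.1 p.2 ≠ roundP A t p.1 p.2) ⊆ M1 ∪ (M2 ∪ M3) := by
    intro p hp
    simp only [mem_filter, mem_univ, true_and] at hp
    simp only [mem_union, hM1, hM2, hM3, mem_filter, mem_univ, true_and]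
    by_cases hA : A p.1 p.2 = true
    · have hB : roundP A t p.1 p.2 = false := by
        rw [hA] at hp
        cases hr : roundP A t p.1 p.2
        · rfl
        · exact absurd hr.symm hp
      rw [roundP_eq_false_iff] at hB
      right; right
      exact ⟨hA, hB.1, hB.2⟩
    · have hA' : A p.1 p.2 = false := by simpa using hA
      have hB : ¬ (roundP A t p.1 p.2 = false) := by
        intro hB
        rw [hA', hB] at hp
        exact hp rfl
      rw [roundP_eq_false_iff, not_and_or] at hB
      rcases hB with hB | hB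
      · left; exact ⟨hA', not_lt.mp hB⟩
      · right; left; exact ⟨hA', not_lt.mp hB⟩
  have h1 : (M1.card : ℝ) ≤ Fintype.card R * t := by
    rw [hM1]
    exact card_filter_prod_le (fun r c => A r c = false ∧ (zr A r c : ℝ) ≤ t) t
      (fun r => row_shallow A t ht.le r)
  have h2 : (M2.card : ℝ) ≤ Fintype.card C * t := by
    rw [hM2]
    exact card_filter_prod_le' (fun r c => A r c = false ∧ (zc A r c : ℝ) ≤ t) t
      (fun c => col_shallow A t ht.le c)
  have h3 : (M3.card : ℝ) ≤ (tcount A : ℝ) / t ^ 2 := by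
    rw [le_div_iff₀ (by positivity)]
    exact deep_ones A t ht.le
  have hc : ((univ.filter fun p : R × C => A p.1 p.2 ≠ roundP A t p.1 p.2).card : ℝ)
      ≤ (M1.card : ℝ) + ((M2.card : ℝ) + (M3.card : ℝ)) := by
    have := le_trans (card_le_card hsub) (le_trans (card_union_le _ _)
      (Nat.add_le_add_left (card_union_le _ _) _))
    exact_mod_cast this
  linarith

theorem bool_ne_not (a b : Bool) : (a ≠ !b) ↔ ((!a) ≠ b) := by
  cases a <;> cases b <;> simp

/-- number of quadruples `r < r'`, `c < c'` with `A r c = x`, `A r c' = !x`, `A r' c = !x`. -/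
noncomputable def tcountX (A : R → C → Bool) (x : Bool) : ℕ :=
  (univ.filter fun q : (R × R) × (C × C) =>
    q.1.1 < q.1.2 ∧ q.2.1 < q.2.2 ∧ A q.1.1 q.2.1 = x ∧ A q.1.1 q.2.2 = (!x) ∧
      A q.1.2 q.2.1 = (!x)).card

theorem coreX (A : R → C → Bool) (x : Bool) (t : ℝ) (ht : 0 < t) :
    ∃ B : R → C → Bool,
      (∀ r r' c c', r < r' → c < c' → ¬ (B r c = x ∧ B r c' = (!x) ∧ B r' c = (!x))) ∧
      ((univ.filter fun p : R × C => A p.1 p.2 ≠ B p.1 p.2).card : ℝ)
        ≤ t * ((Fintype.card R : ℝ) + Fintype.card C) + (tcountX A x : ℝ) / t ^ 2 := by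
  cases x
  · -- x = false: complement
    refine ⟨fun r c => !(roundP (fun r c => !(A r c)) t r c), ?_, ?_⟩
    · intro r r' c c' hr hc h
      apply roundP_free (fun r c => !(A r c)) t hr hc
      simpa using h
    · have h := diff_roundP_le (fun r c => !(A r c)) t ht
      have e1 : (univ.filter fun p : R × C =>
            A p.1 p.2 ≠ !(roundP (fun r c => !(A r c)) t p.1 p.2))
          = univ.filter fun p : R × C =>
            (fun r c => !(A r c)) p.1 p.2 ≠ roundP (fun r c => !(A r c)) t p.1 p.2 := by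
        apply filter_congr
        intro p _
        exact bool_ne_not _ _
      have e2 : tcountX A false = tcount (fun r c => !(A r c)) := by
        unfold tcountX tcount
        congr 1
        apply filter_congr
        intro q _
        simp
      rw [e1, e2]
      exact h
  · refine ⟨roundP A t, ?_, ?_⟩
    · intro r r' c c' hr hc h
      apply roundP_free A t hr hc
      simpa using h
    · have h := diff_roundP_le A t ht
      have e2 : tcountX A true = tcount A := by
        unfold tcountX tcount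
        congr 1
      rw [e2]
      exact h

theorem gen (n : ℕ) (hR : Fintype.card R = n) (hC : Fintype.card C = n)
    (A : R → C → Bool) (x y : Bool) (ε : ℝ) (hε : 0 < ε)
    (hfar : ∀ B : R → C → Bool,
      (∀ r r' c c', r < r' → c < c' → ¬ (B r c = x ∧ B r c' = (!x) ∧ B r' c = (!x))) →
        ε * (n : ℝ) ^ 2 ≤ ((univ.filter fun p : R × C => A p.1 p.2 ≠ B p.1 p.2).card : ℝ)) :
    ε ^ 3 * (n : ℝ) ^ 4 / 32 ≤
      ((univ.filter fun q : (R × R) × (C × C) =>
        q.1.1 < q.1.2 ∧ q.2.1 < q.2.2 ∧ A q.1.1 q.2.1 = x ∧ A q.1.1 q.2.2 = (!x) ∧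
          A q.1.2 q.2.1 = (!x) ∧ A q.1.2 q.2.2 = y).card : ℝ) +
      ((univ.filter fun q : (R × R) × (C × C) =>
        q.1.1 < q.1.2 ∧ q.2.1 < q.2.2 ∧ A q.1.1 q.2.1 = x ∧ A q.1.1 q.2.2 = (!x) ∧
          A q.1.2 q.2.1 = (!x) ∧ A q.1.2 q.2.2 = (!y)).card : ℝ) := by
  have hsplit : tcountX A x =
      (univ.filter fun q : (R × R) × (C × C) =>
        q.1.1 < q.1.2 ∧ q.2.1 < q.2.2 ∧ A q.1.1 q.2.1 = x ∧ A q.1.1 q.2.2 = (!x) ∧
          A q.1.2 q.2.1 = (!x) ∧ A q.1.2 q.2.2 = y).card +
      (univ.filter fun q : (R × R) × (C × C) =>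
        q.1.1 < q.1.2 ∧ q.2.1 < q.2.2 ∧ A q.1.1 q.2.1 = x ∧ A q.1.1 q.2.2 = (!x) ∧
          A q.1.2 q.2.1 = (!x) ∧ A q.1.2 q.2.2 = (!y)).card := by
    unfold tcountX
    rw [← card_filter_add_card_filter_not (s := univ.filter fun q : (R × R) × (C × C) =>
        q.1.1 < q.1.2 ∧ q.2.1 < q.2.2 ∧ A q.1.1 q.2.1 = x ∧ A q.1.1 q.2.2 = (!x) ∧
          A q.1.2 q.2.1 = (!x)) (fun q : (R × R) × (C × C) => A q.1.2 q.2.2 = y)]
    rw [filter_filter, filter_filter]
    congr 2
    · apply filter_congr
      intro q _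
      simp only [and_assoc]
    · apply filter_congr
      intro q _
      simp only [and_assoc]
      constructor
      · rintro ⟨h1, h2, h3, h4, h5, h6⟩
        refine ⟨h1, h2, h3, h4, h5, ?_⟩
        cases hq : A q.1.2 q.2.2 <;> cases y <;> simp_all
      · rintro ⟨h1, h2, h3, h4, h5, h6⟩
        refine ⟨h1, h2, h3, h4, h5, ?_⟩
        cases hq : A q.1.2 q.2.2 <;> cases y <;> simp_all
  have hgoal : ε ^ 3 * (n : ℝ) ^ 4 / 32 ≤ (tcountX A x : ℝ) := by
    rcases Nat.eq_zero_or_pos n with hn | hn
    · subst hn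
      have : (0 : ℝ) ≤ (tcountX A x : ℝ) := by positivity
      simpa using this
    · have hn' : (0 : ℝ) < n := by exact_mod_cast hn
      have ht : 0 < ε * n / 4 := by positivity
      obtain ⟨B, hB1, hB2⟩ := coreX A x (ε * n / 4) ht
      have h1 := hfar B hB1
      rw [hR, hC] at hB2
      have h2 : ε * (n : ℝ) ^ 2 ≤ ε * n / 4 * ((n : ℝ) + n) + (tcountX A x : ℝ) / (ε * n / 4) ^ 2 :=
        le_trans h1 hB2
      have h3 : ε * (n : ℝ) ^ 2 / 2 ≤ (tcountX A x : ℝ) / (ε * n / 4) ^ 2 := by
        have : ε * n / 4 * ((n : ℝ) + n) = ε * (n : ℝ) ^ 2 / 2 := by ring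
        linarith
      rw [le_div_iff₀ (by positivity)] at h3
      have : ε * (n : ℝ) ^ 2 / 2 * (ε * n / 4) ^ 2 = ε ^ 3 * (n : ℝ) ^ 4 / 32 := by ring
      linarith
  rw [hsplit] at hgoal
  push_cast at hgoal
  exact hgoal

end Vale.Agent.Lib.P037.H20
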