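import Mathlib

namespace Vale.Agent.Lib.P037.H20

/-- `copies H A` is the number of ordered copies of the `2 × 2` binary pattern `H` in the
binary `n × n` matrix `A`: the number of choices of rows `r < r'` and columns `c < c'` with
`A r c = H 0 0`, `A r c' = H 0 1`, `A r' c = H 1 0` and `A r' c' = H 1 1`
(the quadruple is stored as `((r, r'), (c, c'))`). -/
def copies {n : ℕ} (H : Fin 2 → Fin 2 → Bool) (A : Fin n → Fin n → Bool) : ℕ :=
  (Finset.univ.filter fun q : (Fin n × Fin n) × (Fin n × Fin n) =>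
    q.1.1 < q.1.2 ∧ q.2.1 < q.2.2 ∧ A q.1.1 q.2.1 = H 0 0 ∧ A q.1.1 q.2.2 = H 0 1 ∧
      A q.1.2 q.2.1 = H 1 0 ∧ A q.1.2 q.2.2 = H 1 1).card

/-- `entryDiff A B` is the number of positions `(r, c)` at which `A` and `B` differ. -/
def entryDiff {n : ℕ} (A B : Fin n → Fin n → Bool) : ℕ :=
  (Finset.univ.filter fun p : Fin n × Fin n => A p.1 p.2 ≠ B p.1 p.2).card

/-- `flipAt H i j` is the pattern `H` with its entry at position `(i, j)` negated. -/
def flipAt (H : Fin 2 → Fin 2 → Bool) (i j : Fin 2) : Fin 2 → Fin 2 → Bool :=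
  fun a b => if a = i ∧ b = j then !(H a b) else H a b

end Vale.Agent.Lib.P037.H20
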