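import Mathlib
import Vale.Agent.Lib.P037.H20.PDefs

namespace Vale.Agent.Lib.P037.H20

open Finset

/-- The removal statement with constant `1/c` and exponent `20` for a fixed `2 × 2` pattern. -/
def Rem (c : ℝ) (H : Fin 2 → Fin 2 → Bool) : Prop :=
  ∀ (n : ℕ) (ε : ℝ) (A : Fin n → Fin n → Bool), 1 ≤ n → 0 < ε → ε < 1 →
    (∀ B : Fin n → Fin n → Bool, PatternFree H B → ε * (n : ℝ) ^ 2 ≤ (diffCount A B : ℝ)) →
    ε ^ 20 / c * (n : ℝ) ^ 4 ≤ (copyCount H A : ℝ)

/-- Entrywise complement. -/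
def mcompl {k : ℕ} (M : Fin k → Fin k → Bool) : Fin k → Fin k → Bool := fun i j => !(M i j)

/-- Reversal of the row order. -/
def mrrev {k : ℕ} (M : Fin k → Fin k → Bool) : Fin k → Fin k → Bool := fun i j => M (Fin.rev i) j

/-- Reversal of the column order. -/
def mcrev {k : ℕ} (M : Fin k → Fin k → Bool) : Fin k → Fin k → Bool := fun i j => M i (Fin.rev j)

/-- Transpose. -/
def mtransp {k : ℕ} (M : Fin k → Fin k → Bool) : Fin k → Fin k → Bool := fun i j => M j i

theorem mcompl_mcompl {k : ℕ} (M : Fin k → Fin k → Bool) : mcompl (mcompl M) = M := by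
  funext i j; simp [mcompl]

theorem mrrev_mrrev {k : ℕ} (M : Fin k → Fin k → Bool) : mrrev (mrrev M) = M := by
  funext i j; simp [mrrev]

theorem mcrev_mcrev {k : ℕ} (M : Fin k → Fin k → Bool) : mcrev (mcrev M) = M := by
  funext i j; simp [mcrev]

theorem mtransp_mtransp {k : ℕ} (M : Fin k → Fin k → Bool) : mtransp (mtransp M) = M := by
  funext i j; simp [mtransp]

theorem copyCount_le_of_map {k n : ℕ} (H H' : Fin k → Fin k → Bool)
    (A A' : Fin n → Fin n → Bool)
    (φ : (Fin k → Fin n) × (Fin k → Fin n) → (Fin k → Fin n) × (Fin k → Fin n))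
    (hφ : Function.Injective φ)
    (hmap : ∀ p : (Fin k → Fin n) × (Fin k → Fin n),
      (StrictMono p.1 ∧ StrictMono p.2 ∧ ∀ i j, A (p.1 i) (p.2 j) = H i j) →
      (StrictMono (φ p).1 ∧ StrictMono (φ p).2 ∧ ∀ i j, A' ((φ p).1 i) ((φ p).2 j) = H' i j)) :
    copyCount H A ≤ copyCount H' A' := by
  unfold copyCount
  exact Nat.card_le_card_of_injective (Subtype.map φ hmap) (Subtype.map_injective hmap hφ)

theorem patternFree_of_map {k n : ℕ} (H H' : Fin k → Fin k → Bool)
    (A A' : Fin n → Fin n → Bool)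
    (φ : (Fin k → Fin n) × (Fin k → Fin n) → (Fin k → Fin n) × (Fin k → Fin n))
    (hmap : ∀ p : (Fin k → Fin n) × (Fin k → Fin n),
      (StrictMono p.1 ∧ StrictMono p.2 ∧ ∀ i j, A (p.1 i) (p.2 j) = H i j) →
      (StrictMono (φ p).1 ∧ StrictMono (φ p).2 ∧ ∀ i j, A' ((φ p).1 i) ((φ p).2 j) = H' i j))
    (h : PatternFree H' A') : PatternFree H A := by
  intro r c hr hc hall
  obtain ⟨h1, h2, h3⟩ := hmap (r, c) ⟨hr, hc, hall⟩
  exact h _ _ h1 h2 h3

theorem diffCount_le_of_map {n : ℕ} (A B A' B' : Fin n → Fin n → Bool)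
    (ψ : Fin n × Fin n → Fin n × Fin n) (hψ : Function.Injective ψ)
    (hmap : ∀ p : Fin n × Fin n, A p.1 p.2 ≠ B p.1 p.2 →
      A' (ψ p).1 (ψ p).2 ≠ B' (ψ p).1 (ψ p).2) :
    diffCount A B ≤ diffCount A' B' := by
  unfold diffCount
  exact Nat.card_le_card_of_injective
    (Subtype.map (p := fun p : Fin n × Fin n => A p.1 p.2 ≠ B p.1 p.2)
      (q := fun p : Fin n × Fin n => A' p.1 p.2 ≠ B' p.1 p.2) ψ hmap)
    (Subtype.map_injective (p := fun p : Fin n × Fin n => A p.1 p.2 ≠ B p.1 p.2)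
      (q := fun p : Fin n × Fin n => A' p.1 p.2 ≠ B' p.1 p.2) hmap hψ)

theorem Rem_transfer (c : ℝ) (H H' : Fin 2 → Fin 2 → Bool)
    (T : ∀ {n : ℕ}, (Fin n → Fin n → Bool) → (Fin n → Fin n → Bool))
    (hfree : ∀ {n : ℕ} (B : Fin n → Fin n → Bool), PatternFree H B → PatternFree H' (T B))
    (hcount : ∀ {n : ℕ} (A : Fin n → Fin n → Bool), copyCount H (T A) ≤ copyCount H' A)
    (hdiff : ∀ {n : ℕ} (A B : Fin n → Fin n → Bool), diffCount A (T B) ≤ diffCount (T A) B)
    (h : Rem c H) : Rem c H' := by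
  intro n ε A hn h0 h1 hfar
  have hd : ∀ B : Fin n → Fin n → Bool, PatternFree H B →
      ε * (n : ℝ) ^ 2 ≤ (diffCount (T A) B : ℝ) := by
    intro B hB
    have h2 : (diffCount A (T B) : ℝ) ≤ (diffCount (T A) B : ℝ) := by
      exact_mod_cast hdiff A B
    exact le_trans (hfar (T B) (hfree B hB)) h2
  have h3 := h n ε (T A) hn h0 h1 hd
  have h4 : (copyCount H (T A) : ℝ) ≤ (copyCount H' A : ℝ) := by exact_mod_cast hcount A
  exact le_trans h3 h4

/-! ### Complement -/

theorem compl_map {k n : ℕ} (H : Fin k → Fin k → Bool) (A : Fin n → Fin n → Bool)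
    (p : (Fin k → Fin n) × (Fin k → Fin n))
    (h : StrictMono p.1 ∧ StrictMono p.2 ∧ ∀ i j, A (p.1 i) (p.2 j) = H i j) :
    StrictMono (id p).1 ∧ StrictMono (id p).2 ∧
      ∀ i j, mcompl A ((id p).1 i) ((id p).2 j) = mcompl H i j := by
  refine ⟨h.1, h.2.1, ?_⟩
  intro i j
  simp [mcompl, h.2.2 i j]

theorem Rem_compl (c : ℝ) (H : Fin 2 → Fin 2 → Bool) (h : Rem c H) : Rem c (mcompl H) := by
  refine Rem_transfer c H (mcompl H) (fun A => mcompl A) ?_ ?_ ?_ h
  · intro n B hB
    refine patternFree_of_map (mcompl H) H (mcompl B) B id ?_ hB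
    intro p hp
    have := compl_map (mcompl H) (mcompl B) p hp
    rwa [mcompl_mcompl, mcompl_mcompl] at this
  · intro n A
    refine copyCount_le_of_map H (mcompl H) (mcompl A) A id Function.injective_id ?_
    intro p hp
    have := compl_map H (mcompl A) p hp
    rwa [mcompl_mcompl] at this
  · intro n A B
    refine diffCount_le_of_map A (mcompl B) (mcompl A) B id Function.injective_id ?_
    intro p hp
    simp only [id, mcompl] at hp ⊢
    intro hcon
    apply hp
    rw [← hcon]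
    simp

/-! ### Row reversal -/

theorem rrev_map {k n : ℕ} (H : Fin k → Fin k → Bool) (A : Fin n → Fin n → Bool)
    (p : (Fin k → Fin n) × (Fin k → Fin n))
    (h : StrictMono p.1 ∧ StrictMono p.2 ∧ ∀ i j, A (p.1 i) (p.2 j) = H i j) :
    StrictMono (fun i => Fin.rev (p.1 (Fin.rev i))) ∧ StrictMono p.2 ∧
      ∀ i j, mrrev A (Fin.rev (p.1 (Fin.rev i))) (p.2 j) = mrrev H i j := by
  refine ⟨?_, h.2.1, ?_⟩
  · intro i j hij
    exact Fin.rev_lt_rev.mpr (h.1 (Fin.rev_lt_rev.mpr hij))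
  · intro i j
    simp [mrrev, h.2.2]

theorem rrev_inj {k n : ℕ} : Function.Injective
    (fun p : (Fin k → Fin n) × (Fin k → Fin n) =>
      ((fun i => Fin.rev (p.1 (Fin.rev i))), p.2)) := by
  intro p p' h
  simp only [Prod.mk.injEq] at h
  obtain ⟨h1, h2⟩ := h
  refine Prod.ext ?_ h2
  funext i
  have := congrFun h1 (Fin.rev i)
  simpa using this

theorem Rem_rrev (c : ℝ) (H : Fin 2 → Fin 2 → Bool) (h : Rem c H) : Rem c (mrrev H) := by
  refine Rem_transfer c H (mrrev H) (fun A => mrrev A) ?_ ?_ ?_ h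
  · intro n B hB
    refine patternFree_of_map (mrrev H) H (mrrev B) B
      (fun p => ((fun i => Fin.rev (p.1 (Fin.rev i))), p.2)) ?_ hB
    intro p hp
    have := rrev_map (mrrev H) (mrrev B) p hp
    rwa [mrrev_mrrev, mrrev_mrrev] at this
  · intro n A
    refine copyCount_le_of_map H (mrrev H) (mrrev A) A
      (fun p => ((fun i => Fin.rev (p.1 (Fin.rev i))), p.2)) rrev_inj ?_
    intro p hp
    have := rrev_map H (mrrev A) p hp
    rwa [mrrev_mrrev] at this
  · intro n A B
    refine diffCount_le_of_map A (mrrev B) (mrrev A) B (fun p => (Fin.rev p.1, p.2)) ?_ ?_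
    · intro p p' hpp
      simp only [Prod.mk.injEq] at hpp
      exact Prod.ext (Fin.rev_injective hpp.1) hpp.2
    · intro p hp
      simpa [mrrev] using hp

/-! ### Column reversal -/

theorem crev_map {k n : ℕ} (H : Fin k → Fin k → Bool) (A : Fin n → Fin n → Bool)
    (p : (Fin k → Fin n) × (Fin k → Fin n))
    (h : StrictMono p.1 ∧ StrictMono p.2 ∧ ∀ i j, A (p.1 i) (p.2 j) = H i j) :
    StrictMono p.1 ∧ StrictMono (fun j => Fin.rev (p.2 (Fin.rev j))) ∧
      ∀ i j, mcrev A (p.1 i) (Fin.rev (p.2 (Fin.rev j))) = mcrev H i j := by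
  refine ⟨h.1, ?_, ?_⟩
  · intro i j hij
    exact Fin.rev_lt_rev.mpr (h.2.1 (Fin.rev_lt_rev.mpr hij))
  · intro i j
    simp [mcrev, h.2.2]

theorem crev_inj {k n : ℕ} : Function.Injective
    (fun p : (Fin k → Fin n) × (Fin k → Fin n) =>
      (p.1, (fun j => Fin.rev (p.2 (Fin.rev j))))) := by
  intro p p' h
  simp only [Prod.mk.injEq] at h
  obtain ⟨h1, h2⟩ := h
  refine Prod.ext h1 ?_
  funext i
  have := congrFun h2 (Fin.rev i)
  simpa using this

theorem Rem_crev (c : ℝ) (H : Fin 2 → Fin 2 → Bool) (h : Rem c H) : Rem c (mcrev H) := by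
  refine Rem_transfer c H (mcrev H) (fun A => mcrev A) ?_ ?_ ?_ h
  · intro n B hB
    refine patternFree_of_map (mcrev H) H (mcrev B) B
      (fun p => (p.1, (fun j => Fin.rev (p.2 (Fin.rev j))))) ?_ hB
    intro p hp
    have := crev_map (mcrev H) (mcrev B) p hp
    rwa [mcrev_mcrev, mcrev_mcrev] at this
  · intro n A
    refine copyCount_le_of_map H (mcrev H) (mcrev A) A
      (fun p => (p.1, (fun j => Fin.rev (p.2 (Fin.rev j))))) crev_inj ?_
    intro p hp
    have := crev_map H (mcrev A) p hp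
    rwa [mcrev_mcrev] at this
  · intro n A B
    refine diffCount_le_of_map A (mcrev B) (mcrev A) B (fun p => (p.1, Fin.rev p.2)) ?_ ?_
    · intro p p' hpp
      simp only [Prod.mk.injEq] at hpp
      exact Prod.ext hpp.1 (Fin.rev_injective hpp.2)
    · intro p hp
      simpa [mcrev] using hp

/-! ### Transpose -/

theorem transp_map {k n : ℕ} (H : Fin k → Fin k → Bool) (A : Fin n → Fin n → Bool)
    (p : (Fin k → Fin n) × (Fin k → Fin n))
    (h : StrictMono p.1 ∧ StrictMono p.2 ∧ ∀ i j, A (p.1 i) (p.2 j) = H i j) :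
    StrictMono p.swap.1 ∧ StrictMono p.swap.2 ∧
      ∀ i j, mtransp A (p.swap.1 i) (p.swap.2 j) = mtransp H i j := by
  refine ⟨h.2.1, h.1, ?_⟩
  intro i j
  simp [mtransp, h.2.2]

theorem Rem_transp (c : ℝ) (H : Fin 2 → Fin 2 → Bool) (h : Rem c H) : Rem c (mtransp H) := by
  refine Rem_transfer c H (mtransp H) (fun A => mtransp A) ?_ ?_ ?_ h
  · intro n B hB
    refine patternFree_of_map (mtransp H) H (mtransp B) B Prod.swap ?_ hB
    intro p hp
    have := transp_map (mtransp H) (mtransp B) p hp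
    rwa [mtransp_mtransp, mtransp_mtransp] at this
  · intro n A
    refine copyCount_le_of_map H (mtransp H) (mtransp A) A Prod.swap Prod.swap_injective ?_
    intro p hp
    have := transp_map H (mtransp A) p hp
    rwa [mtransp_mtransp] at this
  · intro n A B
    refine diffCount_le_of_map A (mtransp B) (mtransp A) B Prod.swap Prod.swap_injective ?_
    intro p hp
    simpa [mtransp] using hp

end Vale.Agent.Lib.P037.H20
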