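import Mathlib
import Vale.Agent.Lib.P037.H20.JBase
import Vale.Agent.Lib.P037.H20.Sym

namespace Vale.Agent.Lib.P037.H20

open Finset

variable {n : ℕ}

/-- `dcp h A r r' c c'`: rows `r < r'` and columns `c < c'` carry the pattern with two equal
rows `(h 0, h 1)`. -/
def dcp (h : Fin 2 → Bool) (A : Fin n → Fin n → Bool) (r r' c c' : Fin n) : Prop :=
  r < r' ∧ c < c' ∧ A r c = h 0 ∧ A r' c = h 0 ∧ A r c' = h 1 ∧ A r' c' = h 1

instance (h : Fin 2 → Bool) (A : Fin n → Fin n → Bool) (r r' c c' : Fin n) :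
    Decidable (dcp h A r r' c c') := by
  unfold dcp; infer_instance

def dN (h : Fin 2 → Bool) (A : Fin n → Fin n → Bool) : ℕ :=
  ∑ c, ∑ c', ∑ r, ∑ r', if dcp h A r r' c c' then 1 else 0

def dM (h : Fin 2 → Bool) (A : Fin n → Fin n → Bool) : ℕ :=
  ∑ r, ∑ c, ∑ c', if (c < c' ∧ A r c = h 0 ∧ A r c' = h 1) then 1 else 0

/-- Row-wise threshold rounding for a pattern with two equal rows. -/
theorem d_round (h : Fin 2 → Bool) (A : Fin n → Fin n → Bool) :
    ∃ B : Fin n → Fin n → Bool,
      (∀ r c c', ¬ (c < c' ∧ B r c = h 0 ∧ B r c' = h 1)) ∧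
      ((univ.filter (fun p : Fin n × Fin n => A p.1 p.2 ≠ B p.1 p.2)).card) ^ 2 ≤
        8 * n * (dM h A + n) := by
  classical
  have hrow : ∀ r : Fin n, ∃ τ : ℕ,
      ((univ.filter (fun c : Fin n => A r c ≠ (if c.val < τ then !(h 0) else !(h 1)))).card) ^ 2 ≤
        8 * ((∑ c, ∑ c', if (c < c' ∧ A r c = h 0 ∧ A r c' = h 1) then 1 else 0) + 1) := by
    intro r
    obtain ⟨τ, hτ⟩ := jround_exists (fun c : Fin n => c.val) Fin.val_injective
      (univ.filter (fun c : Fin n => A r c = h 0)) (univ.filter (fun c : Fin n => A r c = h 1))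
    refine ⟨τ, ?_⟩
    have h1 : (univ.filter (fun c : Fin n => A r c ≠ (if c.val < τ then !(h 0) else !(h 1)))).card ≤
        ((univ.filter (fun c : Fin n => A r c = h 0)).filter (fun a => a.val < τ)).card +
        ((univ.filter (fun c : Fin n => A r c = h 1)).filter (fun b => τ ≤ b.val)).card := by
      refine le_trans (card_le_card ?_) (card_union_le _ _)
      intro c hc
      simp only [mem_filter, mem_univ, true_and, mem_union] at hc ⊢
      by_cases hlt : c.val < τ
      · left
        rw [if_pos hlt] at hc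
        refine ⟨?_, hlt⟩
        cases hA : A r c <;> cases h0 : h 0 <;> simp_all
      · right
        rw [if_neg hlt] at hc
        refine ⟨?_, by omega⟩
        cases hA : A r c <;> cases h1 : h 1 <;> simp_all
    have h2 : (((univ.filter (fun c : Fin n => A r c = h 0)) ×ˢ
        (univ.filter (fun c : Fin n => A r c = h 1))).filter
        (fun p => p.1.val < p.2.val)).card =
        ∑ c, ∑ c', if (c < c' ∧ A r c = h 0 ∧ A r c' = h 1) then 1 else 0 := by
      rw [Finset.card_filter, Finset.sum_product, Finset.sum_filter]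
      apply Finset.sum_congr rfl
      intro x _
      by_cases hx : A r x = h 0
      · rw [if_pos hx, Finset.sum_filter]
        apply Finset.sum_congr rfl
        intro y _
        by_cases hy : A r y = h 1 <;> by_cases hk : x.val < y.val <;>
          simp [hx, hy, hk, Fin.lt_def]
      · rw [if_neg hx]
        symm
        apply Finset.sum_eq_zero
        intro y _
        simp [hx]
    rw [h2] at hτ
    exact le_trans (Nat.pow_le_pow_left h1 2) hτ
  choose τ hτ using hrow
  refine ⟨fun r c => if c.val < τ r then !(h 0) else !(h 1), ?_, ?_⟩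
  · intro r c c' hcon
    obtain ⟨hlt, h1, h2⟩ := hcon
    beta_reduce at h1 h2
    have hlt' : c.val < c'.val := hlt
    by_cases hc : c.val < τ r
    · rw [if_pos hc] at h1
      cases h0 : h 0 <;> simp [h0] at h1
    · have hc' : ¬ c'.val < τ r := by omega
      rw [if_neg hc'] at h2
      cases h0 : h 1 <;> simp [h0] at h2
  · have hc1 : (univ.filter (fun p : Fin n × Fin n =>
        A p.1 p.2 ≠ (if p.2.val < τ p.1 then !(h 0) else !(h 1)))).card =
        ∑ r, (univ.filter (fun c : Fin n =>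
          A r c ≠ (if c.val < τ r then !(h 0) else !(h 1)))).card := by
      rw [Finset.card_filter, Fintype.sum_prod_type]
      apply Finset.sum_congr rfl
      intro r _
      rw [Finset.card_filter]
    rw [hc1]
    have h1 : (∑ r, (univ.filter (fun c : Fin n =>
          A r c ≠ (if c.val < τ r then !(h 0) else !(h 1)))).card) ^ 2 ≤
        n * ∑ r, ((univ.filter (fun c : Fin n =>
          A r c ≠ (if c.val < τ r then !(h 0) else !(h 1)))).card) ^ 2 := by
      have := sq_sum_le_card_mul_sum_sq (s := (univ : Finset (Fin n)))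
        (f := fun r => (univ.filter (fun c : Fin n =>
          A r c ≠ (if c.val < τ r then !(h 0) else !(h 1)))).card)
      simpa using this
    have h2 : ∑ r, ((univ.filter (fun c : Fin n =>
          A r c ≠ (if c.val < τ r then !(h 0) else !(h 1)))).card) ^ 2 ≤
        ∑ r : Fin n, 8 * ((∑ c, ∑ c', if (c < c' ∧ A r c = h 0 ∧ A r c' = h 1) then 1 else 0) + 1) :=
      Finset.sum_le_sum (fun r _ => hτ r)
    have h3 : ∑ r : Fin n,
        8 * ((∑ c, ∑ c', if (c < c' ∧ A r c = h 0 ∧ A r c' = h 1) then 1 else 0) + 1)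
        = 8 * (dM h A + n) := by
      rw [← Finset.mul_sum, Finset.sum_add_distrib]
      unfold dM
      simp
    calc (∑ r, (univ.filter (fun c : Fin n =>
          A r c ≠ (if c.val < τ r then !(h 0) else !(h 1)))).card) ^ 2
        ≤ n * ∑ r, ((univ.filter (fun c : Fin n =>
          A r c ≠ (if c.val < τ r then !(h 0) else !(h 1)))).card) ^ 2 := h1
      _ ≤ n * (8 * (dM h A + n)) := Nat.mul_le_mul_left _ (h2.trans h3.le)
      _ = 8 * n * (dM h A + n) := by ring

/-- Pairs inside a finite set of rows: the square of its size is at most twice the number of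
increasing pairs plus its size. -/
theorem card_sq_le_pairs (R : Finset (Fin n)) :
    R.card ^ 2 ≤ 2 * ((R ×ˢ R).filter (fun p => p.1 < p.2)).card + R.card := by
  classical
  have hsub : R ×ˢ R ⊆ ((R ×ˢ R).filter (fun p => p.1 < p.2)) ∪
      (((R ×ˢ R).filter (fun p => p.1 < p.2)).image Prod.swap) ∪
      (R.image (fun r => (r, r))) := by
    intro p hp
    obtain ⟨h1, h2⟩ := Finset.mem_product.mp hp
    rcases lt_trichotomy p.1 p.2 with hlt | heq | hgt
    · exact Finset.mem_union.mpr (Or.inl (Finset.mem_union.mpr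
        (Or.inl (Finset.mem_filter.mpr ⟨hp, hlt⟩))))
    · refine Finset.mem_union.mpr (Or.inr (Finset.mem_image.mpr ⟨p.1, h1, ?_⟩))
      exact Prod.ext rfl heq
    · refine Finset.mem_union.mpr (Or.inl (Finset.mem_union.mpr (Or.inr
        (Finset.mem_image.mpr ⟨p.swap, ?_, Prod.swap_swap p⟩))))
      exact Finset.mem_filter.mpr ⟨Finset.mem_product.mpr ⟨h2, h1⟩, hgt⟩
  have h1 := Finset.card_le_card hsub
  have h2 := Finset.card_union_le (((R ×ˢ R).filter (fun p => p.1 < p.2)) ∪
      (((R ×ˢ R).filter (fun p => p.1 < p.2)).image Prod.swap)) (R.image (fun r => (r, r)))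
  have h3 := Finset.card_union_le ((R ×ˢ R).filter (fun p => p.1 < p.2))
      (((R ×ˢ R).filter (fun p => p.1 < p.2)).image Prod.swap)
  have h4 : (((R ×ˢ R).filter (fun p => p.1 < p.2)).image Prod.swap).card ≤
      ((R ×ˢ R).filter (fun p => p.1 < p.2)).card := Finset.card_image_le
  have h5 : (R.image (fun r => (r, r))).card ≤ R.card := Finset.card_image_le
  have h6 : (R ×ˢ R).card = R.card ^ 2 := by
    rw [card_product]; ring
  omega

/-- Cauchy-Schwarz step: many row-inversions force many copies. -/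
theorem dM_sq_le (h : Fin 2 → Bool) (A : Fin n → Fin n → Bool) :
    dM h A ^ 2 ≤ n ^ 2 * (2 * dN h A + dM h A) := by
  classical
  set m : Fin n × Fin n → ℕ := fun p =>
    if p.1 < p.2 then (univ.filter (fun r : Fin n => A r p.1 = h 0 ∧ A r p.2 = h 1)).card else 0
    with hm
  set L : Fin n × Fin n → ℕ := fun p => ∑ r, ∑ r', if dcp h A r r' p.1 p.2 then 1 else 0 with hL
  have hMsum : dM h A = ∑ p : Fin n × Fin n, m p := by
    unfold dM
    rw [Fintype.sum_prod_type]
    calc ∑ r : Fin n, ∑ c : Fin n, ∑ c' : Fin n,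
          (if (c < c' ∧ A r c = h 0 ∧ A r c' = h 1) then 1 else 0)
        = ∑ c : Fin n, ∑ r : Fin n, ∑ c' : Fin n,
          (if (c < c' ∧ A r c = h 0 ∧ A r c' = h 1) then 1 else 0) := Finset.sum_comm
      _ = ∑ c : Fin n, ∑ c' : Fin n, ∑ r : Fin n,
          (if (c < c' ∧ A r c = h 0 ∧ A r c' = h 1) then 1 else 0) :=
          Finset.sum_congr rfl (fun c _ => Finset.sum_comm)
      _ = ∑ c : Fin n, ∑ c' : Fin n, m (c, c') := by
          apply Finset.sum_congr rfl
          intro c _
          apply Finset.sum_congr rfl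
          intro c' _
          rw [hm]
          simp only
          by_cases hlt : c < c'
          · rw [if_pos hlt, Finset.card_filter]
            apply Finset.sum_congr rfl
            intro r _
            simp [hlt]
          · rw [if_neg hlt]
            apply Finset.sum_eq_zero
            intro r _
            simp [hlt]
  have hNsum : dN h A = ∑ p : Fin n × Fin n, L p := by
    unfold dN
    rw [Fintype.sum_prod_type]
  have hpt : ∀ p : Fin n × Fin n, m p ^ 2 ≤ 2 * L p + m p := by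
    intro p
    by_cases hlt : p.1 < p.2
    · set R := (univ : Finset (Fin n)).filter (fun r : Fin n => A r p.1 = h 0 ∧ A r p.2 = h 1)
        with hR
      have hmR : m p = R.card := by
        rw [hm]
        simp only
        rw [if_pos hlt]
      have hLR : ((R ×ˢ R).filter (fun q => q.1 < q.2)).card ≤ L p := by
        have hsub : (R ×ˢ R).filter (fun q => q.1 < q.2) ⊆
            (univ : Finset (Fin n × Fin n)).filter (fun q => dcp h A q.1 q.2 p.1 p.2) := by
          intro q hq
          obtain ⟨hq1, hq2⟩ := Finset.mem_filter.mp hq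
          obtain ⟨ha, hb⟩ := Finset.mem_product.mp hq1
          have ha' := (Finset.mem_filter.mp ha).2
          have hb' := (Finset.mem_filter.mp hb).2
          exact Finset.mem_filter.mpr ⟨mem_univ _, hq2, hlt, ha'.1, hb'.1, ha'.2, hb'.2⟩
        refine le_trans (Finset.card_le_card hsub) (le_of_eq ?_)
        rw [hL, Finset.card_filter, Fintype.sum_prod_type]
      have := card_sq_le_pairs R
      rw [hmR]
      omega
    · have : m p = 0 := by
        rw [hm]
        simp only
        rw [if_neg hlt]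
      rw [this]
      simp
  have hCS : (∑ p : Fin n × Fin n, m p) ^ 2 ≤ n ^ 2 * ∑ p : Fin n × Fin n, m p ^ 2 := by
    have := sq_sum_le_card_mul_sum_sq (s := (univ : Finset (Fin n × Fin n))) (f := m)
    have hcard : (univ : Finset (Fin n × Fin n)).card = n ^ 2 := by
      simp [sq]
    rw [hcard] at this
    exact this
  have hsum : ∑ p : Fin n × Fin n, m p ^ 2 ≤ 2 * dN h A + dM h A := by
    rw [hNsum, hMsum, Finset.mul_sum, ← Finset.sum_add_distrib]
    exact Finset.sum_le_sum (fun p _ => hpt p)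
  calc dM h A ^ 2 = (∑ p : Fin n × Fin n, m p) ^ 2 := by rw [hMsum]
    _ ≤ n ^ 2 * ∑ p : Fin n × Fin n, m p ^ 2 := hCS
    _ ≤ n ^ 2 * (2 * dN h A + dM h A) := Nat.mul_le_mul_left _ hsum

theorem dN_eq_card (h : Fin 2 → Bool) (A : Fin n → Fin n → Bool) :
    dN h A = (univ.filter (fun p : Fin n × Fin n × Fin n × Fin n =>
      dcp h A p.2.2.1 p.2.2.2 p.1 p.2.1)).card := by
  unfold dN
  rw [Finset.card_filter, Fintype.sum_prod_type]
  apply Finset.sum_congr rfl
  intro c _
  rw [Fintype.sum_prod_type]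
  apply Finset.sum_congr rfl
  intro c' _
  rw [Fintype.sum_prod_type]

theorem dN_le_copyCount (h : Fin 2 → Bool) (A : Fin n → Fin n → Bool) :
    dN h A ≤ copyCount (fun _ j => h j) A := by
  classical
  rw [dN_eq_card]
  unfold copyCount
  rw [Nat.card_eq_fintype_card, Fintype.card_subtype]
  apply Finset.card_le_card_of_injOn
    (fun p : Fin n × Fin n × Fin n × Fin n =>
      ((![p.2.2.1, p.2.2.2] : Fin 2 → Fin n), (![p.1, p.2.1] : Fin 2 → Fin n)))
  · intro p hp
    simp only [coe_filter, mem_univ, true_and, Set.mem_ofPred_eq] at hp ⊢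
    obtain ⟨h1, h2, h3, h4, h5, h6⟩ := hp
    refine ⟨?_, ?_, ?_⟩
    · intro i j hij
      fin_cases i <;> fin_cases j <;> simp_all
    · intro i j hij
      fin_cases i <;> fin_cases j <;> simp_all
    · intro i j
      fin_cases i <;> fin_cases j <;> simp [h3, h4, h5, h6]
  · intro p _ p' _ hpp
    simp only [Prod.mk.injEq] at hpp
    obtain ⟨h1, h2⟩ := hpp
    have e1 := congrFun h1 0
    have e2 := congrFun h1 1
    have e3 := congrFun h2 0
    have e4 := congrFun h2 1
    simp only [Matrix.cons_val_zero, Matrix.cons_val_one] at e1 e2 e3 e4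
    ext <;> simp_all

theorem d_patternFree (h : Fin 2 → Bool) (B : Fin n → Fin n → Bool)
    (hB : ∀ r c c', ¬ (c < c' ∧ B r c = h 0 ∧ B r c' = h 1)) :
    PatternFree (fun _ j => h j) B := by
  intro r c _ hc hall
  exact hB (r 0) (c 0) (c 1) ⟨hc (by decide), hall 0 0, hall 0 1⟩

theorem d_numeric (ε n M N s : ℝ) (hε0 : 0 < ε) (hε1 : ε < 1) (hn : 1 ≤ n) (hM : 0 ≤ M)
    (hN : 1 ≤ N) (h1 : ε * n ^ 2 ≤ s) (h2 : s ^ 2 ≤ 8 * n * (M + n))
    (h3 : M ^ 2 ≤ n ^ 2 * (2 * N + M)) : ε ^ 20 / 10 ^ 26 * n ^ 4 ≤ N := by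
  have hn0 : 0 < n := by linarith
  obtain ⟨E, hE⟩ : ∃ E : ℝ, E = ε ^ 2 := ⟨ε ^ 2, rfl⟩
  have hE0 : 0 < E := by rw [hE]; positivity
  have hE1 : E < 1 := by rw [hE]; nlinarith
  have hE10 : ε ^ 20 = E ^ 10 := by rw [hE]; ring
  rw [div_mul_eq_mul_div, div_le_iff₀ (by positivity), hE10]
  by_cases hbig : 32 ≤ E * n
  · -- large n
    have hA : (ε * n ^ 2) ^ 2 ≤ s ^ 2 := pow_le_pow_left₀ (by positivity) h1 2
    have hA0 : (ε * n ^ 2) ^ 2 = E * n ^ 4 := by rw [hE]; ring
    have hB : E * n ^ 4 ≤ 8 * n * M + 8 * n ^ 2 := by nlinarith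
    have hB' : E * n ^ 3 ≤ 8 * M + 8 * n := by
      have e1 : E * n ^ 4 = n * (E * n ^ 3) := by ring
      have e2 : 8 * n * M + 8 * n ^ 2 = n * (8 * M + 8 * n) := by ring
      rw [e1, e2] at hB
      exact le_of_mul_le_mul_left hB hn0
    have hn2 : 32 * n ^ 2 ≤ E * n ^ 3 := by
      have := mul_le_mul_of_nonneg_right hbig (sq_nonneg n)
      have e : E * n * n ^ 2 = E * n ^ 3 := by ring
      linarith
    have hn1 : n ≤ n ^ 2 := by nlinarith
    have hM1 : E * n ^ 3 ≤ 16 * M := by nlinarith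
    have hM2 : 2 * n ^ 2 ≤ M := by nlinarith
    have hN1 : M ^ 2 ≤ 4 * n ^ 2 * N := by nlinarith
    have hsq : (E * n ^ 3) ^ 2 ≤ (16 * M) ^ 2 := pow_le_pow_left₀ (by positivity) hM1 2
    have hN2 : E ^ 2 * n ^ 6 ≤ 1024 * n ^ 2 * N := by nlinarith
    have hN3 : E ^ 2 * n ^ 4 ≤ 1024 * N := by
      have e1 : E ^ 2 * n ^ 6 = n ^ 2 * (E ^ 2 * n ^ 4) := by ring
      have e2 : 1024 * n ^ 2 * N = n ^ 2 * (1024 * N) := by ring
      rw [e1, e2] at hN2
      exact le_of_mul_le_mul_left hN2 (by positivity)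
    have hE8 : E ^ 10 ≤ E ^ 2 := by
      have h8 : E ^ 8 ≤ 1 := pow_le_one₀ hE0.le hE1.le
      have e : E ^ 10 = E ^ 2 * E ^ 8 := by ring
      rw [e]
      have := mul_le_mul_of_nonneg_left h8 (sq_nonneg E)
      linarith
    have hn4 : 0 ≤ n ^ 4 := by positivity
    have s1 : E ^ 10 * n ^ 4 ≤ E ^ 2 * n ^ 4 := mul_le_mul_of_nonneg_right hE8 hn4
    have s2 : (1024 : ℝ) * N ≤ 10 ^ 26 * N := by
      have : (1024 : ℝ) ≤ 10 ^ 26 := by norm_num
      exact mul_le_mul_of_nonneg_right this (by linarith)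
    linarith
  · -- small n
    have hlt : E * n < 32 := not_le.mp hbig
    have hEn0 : 0 ≤ E * n := by positivity
    have h4 : (E * n) ^ 4 ≤ 32 ^ 4 := pow_le_pow_left₀ hEn0 hlt.le 4
    have hE6 : E ^ 10 ≤ E ^ 4 := by
      have h6 : E ^ 6 ≤ 1 := pow_le_one₀ hE0.le hE1.le
      have e : E ^ 10 = E ^ 4 * E ^ 6 := by ring
      rw [e]
      have := mul_le_mul_of_nonneg_left h6 (by positivity : (0 : ℝ) ≤ E ^ 4)
      linarith
    have hn4 : 0 ≤ n ^ 4 := by positivity
    have s1 : E ^ 10 * n ^ 4 ≤ E ^ 4 * n ^ 4 := mul_le_mul_of_nonneg_right hE6 hn4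
    have e : E ^ 4 * n ^ 4 = (E * n) ^ 4 := by ring
    have s2 : (32 : ℝ) ^ 4 ≤ 10 ^ 26 * N := by
      have : (32 : ℝ) ^ 4 ≤ 10 ^ 26 := by norm_num
      nlinarith
    linarith

/-- Polynomial removal for every `2 × 2` pattern with two equal rows. -/
theorem Rem_eqrows (h : Fin 2 → Bool) : Rem (10 ^ 26) (fun _ j => h j) := by
  classical
  intro n ε A hn hε0 hε1 hfar
  have hnR : (1 : ℝ) ≤ (n : ℝ) := by exact_mod_cast hn
  have hle : (dN h A : ℝ) ≤ (copyCount (fun _ j => h j) A : ℝ) := by
    exact_mod_cast dN_le_copyCount h A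
  have hdiff : ∀ B : Fin n → Fin n → Bool, diffCount A B =
      (univ.filter (fun p : Fin n × Fin n => A p.1 p.2 ≠ B p.1 p.2)).card := by
    intro B
    unfold diffCount
    rw [Nat.card_eq_fintype_card, Fintype.card_subtype]
  -- the matrix is not pattern-free
  have hNpos : 0 < dN h A := by
    by_contra h0
    have h0' : dN h A = 0 := by omega
    have hfree : PatternFree (fun _ j => h j) A := by
      intro r c hr hc hall
      rw [dN_eq_card, Finset.card_eq_zero] at h0'
      have hmem : (c 0, c 1, r 0, r 1) ∈ univ.filter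
          (fun p : Fin n × Fin n × Fin n × Fin n => dcp h A p.2.2.1 p.2.2.2 p.1 p.2.1) := by
        refine Finset.mem_filter.mpr ⟨mem_univ _, hr (by decide), hc (by decide), ?_, ?_, ?_, ?_⟩
        · exact hall 0 0
        · exact hall 1 0
        · exact hall 0 1
        · exact hall 1 1
      rw [h0'] at hmem
      exact absurd hmem (Finset.notMem_empty _)
    have hh := hfar A hfree
    have hz : diffCount A A = 0 := by
      rw [hdiff]
      simp
    rw [hz] at hh
    have : 0 < ε * (n : ℝ) ^ 2 := by positivity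
    simp at hh
    linarith
  have hN1 : (1 : ℝ) ≤ (dN h A : ℝ) := by exact_mod_cast hNpos
  obtain ⟨B, hB, hs⟩ := d_round h A
  have hfarB := hfar B (d_patternFree h B hB)
  rw [hdiff] at hfarB
  have hsR : (((univ.filter (fun p : Fin n × Fin n => A p.1 p.2 ≠ B p.1 p.2)).card : ℕ) : ℝ) ^ 2 ≤
      8 * (n : ℝ) * ((dM h A : ℝ) + n) := by exact_mod_cast hs
  have hMR : (dM h A : ℝ) ^ 2 ≤ (n : ℝ) ^ 2 * (2 * (dN h A : ℝ) + (dM h A : ℝ)) := by
    exact_mod_cast dM_sq_le h A
  have := d_numeric ε n (dM h A) (dN h A)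
    ((univ.filter (fun p : Fin n × Fin n => A p.1 p.2 ≠ B p.1 p.2)).card) hε0 hε1 hnR
    (by positivity) hN1 hfarB hsR hMR
  linarith

end Vale.Agent.Lib.P037.H20
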