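import Mathlib

namespace Vale.Agent.Lib.P037.H20.Id

open Finset

variable {n : ℕ}

/-- `cp A r r' a b`: rows `r < r'` and columns `a < b` of `A` carry the identity pattern. -/
def cp (A : Fin n → Fin n → Bool) (r r' a b : Fin n) : Prop :=
  r < r' ∧ a < b ∧ A r a = true ∧ A r b = false ∧ A r' a = false ∧ A r' b = true

instance (A : Fin n → Fin n → Bool) (r r' a b : Fin n) : Decidable (cp A r r' a b) := by
  unfold cp; infer_instance

/-- Binary key of column `c` read on the rows of `T` (earlier rows are more significant). -/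
def ksum (A : Fin n → Fin n → Bool) (T : Finset (Fin n)) (c : Fin n) : ℕ :=
  ∑ ρ ∈ T, if A ρ c = true then 2 ^ (n - 1 - ρ.val) else 0

def key (A : Fin n → Fin n → Bool) (Q : Finset (Fin n)) (r c : Fin n) : ℕ :=
  ksum A (Q.filter (fun ρ => r ≤ ρ)) c

def rk (A : Fin n → Fin n → Bool) (Q : Finset (Fin n)) (r c : Fin n) : ℕ :=
  n * key A Q r c + (n - 1 - c.val)

theorem ksum_le (A : Fin n → Fin n → Bool) (T : Finset (Fin n)) (a b : Fin n)
    (h : ∀ ρ ∈ T, A ρ b = true → A ρ a = true) : ksum A T b ≤ ksum A T a := by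
  unfold ksum
  apply Finset.sum_le_sum
  intro ρ hρ
  by_cases hb : A ρ b = true
  · rw [if_pos hb, if_pos (h ρ hρ hb)]
  · rw [if_neg hb]; exact Nat.zero_le _

theorem exists_of_ksum_lt (A : Fin n → Fin n → Bool) (T : Finset (Fin n)) (a b : Fin n)
    (h : ksum A T a < ksum A T b) : ∃ ρ ∈ T, A ρ a = false ∧ A ρ b = true := by
  by_contra hne
  push Not at hne
  have := ksum_le A T a b (fun ρ hρ hb => by
    by_contra ha
    have ha' : A ρ a = false := by simpa using ha
    exact hne ρ hρ ha' hb)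
  omega

theorem geom_tail_lt (T : Finset (Fin n)) (ρ0 : Fin n) :
    ∑ ρ ∈ T.filter (fun ρ => ρ0 < ρ), 2 ^ (n - 1 - ρ.val) < 2 ^ (n - 1 - ρ0.val) := by
  have hinj : Set.InjOn (fun ρ : Fin n => n - 1 - ρ.val) (T.filter (fun ρ => ρ0 < ρ) : Set (Fin n)) := by
    intro x _ y _ hxy
    have hx := x.isLt
    have hy := y.isLt
    simp only at hxy
    exact Fin.ext (by omega)
  rw [← Finset.sum_image (f := fun k => 2 ^ k) hinj]
  apply Nat.geomSum_lt (le_refl 2)
  intro k hk
  simp only [mem_image, mem_filter] at hk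
  obtain ⟨ρ, ⟨_, hρ⟩, rfl⟩ := hk
  have h1 := ρ.isLt
  have h2 : ρ0.val < ρ.val := hρ
  omega

theorem ksum_lt (A : Fin n → Fin n → Bool) (T : Finset (Fin n)) (a b ρ0 : Fin n) (hρ0 : ρ0 ∈ T)
    (hbefore : ∀ ρ ∈ T, ρ < ρ0 → A ρ a = A ρ b) (ha : A ρ0 a = false) (hb : A ρ0 b = true) :
    ksum A T a < ksum A T b := by
  unfold ksum
  rw [← Finset.sum_filter_add_sum_filter_not T (fun ρ => ρ < ρ0)
        (fun ρ => if A ρ a = true then 2 ^ (n - 1 - ρ.val) else 0),
      ← Finset.sum_filter_add_sum_filter_not T (fun ρ => ρ < ρ0)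
        (fun ρ => if A ρ b = true then 2 ^ (n - 1 - ρ.val) else 0)]
  have h1 : ∑ ρ ∈ T.filter (fun ρ => ρ < ρ0), (if A ρ a = true then 2 ^ (n - 1 - ρ.val) else 0)
      = ∑ ρ ∈ T.filter (fun ρ => ρ < ρ0), (if A ρ b = true then 2 ^ (n - 1 - ρ.val) else 0) := by
    apply Finset.sum_congr rfl
    intro ρ hρ
    simp only [mem_filter] at hρ
    rw [hbefore ρ hρ.1 hρ.2]
  have h2 : ∑ ρ ∈ T.filter (fun ρ => ¬ ρ < ρ0), (if A ρ a = true then 2 ^ (n - 1 - ρ.val) else 0)
      ≤ ∑ ρ ∈ T.filter (fun ρ => ρ0 < ρ), 2 ^ (n - 1 - ρ.val) := by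
    have hstep : ∑ ρ ∈ T.filter (fun ρ => ¬ ρ < ρ0), (if A ρ a = true then 2 ^ (n - 1 - ρ.val) else 0)
        ≤ ∑ ρ ∈ T.filter (fun ρ => ¬ ρ < ρ0), (if ρ0 < ρ then 2 ^ (n - 1 - ρ.val) else 0) := by
      apply Finset.sum_le_sum
      intro ρ hρ
      simp only [mem_filter] at hρ
      by_cases hlt : ρ0 < ρ
      · rw [if_pos hlt]
        split_ifs
        · exact le_refl _
        · exact Nat.zero_le _
      · have heq : ρ = ρ0 := le_antisymm (not_lt.mp hlt) (not_lt.mp hρ.2)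
        rw [heq, ha]
        simp
    refine le_trans hstep ?_
    rw [← Finset.sum_filter]
    apply Finset.sum_le_sum_of_subset
    intro ρ hρ
    simp only [mem_filter] at hρ ⊢
    exact ⟨hρ.1.1, hρ.2⟩
  have h3 : 2 ^ (n - 1 - ρ0.val)
      ≤ ∑ ρ ∈ T.filter (fun ρ => ¬ ρ < ρ0), (if A ρ b = true then 2 ^ (n - 1 - ρ.val) else 0) := by
    have hmem : ρ0 ∈ T.filter (fun ρ => ¬ ρ < ρ0) := by simp [hρ0]
    have := Finset.single_le_sum
      (f := fun ρ : Fin n => if A ρ b = true then 2 ^ (n - 1 - ρ.val) else 0)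
      (fun ρ _ => Nat.zero_le _) hmem
    simpa [hb] using this
  have h4 := geom_tail_lt T ρ0
  omega

theorem exists_first_diff (A : Fin n → Fin n → Bool) (T : Finset (Fin n)) (a b : Fin n)
    (h : ∃ ρ ∈ T, A ρ a ≠ A ρ b) :
    ∃ ρ0 ∈ T, A ρ0 a ≠ A ρ0 b ∧ ∀ ρ ∈ T, ρ < ρ0 → A ρ a = A ρ b := by
  classical
  have hne : (T.filter (fun ρ => A ρ a ≠ A ρ b)).Nonempty := by
    obtain ⟨ρ, hρ, hd⟩ := h
    exact ⟨ρ, by simp [hρ, hd]⟩
  refine ⟨(T.filter (fun ρ => A ρ a ≠ A ρ b)).min' hne, ?_, ?_, ?_⟩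
  · exact (mem_filter.mp (Finset.min'_mem _ hne)).1
  · exact (mem_filter.mp (Finset.min'_mem _ hne)).2
  · intro ρ hρ hlt
    by_contra hd
    have hmem : ρ ∈ T.filter (fun ρ => A ρ a ≠ A ρ b) := by simp [hρ, hd]
    have := Finset.min'_le _ ρ hmem
    exact absurd hlt (not_lt.mpr this)

theorem key_le_of_rk_lt (A : Fin n → Fin n → Bool) (Q : Finset (Fin n)) (r a b : Fin n)
    (h : rk A Q r a < rk A Q r b) : key A Q r a ≤ key A Q r b := by
  by_contra hcon
  push Not at hcon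
  have h1 : n * (key A Q r b + 1) ≤ n * key A Q r a := Nat.mul_le_mul_left n hcon
  rw [Nat.mul_add, Nat.mul_one] at h1
  unfold rk at h
  have hb := b.isLt
  omega

theorem key_lt_of_rk_lt (A : Fin n → Fin n → Bool) (Q : Finset (Fin n)) (r a b : Fin n)
    (hab : a < b) (h : rk A Q r a < rk A Q r b) : key A Q r a < key A Q r b := by
  have h1 := key_le_of_rk_lt A Q r a b h
  rcases Nat.lt_or_ge (key A Q r a) (key A Q r b) with h2 | h2
  · exact h2
  · have heq : key A Q r a = key A Q r b := le_antisymm h1 h2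
    unfold rk at h
    rw [heq] at h
    have ha := a.isLt
    have hb := b.isLt
    have hab' : a.val < b.val := hab
    omega

theorem rk_injective (A : Fin n → Fin n → Bool) (Q : Finset (Fin n)) (r : Fin n) :
    Function.Injective (rk A Q r) := by
  intro a b h
  have ha := a.isLt
  have hb := b.isLt
  unfold rk at h
  rcases lt_trichotomy (key A Q r a) (key A Q r b) with h1 | h1 | h1
  · have h2 : n * (key A Q r a + 1) ≤ n * key A Q r b := Nat.mul_le_mul_left n h1
    rw [Nat.mul_add, Nat.mul_one] at h2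
    omega
  · rw [h1] at h
    exact Fin.ext (by omega)
  · have h2 : n * (key A Q r b + 1) ≤ n * key A Q r a := Nat.mul_le_mul_left n h1
    rw [Nat.mul_add, Nat.mul_one] at h2
    omega

/-- Thresholded rows never form the identity pattern on a column pair without sampled copies. -/
theorem no_copy_of_thresh (A : Fin n → Fin n → Bool) (Q : Finset (Fin n)) (τ : Fin n → ℕ)
    (r r' a b : Fin n) (hr : r ≤ r') (hab : a < b)
    (hgood : ¬ ∃ ρ0 ∈ Q, ∃ ρ1 ∈ Q, cp A ρ0 ρ1 a b)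
    (h1 : τ r ≤ rk A Q r a) (h2 : rk A Q r b < τ r)
    (h3 : rk A Q r' a < τ r') (h4 : τ r' ≤ rk A Q r' b) : False := by
  have hk1 : key A Q r b ≤ key A Q r a := key_le_of_rk_lt A Q r b a (lt_of_lt_of_le h2 h1)
  have hk2 : key A Q r' a < key A Q r' b := key_lt_of_rk_lt A Q r' a b hab (lt_of_lt_of_le h3 h4)
  obtain ⟨ρ1, hρ1, h1a, h1b⟩ := exists_of_ksum_lt A _ a b hk2
  simp only [mem_filter] at hρ1
  have hρ1T : ρ1 ∈ Q.filter (fun ρ => r ≤ ρ) := by
    simp only [mem_filter]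
    exact ⟨hρ1.1, le_trans hr hρ1.2⟩
  obtain ⟨ρ0, hρ0, hd, hfirst⟩ := exists_first_diff A (Q.filter (fun ρ => r ≤ ρ)) a b
    ⟨ρ1, hρ1T, by rw [h1a, h1b]; simp⟩
  cases h0a : A ρ0 a with
  | false =>
    have h0b : A ρ0 b = true := by
      cases h0b : A ρ0 b with
      | false => exact absurd (h0a.trans h0b.symm) hd
      | true => rfl
    have := ksum_lt A (Q.filter (fun ρ => r ≤ ρ)) a b ρ0 hρ0 hfirst h0a h0b
    unfold key at hk1
    omega
  | true =>
    have h0b : A ρ0 b = false := by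
      cases h0b : A ρ0 b with
      | false => rfl
      | true => exact absurd (h0a.trans h0b.symm) hd
    have hlt : ρ0 < ρ1 := by
      rcases lt_trichotomy ρ0 ρ1 with h | h | h
      · exact h
      · rw [h, h1a] at h0a; exact absurd h0a (by simp)
      · have := hfirst ρ1 hρ1T h
        rw [h1a, h1b] at this; exact absurd this (by simp)
    exact hgood ⟨ρ0, (mem_filter.mp hρ0).1, ρ1, hρ1.1, hlt, hab, h0a, h0b, h1a, h1b⟩

/-- Classification of the inverted pairs of a row with respect to the rank `rk`. -/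
theorem viol_cases (A : Fin n → Fin n → Bool) (Q : Finset (Fin n)) (r x y : Fin n)
    (h : rk A Q r x < rk A Q r y) (hx : A r x = true) (hy : A r y = false) :
    (x < y ∧ ∃ ρ ∈ Q, cp A r ρ x y) ∨
    (y < x ∧ ∀ ρ ∈ Q, r ≤ ρ → ¬ (A ρ y = false ∧ A ρ x = true)) ∨
    (∃ ρ0 ∈ Q, ∃ ρ1 ∈ Q, cp A ρ0 ρ1 y x) := by
  have hxy : x ≠ y := by
    intro he
    rw [he, hy] at hx
    exact absurd hx (by simp)
  rcases lt_or_gt_of_ne hxy with hlt | hgt
  · left
    refine ⟨hlt, ?_⟩
    have hk := key_lt_of_rk_lt A Q r x y hlt h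
    obtain ⟨ρ, hρ, hρx, hρy⟩ := exists_of_ksum_lt A _ x y hk
    simp only [mem_filter] at hρ
    have hne : r ≠ ρ := by
      intro he
      rw [← he, hx] at hρx
      exact absurd hρx (by simp)
    exact ⟨ρ, hρ.1, lt_of_le_of_ne hρ.2 hne, hlt, hx, hy, hρx, hρy⟩
  · right
    have hk := key_le_of_rk_lt A Q r x y h
    by_cases hex : ∃ ρ ∈ Q, r ≤ ρ ∧ A ρ y = false ∧ A ρ x = true
    · right
      obtain ⟨ρ1, hρ1Q, hrρ1, h1y, h1x⟩ := hex
      have hρ1T : ρ1 ∈ Q.filter (fun ρ => r ≤ ρ) := by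
        simp only [mem_filter]
        exact ⟨hρ1Q, hrρ1⟩
      obtain ⟨ρ0, hρ0, hd, hfirst⟩ := exists_first_diff A (Q.filter (fun ρ => r ≤ ρ)) y x
        ⟨ρ1, hρ1T, by rw [h1y, h1x]; simp⟩
      cases h0y : A ρ0 y with
      | false =>
        have h0x : A ρ0 x = true := by
          cases h0x : A ρ0 x with
          | false => exact absurd (h0y.trans h0x.symm) hd
          | true => rfl
        have := ksum_lt A (Q.filter (fun ρ => r ≤ ρ)) y x ρ0 hρ0 hfirst h0y h0x
        unfold key at hk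
        omega
      | true =>
        have h0x : A ρ0 x = false := by
          cases h0x : A ρ0 x with
          | false => rfl
          | true => exact absurd (h0y.trans h0x.symm) hd
        have hlt : ρ0 < ρ1 := by
          rcases lt_trichotomy ρ0 ρ1 with h | h | h
          · exact h
          · rw [h, h1y] at h0y; exact absurd h0y (by simp)
          · have := hfirst ρ1 hρ1T h
            rw [h1y, h1x] at this; exact absurd this (by simp)
        exact ⟨ρ0, (mem_filter.mp hρ0).1, ρ1, hρ1Q, hlt, hgt, h0y, h0x, h1y, h1x⟩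
    · left
      refine ⟨hgt, ?_⟩
      intro ρ hρ hr hcon
      exact hex ⟨ρ, hρ, hr, hcon.1, hcon.2⟩

end Vale.Agent.Lib.P037.H20.Id
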