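import Mathlib
import Vale.Agent.Lib.P037.H20.PDefs
import Vale.Agent.Lib.P037.H20.IdSample

namespace Vale.Agent.Lib.P037.H20.Id

open Finset

/-- The `2 × 2` identity pattern, with rows `(1,0)` and `(0,1)`. -/
def idPattern : Fin 2 → Fin 2 → Bool := fun i j => decide (i = j)

theorem N2_eq_card {n : ℕ} (A : Fin n → Fin n → Bool) :
    N2 A = (univ.filter (fun p : Fin n × Fin n × Fin n × Fin n =>
      cp A p.1 p.2.1 p.2.2.1 p.2.2.2)).card := by
  unfold N2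
  rw [Finset.card_filter, Fintype.sum_prod_type]
  apply Finset.sum_congr rfl
  intro r _
  rw [Fintype.sum_prod_type]
  apply Finset.sum_congr rfl
  intro r' _
  rw [Fintype.sum_prod_type]

theorem N2_le_copyCount {n : ℕ} (A : Fin n → Fin n → Bool) : N2 A ≤ copyCount idPattern A := by
  classical
  rw [N2_eq_card]
  unfold copyCount
  rw [Nat.card_eq_fintype_card, Fintype.card_subtype]
  apply Finset.card_le_card_of_injOn
    (fun p : Fin n × Fin n × Fin n × Fin n => ((![p.1, p.2.1] : Fin 2 → Fin n), (![p.2.2.1, p.2.2.2] : Fin 2 → Fin n)))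
  · intro p hp
    simp only [coe_filter, mem_univ, true_and, Set.mem_ofPred_eq] at hp ⊢
    obtain ⟨h1, h2, h3, h4, h5, h6⟩ := hp
    refine ⟨?_, ?_, ?_⟩
    · intro i j hij
      fin_cases i <;> fin_cases j <;> simp_all
    · intro i j hij
      fin_cases i <;> fin_cases j <;> simp_all
    · intro i j
      fin_cases i <;> fin_cases j <;> simp [idPattern, h3, h4, h5, h6]
  · intro p _ p' _ h
    simp only [Prod.mk.injEq] at h
    obtain ⟨h1, h2⟩ := h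
    have e1 := congrFun h1 0
    have e2 := congrFun h1 1
    have e3 := congrFun h2 0
    have e4 := congrFun h2 1
    simp only [Matrix.cons_val_zero, Matrix.cons_val_one] at e1 e2 e3 e4
    ext <;> simp_all

theorem patternFree_of_no_cp {n : ℕ} (B : Fin n → Fin n → Bool)
    (h : ∀ r r' a b, ¬ cp B r r' a b) : PatternFree idPattern B := by
  intro r c hr hc hall
  apply h (r 0) (r 1) (c 0) (c 1)
  refine ⟨hr (by decide), hc (by decide), ?_, ?_, ?_, ?_⟩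
  · have := hall 0 0
    simpa [idPattern] using this
  · have := hall 0 1
    simpa [idPattern] using this
  · have := hall 1 0
    simpa [idPattern] using this
  · have := hall 1 1
    simpa [idPattern] using this

theorem diffCount_eq {n : ℕ} (A B : Fin n → Fin n → Bool) :
    diffCount A B = (univ.filter (fun p : Fin n × Fin n => A p.1 p.2 ≠ B p.1 p.2)).card := by
  classical
  unfold diffCount
  rw [Nat.card_eq_fintype_card, Fintype.card_subtype]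

theorem no_cp_of_N2_zero {n : ℕ} (A : Fin n → Fin n → Bool) (h : N2 A = 0) :
    ∀ r r' a b, ¬ cp A r r' a b := by
  intro r r' a b hcp
  rw [N2_eq_card] at h
  have hmem : (r, r', a, b) ∈ univ.filter (fun p : Fin n × Fin n × Fin n × Fin n =>
      cp A p.1 p.2.1 p.2.2.1 p.2.2.2) := by
    simp [hcp]
  rw [Finset.card_eq_zero] at h
  rw [h] at hmem
  exact absurd hmem (Finset.notMem_empty _)

theorem numeric (ε n q N s d x1 x2 x3 : ℝ) (hε0 : 0 < ε) (hε1 : ε < 1) (hn : 1 ≤ n)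
    (hq1 : 1 ≤ q) (hqlo : 144 ≤ ε ^ 2 * q) (hqhi : ε ^ 2 * q ≤ 145) (hN : 0 ≤ N)
    (hx3 : 0 ≤ x3)
    (h1 : ε * n ^ 2 ≤ s + n * d) (h2 : s ^ 2 ≤ 8 * n * (x1 + x3 + n * x2 + n))
    (h3 : d ^ 2 ≤ 8 * q ^ 2 * (x2 + q ^ 2)) (h4 : x1 * n ≤ 3 * q * N)
    (h5 : x2 * n ^ 2 ≤ 3 * q ^ 2 * N) (h6 : x3 * (q + 1) ≤ 3 * n ^ 3)
    (hbig : 10 ^ 22 < ε ^ 20 * n ^ 4) : ε ^ 20 / 10 ^ 22 * n ^ 4 ≤ N := by
  have hn0 : 0 < n := by linarith
  have hq0 : 0 < q := by linarith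
  obtain ⟨E, hE⟩ : ∃ E : ℝ, E = ε ^ 2 := ⟨ε ^ 2, rfl⟩
  rw [← hE] at hqlo hqhi
  have hE0 : 0 < E := by rw [hE]; positivity
  have hE1 : E < 1 := by rw [hE]; nlinarith
  -- bound on x3
  have hx3' : 16 * n * x3 ≤ E * n ^ 4 / 3 := by
    have h144 : 144 ≤ E * (q + 1) := by
      have : E * q ≤ E * (q + 1) := by nlinarith
      linarith
    have ha : 144 * x3 ≤ E * (q + 1) * x3 := mul_le_mul_of_nonneg_right h144 hx3
    have hb : E * (x3 * (q + 1)) ≤ E * (3 * n ^ 3) := mul_le_mul_of_nonneg_left h6 hE0.le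
    have hb' : E * (x3 * (q + 1)) = E * (q + 1) * x3 := by ring
    have hc : 144 * x3 ≤ E * (3 * n ^ 3) := by linarith
    have hd' : n / 9 * (144 * x3) ≤ n / 9 * (E * (3 * n ^ 3)) :=
      mul_le_mul_of_nonneg_left hc (by positivity)
    have e1 : n / 9 * (144 * x3) = 16 * n * x3 := by ring
    have e2 : n / 9 * (E * (3 * n ^ 3)) = E * n ^ 4 / 3 := by ring
    linarith
  -- square the far-ness inequality
  have hA : (ε * n ^ 2) ^ 2 ≤ (s + n * d) ^ 2 :=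
    pow_le_pow_left₀ (by positivity) h1 2
  have hA0 : (ε * n ^ 2) ^ 2 = E * n ^ 4 := by rw [hE]; ring
  have hA' : (s + n * d) ^ 2 ≤ 2 * s ^ 2 + 2 * n ^ 2 * d ^ 2 := by
    have := sq_nonneg (s - n * d)
    have e : 2 * s ^ 2 + 2 * n ^ 2 * d ^ 2 - (s + n * d) ^ 2 = (s - n * d) ^ 2 := by ring
    linarith
  have hB : 2 * s ^ 2 ≤ 16 * (n * x1) + 16 * n * x3 + 16 * (n ^ 2 * x2) + 16 * n ^ 2 := by
    have e : 2 * (8 * n * (x1 + x3 + n * x2 + n))
        = 16 * (n * x1) + 16 * n * x3 + 16 * (n ^ 2 * x2) + 16 * n ^ 2 := by ring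
    linarith
  have hC : 2 * n ^ 2 * d ^ 2 ≤ 16 * (q ^ 2 * (n ^ 2 * x2)) + 16 * (q ^ 4 * n ^ 2) := by
    have h := mul_le_mul_of_nonneg_left h3 (by positivity : (0 : ℝ) ≤ 2 * n ^ 2)
    have e : 2 * n ^ 2 * (8 * q ^ 2 * (x2 + q ^ 2))
        = 16 * (q ^ 2 * (n ^ 2 * x2)) + 16 * (q ^ 4 * n ^ 2) := by ring
    linarith
  have hD : n * x1 ≤ 3 * (q * N) := by
    have e : n * x1 = x1 * n := by ring
    linarith
  have hE' : n ^ 2 * x2 ≤ 3 * (q ^ 2 * N) := by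
    have e : n ^ 2 * x2 = x2 * n ^ 2 := by ring
    linarith
  have hF : q ^ 2 * (n ^ 2 * x2) ≤ 3 * (q ^ 4 * N) := by
    have h := mul_le_mul_of_nonneg_left hE' (sq_nonneg q)
    have e : q ^ 2 * (3 * (q ^ 2 * N)) = 3 * (q ^ 4 * N) := by ring
    linarith
  have hq2 : 1 ≤ q ^ 2 := by nlinarith
  have hq4 : q ^ 2 ≤ q ^ 4 := by
    have h := mul_le_mul_of_nonneg_left hq2 (sq_nonneg q)
    have e : q ^ 2 * q ^ 2 = q ^ 4 := by ring
    linarith
  have hq14 : q ≤ q ^ 4 := by nlinarith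
  have hq4' : 1 ≤ q ^ 4 := by linarith
  have e2 : q * N ≤ q ^ 4 * N := mul_le_mul_of_nonneg_right hq14 hN
  have e3 : q ^ 2 * N ≤ q ^ 4 * N := mul_le_mul_of_nonneg_right hq4 hN
  have e4 : n ^ 2 ≤ q ^ 4 * n ^ 2 := by
    have h := mul_le_mul_of_nonneg_right hq4' (sq_nonneg n)
    linarith
  have hmain : 2 / 3 * (E * n ^ 4) ≤ 144 * (q ^ 4 * N) + 32 * (q ^ 4 * n ^ 2) := by
    linarith
  have hmain2 : 2 / 3 * (E ^ 5 * n ^ 4) ≤ 144 * ((E * q) ^ 4 * N) + 32 * ((E * q) ^ 4 * n ^ 2) := by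
    have h := mul_le_mul_of_nonneg_left hmain (by positivity : (0 : ℝ) ≤ E ^ 4)
    have e5 : E ^ 4 * (2 / 3 * (E * n ^ 4)) = 2 / 3 * (E ^ 5 * n ^ 4) := by ring
    have e6 : E ^ 4 * (144 * (q ^ 4 * N) + 32 * (q ^ 4 * n ^ 2))
        = 144 * ((E * q) ^ 4 * N) + 32 * ((E * q) ^ 4 * n ^ 2) := by ring
    linarith
  have hEq4 : (E * q) ^ 4 ≤ 145 ^ 4 := pow_le_pow_left₀ (by positivity) hqhi 4
  have a1 : (E * q) ^ 4 * N ≤ 145 ^ 4 * N := mul_le_mul_of_nonneg_right hEq4 hN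
  have a2 : (E * q) ^ 4 * n ^ 2 ≤ 145 ^ 4 * n ^ 2 := mul_le_mul_of_nonneg_right hEq4 (sq_nonneg n)
  have hH : (10 : ℝ) ^ 11 < E ^ 5 * n ^ 2 := by
    have e : ε ^ 20 * n ^ 4 = (E ^ 5 * n ^ 2) ^ 2 := by rw [hE]; ring
    rw [e] at hbig
    have e' : (10 : ℝ) ^ 22 = (10 ^ 11) ^ 2 := by norm_num
    rw [e'] at hbig
    exact lt_of_pow_lt_pow_left₀ 2 (by positivity) hbig
  have hI : 32 * (145 ^ 4 * n ^ 2) ≤ 1 / 3 * (E ^ 5 * n ^ 4) := by
    have h96 : (96 : ℝ) * 145 ^ 4 ≤ E ^ 5 * n ^ 2 := by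
      have : (96 : ℝ) * 145 ^ 4 ≤ 10 ^ 11 := by norm_num
      linarith
    have h := mul_le_mul_of_nonneg_right h96 (sq_nonneg n)
    have e7 : E ^ 5 * n ^ 2 * n ^ 2 = E ^ 5 * n ^ 4 := by ring
    have e8 : (96 : ℝ) * 145 ^ 4 * n ^ 2 = 3 * (32 * (145 ^ 4 * n ^ 2)) := by ring
    linarith
  have hfin : 1 / 3 * (E ^ 5 * n ^ 4) ≤ 144 * (145 ^ 4 * N) := by linarith
  have hE10 : ε ^ 20 ≤ E ^ 5 := by
    have e : ε ^ 20 = E ^ 5 * E ^ 5 := by rw [hE]; ring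
    rw [e]
    have h5 : E ^ 5 ≤ 1 := pow_le_one₀ hE0.le hE1.le
    have h5' : 0 ≤ E ^ 5 := by positivity
    have := mul_le_mul_of_nonneg_left h5 h5'
    linarith
  have hn4 : 0 ≤ n ^ 4 := by positivity
  have hgoal : ε ^ 20 * n ^ 4 ≤ 10 ^ 22 * N := by
    have s1 : ε ^ 20 * n ^ 4 ≤ E ^ 5 * n ^ 4 := mul_le_mul_of_nonneg_right hE10 hn4
    have s3 : (432 : ℝ) * 145 ^ 4 * N ≤ 10 ^ 22 * N := by
      have : (432 : ℝ) * 145 ^ 4 ≤ 10 ^ 22 := by norm_num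
      exact mul_le_mul_of_nonneg_right this hN
    linarith
  rw [div_mul_eq_mul_div, div_le_iff₀ (by positivity)]
  linarith

/-- Polynomial removal lemma for the ordered `2 × 2` identity pattern, with explicit constants:
if every pattern-free matrix differs from `A` in at least `ε n²` entries, then `A` contains
at least `10⁻²² ε²⁰ n⁴` ordered copies of the pattern. -/
theorem idRemoval : ∀ (n : ℕ) (ε : ℝ) (A : Fin n → Fin n → Bool), 1 ≤ n → 0 < ε → ε < 1 →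
    (∀ B : Fin n → Fin n → Bool, PatternFree idPattern B →
      ε * (n : ℝ) ^ 2 ≤ (diffCount A B : ℝ)) →
    ε ^ 20 / 10 ^ 22 * (n : ℝ) ^ 4 ≤ (copyCount idPattern A : ℝ) := by
  intro n ε A hn hε0 hε1 hfar
  have hnR : (1 : ℝ) ≤ (n : ℝ) := by exact_mod_cast hn
  have hle : (N2 A : ℝ) ≤ (copyCount idPattern A : ℝ) := by exact_mod_cast N2_le_copyCount A
  -- the matrix is not pattern-free
  have hNpos : 0 < N2 A := by
    by_contra h0
    have h0' : N2 A = 0 := by omega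
    have hfree := patternFree_of_no_cp A (no_cp_of_N2_zero A h0')
    have h := hfar A hfree
    have hz : diffCount A A = 0 := by
      rw [diffCount_eq]
      simp
    rw [hz] at h
    have : 0 < ε * (n : ℝ) ^ 2 := by positivity
    simp at h
    linarith
  have hN1 : (1 : ℝ) ≤ (N2 A : ℝ) := by exact_mod_cast hNpos
  by_cases hbig : (10 : ℝ) ^ 22 < ε ^ 20 * (n : ℝ) ^ 4
  · -- main case
    have hpos : 0 < 144 / ε ^ 2 := by positivity
    set q : ℕ := ⌈144 / ε ^ 2⌉₊ with hq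
    have hq0 : 0 < q := Nat.ceil_pos.mpr hpos
    have hqlo : 144 / ε ^ 2 ≤ (q : ℝ) := Nat.le_ceil _
    have hqhi : (q : ℝ) < 144 / ε ^ 2 + 1 := Nat.ceil_lt_add_one hpos.le
    have hε2 : 0 < ε ^ 2 := by positivity
    have hε21 : ε ^ 2 < 1 := by nlinarith
    have hqlo' : 144 ≤ ε ^ 2 * (q : ℝ) := by
      have := mul_le_mul_of_nonneg_left hqlo hε2.le
      rwa [mul_div_cancel₀ _ hε2.ne'] at this
    have hqhi' : ε ^ 2 * (q : ℝ) ≤ 145 := by
      have := mul_lt_mul_of_pos_left hqhi hε2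
      rw [mul_add, mul_div_cancel₀ _ hε2.ne'] at this
      linarith
    obtain ⟨B, hB, s, d, x1, x2, x3, hdiff, hs, hd, h4, h5, h6⟩ :=
      core A q hq0 (by omega) hNpos
    have hfarB := hfar B (patternFree_of_no_cp B hB)
    rw [diffCount_eq] at hfarB
    have hdiffR : ((univ.filter (fun p : Fin n × Fin n => A p.1 p.2 ≠ B p.1 p.2)).card : ℝ)
        ≤ (s : ℝ) + (n : ℝ) * (d : ℝ) := by exact_mod_cast hdiff
    have hsR : (s : ℝ) ^ 2 ≤ 8 * (n : ℝ) * ((x1 : ℝ) + x3 + n * x2 + n) := by exact_mod_cast hs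
    have hdR : (d : ℝ) ^ 2 ≤ 8 * (q : ℝ) ^ 2 * ((x2 : ℝ) + (q : ℝ) ^ 2) := by exact_mod_cast hd
    have h4R : (x1 : ℝ) * n ≤ 3 * (q : ℝ) * (N2 A : ℝ) := by exact_mod_cast h4
    have h5R : (x2 : ℝ) * (n : ℝ) ^ 2 ≤ 3 * (q : ℝ) ^ 2 * (N2 A : ℝ) := by exact_mod_cast h5
    have h6R : (x3 : ℝ) * ((q : ℝ) + 1) ≤ 3 * (n : ℝ) ^ 3 := by exact_mod_cast h6
    have hq1 : (1 : ℝ) ≤ (q : ℝ) := by exact_mod_cast hq0
    have := numeric ε n q (N2 A) s d x1 x2 x3 hε0 hε1 hnR hq1 hqlo' hqhi'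
      (by positivity) (by positivity) (le_trans hfarB hdiffR) hsR hdR h4R h5R h6R hbig
    linarith
  · -- small case: at least one copy suffices
    have h1 : ε ^ 20 / 10 ^ 22 * (n : ℝ) ^ 4 ≤ 1 := by
      rw [div_mul_eq_mul_div, div_le_iff₀ (by positivity)]
      linarith
    linarith

end Vale.Agent.Lib.P037.H20.Id
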