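import Mathlib

namespace Vale.Agent.Lib.P037.H20.Id

open Finset

/-- Threshold rounding: for an injective rank function and two finite sets `X`, `Y`, some
threshold misclassifies at most about the square root of the number of inverted pairs. -/
theorem round_exists {α : Type*} [DecidableEq α] (κ : α → ℕ) (hκ : Function.Injective κ)
    (X Y : Finset α) :
    ∃ τ : ℕ, ((X.filter (fun a => κ a < τ)).card + (Y.filter (fun b => τ ≤ κ b)).card) ^ 2 ≤
      8 * (((X ×ˢ Y).filter (fun p => κ p.1 < κ p.2)).card + 1) := by
  classical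
  set v := ((X ×ˢ Y).filter (fun p => κ p.1 < κ p.2)).card with hv
  have hprod : ∀ τ, (X.filter (fun a => κ a < τ)).card * (Y.filter (fun b => τ ≤ κ b)).card ≤ v := by
    intro τ
    rw [← card_product]
    apply card_le_card
    intro p hp
    simp only [mem_product, mem_filter] at hp ⊢
    exact ⟨⟨hp.1.1, hp.2.1⟩, lt_of_lt_of_le hp.1.2 hp.2.2⟩
  have hex : ∃ τ, (Y.filter (fun b => τ ≤ κ b)).card ≤ (X.filter (fun a => κ a < τ)).card := by
    refine ⟨Y.sup κ + 1, ?_⟩
    have h0 : Y.filter (fun b => Y.sup κ + 1 ≤ κ b) = ∅ := by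
      apply filter_eq_empty_iff.mpr
      intro b hb
      have := Finset.le_sup (f := κ) hb
      omega
    rw [h0]; simp
  obtain ⟨τ, hτ, hmin⟩ : ∃ τ, (Y.filter (fun b => τ ≤ κ b)).card ≤ (X.filter (fun a => κ a < τ)).card ∧
      ∀ σ, σ < τ → ¬ ((Y.filter (fun b => σ ≤ κ b)).card ≤ (X.filter (fun a => κ a < σ)).card) :=
    ⟨Nat.find hex, Nat.find_spec hex, fun σ hσ => Nat.find_min hex hσ⟩
  refine ⟨τ, ?_⟩
  rcases Nat.eq_zero_or_pos τ with h0 | hpos
  · have h1 : (X.filter (fun a => κ a < τ)).card = 0 := by
      rw [h0]; simp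
    have h2 : (Y.filter (fun b => τ ≤ κ b)).card = 0 := by omega
    rw [h1, h2]; simp
  · obtain ⟨σ, hσ⟩ : ∃ σ, τ = σ + 1 := ⟨τ - 1, by omega⟩
    have hm := hmin σ (by omega)
    have hstep : (X.filter (fun a => κ a < τ)).card ≤ (X.filter (fun a => κ a < σ)).card + 1 := by
      have hsub : X.filter (fun a => κ a < τ) ⊆
          X.filter (fun a => κ a < σ) ∪ X.filter (fun a => κ a = σ) := by
        intro a ha
        simp only [mem_filter, mem_union] at ha ⊢
        rcases Nat.lt_or_ge (κ a) σ with h | h
        · exact Or.inl ⟨ha.1, h⟩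
        · exact Or.inr ⟨ha.1, by omega⟩
      have hone : (X.filter (fun a => κ a = σ)).card ≤ 1 := by
        apply card_le_one.mpr
        intro a ha b hb
        simp only [mem_filter] at ha hb
        exact hκ (ha.2.trans hb.2.symm)
      calc (X.filter (fun a => κ a < τ)).card
          ≤ (X.filter (fun a => κ a < σ) ∪ X.filter (fun a => κ a = σ)).card := card_le_card hsub
        _ ≤ (X.filter (fun a => κ a < σ)).card + (X.filter (fun a => κ a = σ)).card :=
            card_union_le _ _
        _ ≤ (X.filter (fun a => κ a < σ)).card + 1 := by omega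
    have hp := hprod σ
    generalize (X.filter (fun a => κ a < τ)).card = e1 at *
    generalize (Y.filter (fun b => τ ≤ κ b)).card = e0 at *
    generalize (X.filter (fun a => κ a < σ)).card = x at *
    generalize (Y.filter (fun b => σ ≤ κ b)).card = y at *
    have hxy : x < y := by omega
    have hx2 : x * x ≤ v := le_trans (Nat.mul_le_mul_left x hxy.le) hp
    have h3 : e1 + e0 ≤ 2 * (x + 1) := by omega
    nlinarith

/-- Bernoulli-type inequality. -/
theorem pow_succ_ge (n q : ℕ) : n ^ (q + 1) + (q + 1) * n ^ q ≤ (n + 1) ^ (q + 1) := by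
  induction q with
  | zero => simp
  | succ q ih =>
    have h1 : (n + 1) ^ (q + 1 + 1) = (n + 1) * (n + 1) ^ (q + 1) := by ring
    rw [h1]
    have h2 : (n + 1) * (n ^ (q + 1) + (q + 1) * n ^ q) ≤ (n + 1) * (n + 1) ^ (q + 1) :=
      Nat.mul_le_mul_left _ ih
    refine le_trans ?_ h2
    have h3 : n ^ (q + 1 + 1) = n * n ^ (q + 1) := by ring
    have h4 : n ^ (q + 1) = n * n ^ q := by ring
    nlinarith [Nat.zero_le (n ^ q), Nat.zero_le (n ^ (q + 1))]

theorem pow_sum_le (q n : ℕ) : (q + 1) * ∑ t ∈ range n, t ^ q ≤ n ^ (q + 1) := by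
  induction n with
  | zero => simp
  | succ n ih =>
    rw [sum_range_succ, Nat.mul_add]
    have := pow_succ_ge n q
    omega

/-- Counting functions all of whose values satisfy coordinatewise conditions. -/
theorem sum_fun_indicator (q n : ℕ) (P : Fin q → Fin n → Prop) [∀ k, DecidablePred (P k)] :
    (∑ f : Fin q → Fin n, if (∀ k, P k (f k)) then 1 else 0) =
      ∏ k, (univ.filter (P k)).card := by
  have h := Finset.prod_univ_sum (fun _ : Fin q => (univ : Finset (Fin n)))
    (fun k x => if P k x then (1 : ℕ) else 0)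
  rw [Fintype.piFinset_univ] at h
  have h' : ∀ f : Fin q → Fin n,
      (∏ i, if P i (f i) then (1 : ℕ) else 0) = if (∀ k, P k (f k)) then 1 else 0 := by
    intro f
    rw [Finset.prod_boole]
    simp
  simp only [h'] at h
  rw [← h]
  apply Finset.prod_congr rfl
  intro k _
  rw [Finset.card_filter]

theorem count_fun_one (q n : ℕ) (i : Fin q) (x : Fin n) :
    (∑ f : Fin q → Fin n, if f i = x then 1 else 0) * n = n ^ q := by
  have h := sum_fun_indicator q n (fun k z => k = i → z = x)
  have h1 : ∀ f : Fin q → Fin n, (∀ k, k = i → f k = x) ↔ f i = x :=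
    fun f => ⟨fun h => h i rfl, fun h k hk => hk ▸ h⟩
  simp only [h1] at h
  rw [h]
  have h2 : ∀ k : Fin q, (univ.filter (fun z : Fin n => k = i → z = x)).card
      = if k = i then 1 else n := by
    intro k
    split_ifs with hk
    · have : univ.filter (fun z : Fin n => k = i → z = x) = {x} := by
        ext z; simp [hk]
      rw [this]; simp
    · have : univ.filter (fun z : Fin n => k = i → z = x) = univ := by
        ext z; simp [hk]
      rw [this]; simp
  rw [Finset.prod_congr rfl (fun k _ => h2 k)]
  have h3 : (∏ k : Fin q, if k = i then n else 1) = n := by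
    rw [Finset.prod_ite_eq' univ i (fun _ => n)]; simp
  calc (∏ k : Fin q, if k = i then 1 else n) * n
      = (∏ k : Fin q, if k = i then 1 else n) * (∏ k : Fin q, if k = i then n else 1) := by rw [h3]
    _ = ∏ k : Fin q, ((if k = i then 1 else n) * (if k = i then n else 1)) := by
        rw [Finset.prod_mul_distrib]
    _ = ∏ _k : Fin q, n := by
        apply Finset.prod_congr rfl
        intro k _
        split_ifs <;> simp
    _ = n ^ q := by simp

theorem count_fun_two (q n : ℕ) (i j : Fin q) (hij : i ≠ j) (x y : Fin n) :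
    (∑ f : Fin q → Fin n, if (f i = x ∧ f j = y) then 1 else 0) * n ^ 2 = n ^ q := by
  have h := sum_fun_indicator q n (fun k z => (k = i → z = x) ∧ (k = j → z = y))
  have h1 : ∀ f : Fin q → Fin n, (∀ k, (k = i → f k = x) ∧ (k = j → f k = y)) ↔
      (f i = x ∧ f j = y) :=
    fun f => ⟨fun h => ⟨(h i).1 rfl, (h j).2 rfl⟩,
      fun h k => ⟨fun hk => hk ▸ h.1, fun hk => hk ▸ h.2⟩⟩
  simp only [h1] at h
  rw [h]
  have h2 : ∀ k : Fin q,
      (univ.filter (fun z : Fin n => (k = i → z = x) ∧ (k = j → z = y))).card
      = if k = i then 1 else if k = j then 1 else n := by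
    intro k
    split_ifs with hk hk'
    · have : univ.filter (fun z : Fin n => (k = i → z = x) ∧ (k = j → z = y)) = {x} := by
        ext z; simp [hk, hij]
      rw [this]; simp
    · have hji : j ≠ i := fun h => hij h.symm
      have : univ.filter (fun z : Fin n => (k = i → z = x) ∧ (k = j → z = y)) = {y} := by
        ext z; simp [hk', hji]
      rw [this]; simp
    · have : univ.filter (fun z : Fin n => (k = i → z = x) ∧ (k = j → z = y)) = univ := by
        ext z; simp [hk, hk']
      rw [this]; simp
  rw [Finset.prod_congr rfl (fun k _ => h2 k)]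
  have h3 : (∏ k : Fin q, if k = i then n else 1) = n := by
    rw [Finset.prod_ite_eq' univ i (fun _ => n)]; simp
  have h4 : (∏ k : Fin q, if k = j then n else 1) = n := by
    rw [Finset.prod_ite_eq' univ j (fun _ => n)]; simp
  calc (∏ k : Fin q, if k = i then 1 else if k = j then 1 else n) * n ^ 2
      = (∏ k : Fin q, if k = i then 1 else if k = j then 1 else n) *
          ((∏ k : Fin q, if k = i then n else 1) * (∏ k : Fin q, if k = j then n else 1)) := by
        rw [h3, h4]; ring
    _ = ∏ k : Fin q, ((if k = i then 1 else if k = j then 1 else n) *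
          ((if k = i then n else 1) * (if k = j then n else 1))) := by
        rw [Finset.prod_mul_distrib, Finset.prod_mul_distrib]
    _ = ∏ _k : Fin q, n := by
        apply Finset.prod_congr rfl
        intro k _
        by_cases hk : k = i
        · have hkj : k ≠ j := by rw [hk]; exact hij
          rw [if_pos hk, if_pos hk, if_neg hkj]; simp
        · by_cases hk' : k = j
          · rw [if_neg hk, if_pos hk', if_neg hk, if_pos hk']; simp
          · rw [if_neg hk, if_neg hk', if_neg hk, if_neg hk']; simp
    _ = n ^ q := by simp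

theorem count_fun_avoid (q n : ℕ) (S : Finset (Fin n)) :
    (∑ f : Fin q → Fin n, if (∀ k, f k ∉ S) then 1 else 0) = (n - S.card) ^ q := by
  have h := sum_fun_indicator q n (fun _ z => z ∉ S)
  rw [h]
  have h2 : (univ.filter (fun z : Fin n => z ∉ S)).card = n - S.card := by
    have : univ.filter (fun z : Fin n => z ∉ S) = univ \ S := by
      ext z; simp
    rw [this, Finset.card_sdiff_of_subset (Finset.subset_univ S)]
    simp
  simp [h2]

theorem tail_sum_le {n : ℕ} (q : ℕ) (P : Finset (Fin n)) :
    ∑ r ∈ P, (n - (P.filter (fun ρ => r ≤ ρ)).card) ^ q ≤ ∑ t ∈ range n, t ^ q := by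
  classical
  set g : Fin n → ℕ := fun r => n - (P.filter (fun ρ => r ≤ ρ)).card with hg
  have hcard : ∀ r : Fin n, (P.filter (fun ρ => r ≤ ρ)).card ≤ n := by
    intro r
    have := Finset.card_le_univ (P.filter (fun ρ => r ≤ ρ))
    simpa using this
  have hinj : Set.InjOn g (P : Set (Fin n)) := by
    have key : ∀ r r' : Fin n, r ∈ P → r' ∈ P → r ≤ r' → g r = g r' → r = r' := by
      intro r r' hr hr' hle heq
      have hsub : P.filter (fun ρ => r' ≤ ρ) ⊆ P.filter (fun ρ => r ≤ ρ) := by
        intro ρ hρ
        simp only [mem_filter] at hρ ⊢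
        exact ⟨hρ.1, le_trans hle hρ.2⟩
      have hc : (P.filter (fun ρ => r ≤ ρ)).card ≤ (P.filter (fun ρ => r' ≤ ρ)).card := by
        have h1 := hcard r
        have h2 := hcard r'
        simp only [hg] at heq
        omega
      have heq2 := Finset.eq_of_subset_of_card_le hsub hc
      have hmem : r ∈ P.filter (fun ρ => r ≤ ρ) := by simp [hr]
      rw [← heq2] at hmem
      simp only [mem_filter] at hmem
      exact le_antisymm hle hmem.2
    intro r hr r' hr' heq
    rcases le_total r r' with h | h
    · exact key r r' hr hr' h heq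
    · exact (key r' r hr' hr h heq.symm).symm
  have hsub : P.image g ⊆ range n := by
    intro t ht
    simp only [mem_image] at ht
    obtain ⟨r, hr, rfl⟩ := ht
    have hpos : 0 < (P.filter (fun ρ => r ≤ ρ)).card := by
      apply Finset.card_pos.mpr
      exact ⟨r, by simp [hr]⟩
    have hn : 0 < n := Fin.pos r
    simp only [hg, mem_range]
    omega
  calc ∑ r ∈ P, (n - (P.filter (fun ρ => r ≤ ρ)).card) ^ q
      = ∑ r ∈ P, (g r) ^ q := rfl
    _ = ∑ t ∈ P.image g, t ^ q := (Finset.sum_image (f := fun t => t ^ q) hinj).symm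
    _ ≤ ∑ t ∈ range n, t ^ q := Finset.sum_le_sum_of_subset hsub

end Vale.Agent.Lib.P037.H20.Id
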