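import Mathlib

namespace Vale.Agent.Lib.P037.H20

open Finset

variable {n : ℕ}

/-- `jcp A r r' a b`: rows `r < r'` and columns `a < b` of `A` carry the single-one pattern
with rows `(1,0)` and `(0,0)`. -/
def jcp (A : Fin n → Fin n → Bool) (r r' a b : Fin n) : Prop :=
  r < r' ∧ a < b ∧ A r a = true ∧ A r b = false ∧ A r' a = false ∧ A r' b = false

instance (A : Fin n → Fin n → Bool) (r r' a b : Fin n) : Decidable (jcp A r r' a b) := by
  unfold jcp; infer_instance

/-- Columns `c < c'` outside `D` are linked at level `r` when some sampled row at or below `r`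
has zeros in both. -/
def jlink (A : Fin n → Fin n → Bool) (Q D : Finset (Fin n)) (r c c' : Fin n) : Prop :=
  c < c' ∧ c ∉ D ∧ c' ∉ D ∧ ∃ ρ ∈ Q, r ≤ ρ ∧ A ρ c = false ∧ A ρ c' = false

/-- The order on columns generated by the links at level `r`. -/
def jrel (A : Fin n → Fin n → Bool) (Q D : Finset (Fin n)) (r : Fin n) :
    Fin n → Fin n → Prop :=
  Relation.ReflTransGen (jlink A Q D r)

theorem jrel_le (A : Fin n → Fin n → Bool) (Q D : Finset (Fin n)) (r : Fin n) {c c' : Fin n}
    (h : jrel A Q D r c c') : c ≤ c' := by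
  unfold jrel at h
  induction h with
  | refl => exact le_refl _
  | tail _ hbc ih => exact le_trans ih (le_of_lt hbc.1)

theorem jrel_mono (A : Fin n → Fin n → Bool) (Q D : Finset (Fin n)) {r r' : Fin n} (hr : r ≤ r')
    {c c' : Fin n} (h : jrel A Q D r' c c') : jrel A Q D r c c' := by
  unfold jrel at h ⊢
  refine Relation.ReflTransGen.mono ?_ _ _ h
  intro a b hab
  obtain ⟨h1, h2, h3, ρ, hρ, hle, h4, h5⟩ := hab
  exact ⟨h1, h2, h3, ρ, hρ, le_trans hr hle, h4, h5⟩

theorem jrel_refl (A : Fin n → Fin n → Bool) (Q D : Finset (Fin n)) (r c : Fin n) :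
    jrel A Q D r c c := Relation.ReflTransGen.refl

theorem jrel_trans (A : Fin n → Fin n → Bool) (Q D : Finset (Fin n)) (r : Fin n)
    {a b c : Fin n} (h1 : jrel A Q D r a b) (h2 : jrel A Q D r b c) : jrel A Q D r a c :=
  Relation.ReflTransGen.trans h1 h2

/-- Direct predecessors of a column are linked with each other, when `D` covers all sampled
copies. -/
theorem jlink_pred (A : Fin n → Fin n → Bool) (Q D : Finset (Fin n))
    (hD : ∀ ρ0 ∈ Q, ∀ ρ1 ∈ Q, ∀ a b, jcp A ρ0 ρ1 a b → a ∈ D ∨ b ∈ D)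
    (r : Fin n) {a b y : Fin n} (h1 : jlink A Q D r a y) (h2 : jlink A Q D r b y) (hab : a < b) :
    jlink A Q D r a b := by
  obtain ⟨hay, haD, hyD, σa, hσa, hra, ha1, ha2⟩ := h1
  obtain ⟨hby, hbD, _, σb, hσb, hrb, hb1, hb2⟩ := h2
  refine ⟨hab, haD, hbD, ?_⟩
  rcases lt_trichotomy σa σb with hlt | heq | hgt
  · refine ⟨σa, hσa, hra, ha1, ?_⟩
    by_contra hne
    have hb : A σa b = true := by simpa using hne
    rcases hD σa hσa σb hσb b y ⟨hlt, hby, hb, ha2, hb1, hb2⟩ with h | h
    · exact hbD h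
    · exact hyD h
  · subst heq
    exact ⟨σa, hσa, hra, ha1, hb1⟩
  · refine ⟨σb, hσb, hrb, ?_, hb1⟩
    by_contra hne
    have ha : A σb a = true := by simpa using hne
    rcases hD σb hσb σa hσa a y ⟨hgt, hay, ha, hb2, ha1, ha2⟩ with h | h
    · exact haD h
    · exact hyD h

/-- Forest property: the columns below a given column form a chain. -/
theorem jrel_forest (A : Fin n → Fin n → Bool) (Q D : Finset (Fin n))
    (hD : ∀ ρ0 ∈ Q, ∀ ρ1 ∈ Q, ∀ a b, jcp A ρ0 ρ1 a b → a ∈ D ∨ b ∈ D)
    (r : Fin n) : ∀ y a b : Fin n, jrel A Q D r a y → jrel A Q D r b y →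
      jrel A Q D r a b ∨ jrel A Q D r b a := by
  intro y
  induction y using WellFoundedLT.induction with
  | _ y ih =>
    intro a b ha hb
    rcases Relation.ReflTransGen.cases_tail ha with hay | ⟨a', haa', ha'y⟩
    · right
      rw [← hay]
      exact hb
    rcases Relation.ReflTransGen.cases_tail hb with hby | ⟨b', hbb', hb'y⟩
    · left
      rw [← hby]
      exact ha
    rcases lt_trichotomy a' b' with hlt | heq | hgt
    · have hl := jlink_pred A Q D hD r ha'y hb'y hlt
      have hab' : jrel A Q D r a b' := Relation.ReflTransGen.tail haa' hl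
      exact ih b' hb'y.1 a b hab' hbb'
    · subst heq
      exact ih a' ha'y.1 a b haa' hbb'
    · have hl := jlink_pred A Q D hD r hb'y ha'y hgt
      have hba' : jrel A Q D r b a' := Relation.ReflTransGen.tail hbb' hl
      exact ih a' ha'y.1 a b haa' hba'

/-- Related distinct columns lie outside `D`. -/
theorem jrel_notMem (A : Fin n → Fin n → Bool) (Q D : Finset (Fin n)) (r : Fin n) {c c' : Fin n}
    (h : jrel A Q D r c c') (hne : c ≠ c') : c ∉ D ∧ c' ∉ D := by
  constructor
  · rcases Relation.ReflTransGen.cases_head h with h1 | ⟨d, hcd, _⟩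
    · exact absurd h1 hne
    · exact hcd.2.1
  · rcases Relation.ReflTransGen.cases_tail h with h1 | ⟨d, _, hdc⟩
    · exact absurd h1.symm hne
    · exact hdc.2.2.1

/-- Key lemma: a sampled row at or above level `r` with a zero in column `y` has zeros in all
columns below `y` in the order of level `r`. -/
theorem jrel_key (A : Fin n → Fin n → Bool) (Q D : Finset (Fin n))
    (hD : ∀ ρ0 ∈ Q, ∀ ρ1 ∈ Q, ∀ a b, jcp A ρ0 ρ1 a b → a ∈ D ∨ b ∈ D)
    (r r' : Fin n) (hr'Q : r' ∈ Q) (hr' : r' ≤ r) {x y : Fin n}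
    (h : jrel A Q D r x y) : A r' y = false → A r' x = false := by
  unfold jrel at h
  induction h with
  | refl => exact id
  | @tail w z _ hwy ih =>
    intro hy
    apply ih
    obtain ⟨hlt, hwD, hyD, ρ, hρ, hle, h1, h2⟩ := hwy
    by_contra hne
    have hw : A r' w = true := by simpa using hne
    rcases lt_or_eq_of_le (le_trans hr' hle) with hlt' | heq
    · rcases hD r' hr'Q ρ hρ w z ⟨hlt', hlt, hw, hy, h1, h2⟩ with h | h
      · exact hwD h
      · exact hyD h
    · rw [heq, h1] at hw
      exact absurd hw (by simp)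

/-- Any choice of down-closed chains gives a matrix without the single-one pattern. -/
theorem jfree_of_chains (A : Fin n → Fin n → Bool) (Q D : Finset (Fin n))
    (S : Fin n → Finset (Fin n))
    (hchain : ∀ r, ∀ x ∈ S r, ∀ y ∈ S r, x < y → jrel A Q D r x y)
    (hdown : ∀ r, ∀ y ∈ S r, ∀ x, jrel A Q D r x y → x ∈ S r) :
    ∀ r r' a b : Fin n,
      ¬ jcp (fun r c => if c ∈ D then true else decide (c ∉ S r)) r r' a b := by
  intro r r' a b hcp
  obtain ⟨hr, hab, h1, h2, h3, h4⟩ := hcp
  have haD : a ∉ D := by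
    intro h
    simp [h] at h3
  have hbD : b ∉ D := by
    intro h
    simp [h] at h2
  simp only [haD, hbD, if_false, decide_eq_true_eq, decide_eq_false_iff_not, not_not] at h1 h2 h3 h4
  have hrel : jrel A Q D r' a b := hchain r' a h3 b h4 hab
  exact h1 (hdown r b h2 a (jrel_mono A Q D hr.le hrel))

end Vale.Agent.Lib.P037.H20
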