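import Mathlib
import Vale.Agent.Lib.P037.H20.JBase

namespace Vale.Agent.Lib.P037.H20

open Finset

variable {n : ℕ}

/-- Rounding in a forest order: a set `Z` of columns is close to a down-closed chain, up to the
square root of the number of unrelated pairs inside `Z` plus the number of inverted related
pairs. -/
theorem forest_round (R : Fin n → Fin n → Prop) [DecidableRel R]
    (hle : ∀ x y, R x y → x ≤ y) (hrefl : ∀ x, R x x)
    (htrans : ∀ x y z, R x y → R y z → R x z)
    (hforest : ∀ y a b, R a y → R b y → R a b ∨ R b a) (Z : Finset (Fin n)) :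
    ∃ S : Finset (Fin n),
      (∀ x ∈ S, ∀ y ∈ S, x < y → R x y) ∧ (∀ y ∈ S, ∀ x, R x y → x ∈ S) ∧
      ((Z \ S).card + (S \ Z).card) ^ 2 ≤
        8 * ((Z ×ˢ Z).filter (fun p => p.1 < p.2 ∧ ¬ R p.1 p.2)).card +
        16 * (((univ \ Z) ×ˢ Z).filter (fun p => p.1 < p.2 ∧ R p.1 p.2)).card + 16 := by
  rcases Z.eq_empty_or_nonempty with hZ | hZ
  · refine ⟨∅, by simp, by simp, ?_⟩
    subst hZ
    simp
  set U := ((Z ×ˢ Z).filter (fun p => p.1 < p.2 ∧ ¬ R p.1 p.2)).card with hU
  set AI := (((univ \ Z) ×ˢ Z).filter (fun p => p.1 < p.2 ∧ R p.1 p.2)).card with hAI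
  set inc : Fin n → ℕ := fun y => (Z.filter (fun x => x < y ∧ ¬ R x y)).card with hinc
  have hsum : ∑ y ∈ Z, inc y = U := by
    rw [hU, Finset.card_filter, Finset.sum_product, Finset.sum_comm]
    apply Finset.sum_congr rfl
    intro y _
    rw [hinc]
    simp only
    rw [Finset.card_filter]
  set t := Nat.sqrt U with ht
  have ht1 : t * t ≤ U := Nat.sqrt_le U
  have ht2 : U < (t + 1) * (t + 1) := Nat.lt_succ_sqrt U
  set G := Z.filter (fun y => inc y ≤ t) with hG
  have hGne : G.Nonempty := by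
    refine ⟨Z.min' hZ, ?_⟩
    rw [hG, mem_filter]
    refine ⟨Finset.min'_mem Z hZ, ?_⟩
    have h0 : inc (Z.min' hZ) = 0 := by
      rw [hinc]
      simp only
      rw [Finset.card_eq_zero, Finset.filter_eq_empty_iff]
      intro x hx hcon
      have := Finset.min'_le Z x hx
      exact absurd hcon.1 (not_lt.mpr this)
    omega
  set ys := G.max' hGne with hys
  have hysG : ys ∈ G := Finset.max'_mem G hGne
  have hysZ : ys ∈ Z := (mem_filter.mp hysG).1
  have hyst : inc ys ≤ t := (mem_filter.mp hysG).2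
  set P := (univ : Finset (Fin n)).filter (fun x => R x ys) with hP
  have hT : (Z.filter (fun x => ys < x)).card ≤ t := by
    have h1 : (Z.filter (fun x => ys < x)).card * (t + 1) ≤
        ∑ x ∈ Z.filter (fun x => ys < x), inc x := by
      rw [← smul_eq_mul]
      apply Finset.card_nsmul_le_sum
      intro x hx
      rw [mem_filter] at hx
      by_contra hcon
      have hxG : x ∈ G := by
        rw [hG, mem_filter]
        exact ⟨hx.1, by omega⟩
      have := Finset.le_max' G x hxG
      exact absurd hx.2 (not_lt.mpr this)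
    have h2 : ∑ x ∈ Z.filter (fun x => ys < x), inc x ≤ ∑ x ∈ Z, inc x :=
      Finset.sum_le_sum_of_subset (Finset.filter_subset _ _)
    rw [hsum] at h2
    by_contra hcon
    have h3 : t + 1 ≤ (Z.filter (fun x => ys < x)).card := by omega
    have h4 : (t + 1) * (t + 1) ≤ (Z.filter (fun x => ys < x)).card * (t + 1) :=
      Nat.mul_le_mul_right _ h3
    omega
  have hW : (Z \ P).card ≤ 2 * t := by
    have hsub : Z \ P ⊆ Z.filter (fun x => x < ys ∧ ¬ R x ys) ∪ Z.filter (fun x => ys < x) := by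
      intro x hx
      rw [mem_sdiff] at hx
      have hxP : ¬ R x ys := by
        intro h
        apply hx.2
        rw [hP, mem_filter]
        exact ⟨mem_univ _, h⟩
      rw [mem_union, mem_filter, mem_filter]
      rcases lt_trichotomy x ys with h | h | h
      · exact Or.inl ⟨hx.1, h, hxP⟩
      · exact absurd (h ▸ hrefl ys) hxP
      · exact Or.inr ⟨hx.1, h⟩
    have h1 := Finset.card_le_card hsub
    have h2 := Finset.card_union_le (Z.filter (fun x => x < ys ∧ ¬ R x ys))
      (Z.filter (fun x => ys < x))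
    have h3 : (Z.filter (fun x => x < ys ∧ ¬ R x ys)).card ≤ t := hyst
    omega
  obtain ⟨τ, hτ⟩ := jround_exists (fun c : Fin n => c.val) Fin.val_injective
    (P.filter (fun c => c ∉ Z)) (P.filter (fun c => c ∈ Z))
  have hinv : (((P.filter (fun c => c ∉ Z)) ×ˢ (P.filter (fun c => c ∈ Z))).filter
      (fun p => p.1.val < p.2.val)).card ≤ AI := by
    rw [hAI]
    apply Finset.card_le_card
    intro p hp
    obtain ⟨hp1, hlt⟩ := Finset.mem_filter.mp hp
    obtain ⟨hpa, hpb⟩ := Finset.mem_product.mp hp1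
    obtain ⟨h1P, h1Z⟩ := Finset.mem_filter.mp hpa
    obtain ⟨h2P, h2Z⟩ := Finset.mem_filter.mp hpb
    have h1R : R p.1 ys := (Finset.mem_filter.mp h1P).2
    have h2R : R p.2 ys := (Finset.mem_filter.mp h2P).2
    have hlt' : p.1 < p.2 := hlt
    refine Finset.mem_filter.mpr ⟨Finset.mem_product.mpr
      ⟨Finset.mem_sdiff.mpr ⟨mem_univ _, h1Z⟩, h2Z⟩, hlt', ?_⟩
    rcases hforest ys p.1 p.2 h1R h2R with h | h
    · exact h
    · exact absurd (hle _ _ h) (not_le.mpr hlt')
  set e := (((P.filter (fun c => c ∉ Z)).filter (fun a => a.val < τ)).card +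
      ((P.filter (fun c => c ∈ Z)).filter (fun b => τ ≤ b.val)).card) with he
  have he2 : e ^ 2 ≤ 8 * (AI + 1) := by
    refine le_trans hτ ?_
    omega
  refine ⟨P.filter (fun x => x.val < τ), ?_, ?_, ?_⟩
  · intro x hx y hy hxy
    have hxR : R x ys := (Finset.mem_filter.mp (Finset.mem_filter.mp hx).1).2
    have hyR : R y ys := (Finset.mem_filter.mp (Finset.mem_filter.mp hy).1).2
    rcases hforest ys x y hxR hyR with h | h
    · exact h
    · exact absurd (hle _ _ h) (not_le.mpr hxy)
  · intro y hy x hxy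
    have hyR : R y ys := (Finset.mem_filter.mp (Finset.mem_filter.mp hy).1).2
    have hyτ : y.val < τ := (Finset.mem_filter.mp hy).2
    refine Finset.mem_filter.mpr ⟨Finset.mem_filter.mpr ⟨mem_univ _, htrans x y ys hxy hyR⟩, ?_⟩
    have h2 : x.val ≤ y.val := hle x y hxy
    omega
  · have hA : (Z \ P.filter (fun x => x.val < τ)).card ≤
        (Z \ P).card + ((P.filter (fun c => c ∈ Z)).filter (fun b => τ ≤ b.val)).card := by
      refine le_trans (Finset.card_le_card ?_) (Finset.card_union_le _ _)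
      intro c hc
      obtain ⟨hcZ, hcS⟩ := Finset.mem_sdiff.mp hc
      by_cases hcP : c ∈ P
      · refine Finset.mem_union.mpr (Or.inr (Finset.mem_filter.mpr
          ⟨Finset.mem_filter.mpr ⟨hcP, hcZ⟩, ?_⟩))
        by_contra hcon
        exact hcS (Finset.mem_filter.mpr ⟨hcP, by omega⟩)
      · exact Finset.mem_union.mpr (Or.inl (Finset.mem_sdiff.mpr ⟨hcZ, hcP⟩))
    have hB : (P.filter (fun x => x.val < τ) \ Z).card ≤
        ((P.filter (fun c => c ∉ Z)).filter (fun a => a.val < τ)).card := by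
      apply Finset.card_le_card
      intro c hc
      obtain ⟨hcS, hcZ⟩ := Finset.mem_sdiff.mp hc
      obtain ⟨hcP, hcτ⟩ := Finset.mem_filter.mp hcS
      exact Finset.mem_filter.mpr ⟨Finset.mem_filter.mpr ⟨hcP, hcZ⟩, hcτ⟩
    have hfin : (Z \ P.filter (fun x => x.val < τ)).card +
        (P.filter (fun x => x.val < τ) \ Z).card ≤ 2 * t + e := by
      omega
    have h5 : (2 * t + e) ^ 2 ≤ 8 * (t * t) + 2 * e ^ 2 := by
      nlinarith [sq_nonneg ((2 * t : ℤ) - (e : ℤ)), sq_nonneg (2 * t - e)]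
    calc ((Z \ P.filter (fun x => x.val < τ)).card +
          (P.filter (fun x => x.val < τ) \ Z).card) ^ 2
        ≤ (2 * t + e) ^ 2 := Nat.pow_le_pow_left hfin 2
      _ ≤ 8 * (t * t) + 2 * e ^ 2 := h5
      _ ≤ 8 * U + 16 * AI + 16 := by omega

end Vale.Agent.Lib.P037.H20
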