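import Mathlib
import Vale.Agent.Lib.P037.H20.JBase
import Vale.Agent.Lib.P037.H20.JForest
import Vale.Agent.Lib.P037.H20.JRound

namespace Vale.Agent.Lib.P037.H20

open Finset

variable {n : ℕ}

def jNpair (A : Fin n → Fin n → Bool) (ρ ρ' : Fin n) : ℕ :=
  ∑ a, ∑ b, if jcp A ρ ρ' a b then 1 else 0

def jN (A : Fin n → Fin n → Bool) : ℕ :=
  ∑ r, ∑ r', ∑ a, ∑ b, if jcp A r r' a b then 1 else 0

theorem jN_eq_sum_jNpair (A : Fin n → Fin n → Bool) : jN A = ∑ r, ∑ r', jNpair A r r' := rfl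

theorem jNpair_self (A : Fin n → Fin n → Bool) (ρ : Fin n) : jNpair A ρ ρ = 0 := by
  unfold jNpair
  apply Finset.sum_eq_zero
  intro a _
  apply Finset.sum_eq_zero
  intro b _
  rw [if_neg]
  intro h
  exact lt_irrefl _ h.1

def jX2 (A : Fin n → Fin n → Bool) (Q : Finset (Fin n)) : ℕ :=
  ∑ ρ0 ∈ Q, ∑ ρ1 ∈ Q, jNpair A ρ0 ρ1

/-- Rows that are among the last rows with two zeros in a pair of columns, relative to `Q`. -/
def jXbot (A : Fin n → Fin n → Bool) (Q : Finset (Fin n)) : ℕ :=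
  ∑ r, ∑ x, ∑ y,
    if (x < y ∧ A r x = false ∧ A r y = false ∧
        ∀ ρ ∈ Q, r ≤ ρ → ¬ (A ρ x = false ∧ A ρ y = false)) then 1 else 0

/-- Rows that are among the first rows with a one and a zero in a pair of columns, relative to
`Q`. -/
def jXtop (A : Fin n → Fin n → Bool) (Q : Finset (Fin n)) : ℕ :=
  ∑ r, ∑ x, ∑ y,
    if (x < y ∧ A r x = true ∧ A r y = false ∧
        ∀ ρ ∈ Q, ρ ≤ r → ¬ (A ρ x = true ∧ A ρ y = false)) then 1 else 0

theorem jexists_cover (A : Fin n → Fin n → Bool) (Q : Finset (Fin n)) :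
    ∃ D : Finset (Fin n),
      (∀ ρ0 ∈ Q, ∀ ρ1 ∈ Q, ∀ a b, jcp A ρ0 ρ1 a b → a ∈ D ∨ b ∈ D) ∧
      D.card ^ 2 ≤ 8 * Q.card ^ 2 * (jX2 A Q + Q.card ^ 2) := by
  classical
  have hpair : ∀ p : Fin n × Fin n, ∃ Dp : Finset (Fin n),
      (∀ a b, jcp A p.1 p.2 a b → a ∈ Dp ∨ b ∈ Dp) ∧
      Dp.card ^ 2 ≤ 8 * (jNpair A p.1 p.2 + 1) := by
    intro p
    by_cases hlt : p.1 < p.2
    · obtain ⟨τ, hτ⟩ := jround_exists (fun c : Fin n => c.val) Fin.val_injective
        (univ.filter (fun a : Fin n => A p.1 a = true ∧ A p.2 a = false))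
        (univ.filter (fun b : Fin n => A p.1 b = false ∧ A p.2 b = false))
      refine ⟨(univ.filter (fun a : Fin n => A p.1 a = true ∧ A p.2 a = false)).filter
          (fun a => a.val < τ) ∪
        (univ.filter (fun b : Fin n => A p.1 b = false ∧ A p.2 b = false)).filter
          (fun b => τ ≤ b.val), ?_, ?_⟩
      · intro a b hcp
        obtain ⟨_, hab, h1, h2, h3, h4⟩ := hcp
        by_cases ha : a.val < τ
        · left
          simp only [mem_union, mem_filter, mem_univ, true_and]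
          exact Or.inl ⟨⟨h1, h3⟩, ha⟩
        · right
          have hab' : a.val < b.val := hab
          simp only [mem_union, mem_filter, mem_univ, true_and]
          exact Or.inr ⟨⟨h2, h4⟩, by omega⟩
      · have hv : (((univ.filter (fun a : Fin n => A p.1 a = true ∧ A p.2 a = false)) ×ˢ
            (univ.filter (fun b : Fin n => A p.1 b = false ∧ A p.2 b = false))).filter
            (fun q : Fin n × Fin n => q.1.val < q.2.val)).card = jNpair A p.1 p.2 := by
          unfold jNpair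
          rw [Finset.card_filter, Finset.sum_product, Finset.sum_filter]
          apply Finset.sum_congr rfl
          intro a _
          by_cases ha : (A p.1 a = true ∧ A p.2 a = false)
          · rw [if_pos ha, Finset.sum_filter]
            apply Finset.sum_congr rfl
            intro b _
            by_cases hb : (A p.1 b = false ∧ A p.2 b = false)
            · by_cases hab : a.val < b.val
              · rw [if_pos hb, if_pos hab, if_pos]
                exact ⟨hlt, hab, ha.1, hb.1, ha.2, hb.2⟩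
              · rw [if_pos hb, if_neg hab, if_neg]
                intro hcp
                exact hab hcp.2.1
            · rw [if_neg hb, if_neg]
              intro hcp
              exact hb ⟨hcp.2.2.2.1, hcp.2.2.2.2.2⟩
          · rw [if_neg ha]
            symm
            apply Finset.sum_eq_zero
            intro b _
            rw [if_neg]
            intro hcp
            exact ha ⟨hcp.2.2.1, hcp.2.2.2.2.1⟩
        rw [hv] at hτ
        exact le_trans (Nat.pow_le_pow_left (card_union_le _ _) 2) hτ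
    · refine ⟨∅, ?_, by simp⟩
      intro a b hcp
      exact absurd hcp.1 hlt
  choose Dp hDp1 hDp2 using hpair
  refine ⟨(Q ×ˢ Q).biUnion Dp, ?_, ?_⟩
  · intro ρ0 h0 ρ1 h1 a b hcp
    rcases hDp1 (ρ0, ρ1) a b hcp with h | h
    · left
      exact mem_biUnion.mpr ⟨(ρ0, ρ1), mem_product.mpr ⟨h0, h1⟩, h⟩
    · right
      exact mem_biUnion.mpr ⟨(ρ0, ρ1), mem_product.mpr ⟨h0, h1⟩, h⟩
  · have h1 : ((Q ×ˢ Q).biUnion Dp).card ≤ ∑ p ∈ Q ×ˢ Q, (Dp p).card := card_biUnion_le
    have h2 : (∑ p ∈ Q ×ˢ Q, (Dp p).card) ^ 2 ≤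
        (Q ×ˢ Q).card * ∑ p ∈ Q ×ˢ Q, (Dp p).card ^ 2 := by
      have := sq_sum_le_card_mul_sum_sq (s := Q ×ˢ Q) (f := fun p => (Dp p).card)
      simpa using this
    have h3 : ∑ p ∈ Q ×ˢ Q, (Dp p).card ^ 2 ≤ ∑ p ∈ Q ×ˢ Q, 8 * (jNpair A p.1 p.2 + 1) :=
      Finset.sum_le_sum (fun p _ => hDp2 p)
    have h4 : ∑ p ∈ Q ×ˢ Q, 8 * (jNpair A p.1 p.2 + 1) = 8 * (jX2 A Q + Q.card ^ 2) := by
      rw [← Finset.mul_sum, Finset.sum_add_distrib, Finset.sum_product]
      simp only [jX2, Finset.sum_const, card_product, smul_eq_mul, mul_one]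
      ring
    have h5 : (Q ×ˢ Q).card = Q.card ^ 2 := by
      rw [card_product]; ring
    calc ((Q ×ˢ Q).biUnion Dp).card ^ 2
        ≤ (∑ p ∈ Q ×ˢ Q, (Dp p).card) ^ 2 := Nat.pow_le_pow_left h1 2
      _ ≤ (Q ×ˢ Q).card * ∑ p ∈ Q ×ˢ Q, (Dp p).card ^ 2 := h2
      _ ≤ Q.card ^ 2 * (8 * (jX2 A Q + Q.card ^ 2)) := by
          rw [h5]
          exact Nat.mul_le_mul_left _ (h3.trans h4.le)
      _ = 8 * Q.card ^ 2 * (jX2 A Q + Q.card ^ 2) := by ring

/-- Rounding of one row: its zeros outside `D` are close to a down-closed chain of the level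
order. -/
theorem jrow_round (A : Fin n → Fin n → Bool) (Q D : Finset (Fin n))
    (hD : ∀ ρ0 ∈ Q, ∀ ρ1 ∈ Q, ∀ a b, jcp A ρ0 ρ1 a b → a ∈ D ∨ b ∈ D) (r : Fin n) :
    ∃ S : Finset (Fin n),
      (∀ x ∈ S, ∀ y ∈ S, x < y → jrel A Q D r x y) ∧
      (∀ y ∈ S, ∀ x, jrel A Q D r x y → x ∈ S) ∧
      ((univ.filter (fun c => c ∉ D ∧ A r c = false) \ S).card +
        (S \ univ.filter (fun c => c ∉ D ∧ A r c = false)).card) ^ 2 ≤
        8 * (∑ x, ∑ y, if (x < y ∧ A r x = false ∧ A r y = false ∧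
            ∀ ρ ∈ Q, r ≤ ρ → ¬ (A ρ x = false ∧ A ρ y = false)) then 1 else 0) +
        16 * (∑ x, ∑ y, if (x < y ∧ A r x = true ∧ A r y = false ∧
            ∀ ρ ∈ Q, ρ ≤ r → ¬ (A ρ x = true ∧ A ρ y = false)) then 1 else 0) + 16 := by
  classical
  set Z := (univ : Finset (Fin n)).filter (fun c => c ∉ D ∧ A r c = false) with hZ
  obtain ⟨S, hS1, hS2, hS3⟩ := forest_round (jrel A Q D r)
    (fun x y h => jrel_le A Q D r h) (fun x => jrel_refl A Q D r x)
    (fun x y z h1 h2 => jrel_trans A Q D r h1 h2) (jrel_forest A Q D hD r) Z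
  refine ⟨S, hS1, hS2, le_trans hS3 ?_⟩
  have hU : ((Z ×ˢ Z).filter (fun p => p.1 < p.2 ∧ ¬ jrel A Q D r p.1 p.2)).card ≤
      ∑ x, ∑ y, if (x < y ∧ A r x = false ∧ A r y = false ∧
            ∀ ρ ∈ Q, r ≤ ρ → ¬ (A ρ x = false ∧ A ρ y = false)) then 1 else 0 := by
    have hsub : (Z ×ˢ Z).filter (fun p => p.1 < p.2 ∧ ¬ jrel A Q D r p.1 p.2) ⊆
        (univ : Finset (Fin n × Fin n)).filter (fun p => p.1 < p.2 ∧ A r p.1 = false ∧
          A r p.2 = false ∧ ∀ ρ ∈ Q, r ≤ ρ → ¬ (A ρ p.1 = false ∧ A ρ p.2 = false)) := by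
      intro p hp
      obtain ⟨hp1, hlt, hnR⟩ := Finset.mem_filter.mp hp
      obtain ⟨hpa, hpb⟩ := Finset.mem_product.mp hp1
      obtain ⟨_, haD, ha⟩ := Finset.mem_filter.mp hpa
      obtain ⟨_, hbD, hb⟩ := Finset.mem_filter.mp hpb
      refine Finset.mem_filter.mpr ⟨mem_univ _, hlt, ha, hb, ?_⟩
      intro ρ hρ hle hcon
      exact hnR (Relation.ReflTransGen.single ⟨hlt, haD, hbD, ρ, hρ, hle, hcon.1, hcon.2⟩)
    refine le_trans (Finset.card_le_card hsub) (le_of_eq ?_)
    rw [Finset.card_filter, Fintype.sum_prod_type]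
  have hAI : (((univ \ Z) ×ˢ Z).filter (fun p => p.1 < p.2 ∧ jrel A Q D r p.1 p.2)).card ≤
      ∑ x, ∑ y, if (x < y ∧ A r x = true ∧ A r y = false ∧
            ∀ ρ ∈ Q, ρ ≤ r → ¬ (A ρ x = true ∧ A ρ y = false)) then 1 else 0 := by
    have hsub : ((univ \ Z) ×ˢ Z).filter (fun p => p.1 < p.2 ∧ jrel A Q D r p.1 p.2) ⊆
        (univ : Finset (Fin n × Fin n)).filter (fun p => p.1 < p.2 ∧ A r p.1 = true ∧
          A r p.2 = false ∧ ∀ ρ ∈ Q, ρ ≤ r → ¬ (A ρ p.1 = true ∧ A ρ p.2 = false)) := by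
      intro p hp
      obtain ⟨hp1, hlt, hR⟩ := Finset.mem_filter.mp hp
      obtain ⟨hpa, hpb⟩ := Finset.mem_product.mp hp1
      have haZ : p.1 ∉ Z := (Finset.mem_sdiff.mp hpa).2
      obtain ⟨_, hbD, hb⟩ := Finset.mem_filter.mp hpb
      have haD : p.1 ∉ D := (jrel_notMem A Q D r hR (ne_of_lt hlt)).1
      have ha : A r p.1 = true := by
        by_contra hne
        apply haZ
        rw [hZ]
        exact Finset.mem_filter.mpr ⟨mem_univ _, haD, by simpa using hne⟩
      refine Finset.mem_filter.mpr ⟨mem_univ _, hlt, ha, hb, ?_⟩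
      intro ρ hρ hle hcon
      have := jrel_key A Q D hD r ρ hρ hle hR hcon.2
      rw [hcon.1] at this
      exact absurd this (by simp)
    refine le_trans (Finset.card_le_card hsub) (le_of_eq ?_)
    rw [Finset.card_filter, Fintype.sum_prod_type]
  omega

theorem jexists_free_close (A : Fin n → Fin n → Bool) (Q : Finset (Fin n)) :
    ∃ B : Fin n → Fin n → Bool, (∀ r r' a b, ¬ jcp B r r' a b) ∧
      ∃ s d : ℕ,
        (univ.filter (fun p : Fin n × Fin n => A p.1 p.2 ≠ B p.1 p.2)).card ≤ s + n * d ∧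
        s ^ 2 ≤ n * (8 * jXbot A Q + 16 * jXtop A Q + 16 * n) ∧
        d ^ 2 ≤ 8 * Q.card ^ 2 * (jX2 A Q + Q.card ^ 2) := by
  classical
  obtain ⟨D, hD1, hD2⟩ := jexists_cover A Q
  choose S hS1 hS2 hS3 using jrow_round A Q D hD1
  refine ⟨fun r c => if c ∈ D then true else decide (c ∉ S r),
    jfree_of_chains A Q D S hS1 hS2, ?_⟩
  refine ⟨∑ r, ((univ.filter (fun c => c ∉ D ∧ A r c = false) \ S r).card +
      (S r \ univ.filter (fun c => c ∉ D ∧ A r c = false)).card), D.card, ?_, ?_, hD2⟩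
  · have hsub : univ.filter (fun p : Fin n × Fin n =>
        A p.1 p.2 ≠ (if p.2 ∈ D then true else decide (p.2 ∉ S p.1))) ⊆
        univ.filter (fun p : Fin n × Fin n =>
          p.2 ∈ (univ.filter (fun c => c ∉ D ∧ A p.1 c = false) \ S p.1) ∪
            (S p.1 \ univ.filter (fun c => c ∉ D ∧ A p.1 c = false))) ∪
        (univ : Finset (Fin n)) ×ˢ D := by
      intro p hp
      simp only [mem_filter, mem_univ, true_and] at hp
      by_cases hpD : p.2 ∈ D
      · exact Finset.mem_union.mpr (Or.inr (Finset.mem_product.mpr ⟨mem_univ _, hpD⟩))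
      · rw [if_neg hpD] at hp
        refine Finset.mem_union.mpr (Or.inl (Finset.mem_filter.mpr ⟨mem_univ _, ?_⟩))
        cases hA : A p.1 p.2 with
        | false =>
          rw [hA] at hp
          have hnS : p.2 ∉ S p.1 := by
            intro h
            apply hp
            simp [h]
          exact Finset.mem_union.mpr (Or.inl (Finset.mem_sdiff.mpr
            ⟨Finset.mem_filter.mpr ⟨mem_univ _, hpD, hA⟩, hnS⟩))
        | true =>
          rw [hA] at hp
          have hS : p.2 ∈ S p.1 := by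
            by_contra h
            apply hp
            simp [h]
          refine Finset.mem_union.mpr (Or.inr (Finset.mem_sdiff.mpr ⟨hS, ?_⟩))
          intro hcon
          have := (Finset.mem_filter.mp hcon).2.2
          rw [hA] at this
          exact absurd this (by simp)
    refine le_trans (card_le_card hsub) (le_trans (card_union_le _ _) ?_)
    have hc1 : (univ.filter (fun p : Fin n × Fin n =>
          p.2 ∈ (univ.filter (fun c => c ∉ D ∧ A p.1 c = false) \ S p.1) ∪
            (S p.1 \ univ.filter (fun c => c ∉ D ∧ A p.1 c = false)))).card ≤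
        ∑ r, ((univ.filter (fun c => c ∉ D ∧ A r c = false) \ S r).card +
          (S r \ univ.filter (fun c => c ∉ D ∧ A r c = false)).card) := by
      rw [Finset.card_filter, Fintype.sum_prod_type]
      apply Finset.sum_le_sum
      intro r _
      rw [← Finset.card_filter]
      refine le_trans (Finset.card_le_card ?_) (Finset.card_union_le _ _)
      intro c hc
      exact (Finset.mem_filter.mp hc).2
    have hc2 : ((univ : Finset (Fin n)) ×ˢ D).card = n * D.card := by
      rw [card_product]; simp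
    rw [hc2]
    omega
  · have h1 : (∑ r, ((univ.filter (fun c => c ∉ D ∧ A r c = false) \ S r).card +
          (S r \ univ.filter (fun c => c ∉ D ∧ A r c = false)).card)) ^ 2 ≤
        n * ∑ r, ((univ.filter (fun c => c ∉ D ∧ A r c = false) \ S r).card +
          (S r \ univ.filter (fun c => c ∉ D ∧ A r c = false)).card) ^ 2 := by
      have := sq_sum_le_card_mul_sum_sq (s := (univ : Finset (Fin n)))
        (f := fun r => ((univ.filter (fun c => c ∉ D ∧ A r c = false) \ S r).card +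
          (S r \ univ.filter (fun c => c ∉ D ∧ A r c = false)).card))
      simpa using this
    have h2 : ∑ r, ((univ.filter (fun c => c ∉ D ∧ A r c = false) \ S r).card +
          (S r \ univ.filter (fun c => c ∉ D ∧ A r c = false)).card) ^ 2 ≤
        ∑ r : Fin n, (8 * (∑ x, ∑ y, if (x < y ∧ A r x = false ∧ A r y = false ∧
            ∀ ρ ∈ Q, r ≤ ρ → ¬ (A ρ x = false ∧ A ρ y = false)) then 1 else 0) +
        16 * (∑ x, ∑ y, if (x < y ∧ A r x = true ∧ A r y = false ∧
            ∀ ρ ∈ Q, ρ ≤ r → ¬ (A ρ x = true ∧ A ρ y = false)) then 1 else 0) + 16) :=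
      Finset.sum_le_sum (fun r _ => hS3 r)
    have h3 : ∑ r : Fin n, (8 * (∑ x, ∑ y, if (x < y ∧ A r x = false ∧ A r y = false ∧
            ∀ ρ ∈ Q, r ≤ ρ → ¬ (A ρ x = false ∧ A ρ y = false)) then 1 else 0) +
        16 * (∑ x, ∑ y, if (x < y ∧ A r x = true ∧ A r y = false ∧
            ∀ ρ ∈ Q, ρ ≤ r → ¬ (A ρ x = true ∧ A ρ y = false)) then 1 else 0) + 16)
        = 8 * jXbot A Q + 16 * jXtop A Q + 16 * n := by
      rw [Finset.sum_add_distrib, Finset.sum_add_distrib, ← Finset.mul_sum, ← Finset.mul_sum]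
      unfold jXbot jXtop
      simp
      ring
    calc (∑ r, ((univ.filter (fun c => c ∉ D ∧ A r c = false) \ S r).card +
          (S r \ univ.filter (fun c => c ∉ D ∧ A r c = false)).card)) ^ 2
        ≤ n * ∑ r, ((univ.filter (fun c => c ∉ D ∧ A r c = false) \ S r).card +
          (S r \ univ.filter (fun c => c ∉ D ∧ A r c = false)).card) ^ 2 := h1
      _ ≤ n * (8 * jXbot A Q + 16 * jXtop A Q + 16 * n) :=
          Nat.mul_le_mul_left _ (h2.trans h3.le)

end Vale.Agent.Lib.P037.H20
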