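import Mathlib
import Vale.Agent.Lib.P037.H20.JBase
import Vale.Agent.Lib.P037.H20.JCount

namespace Vale.Agent.Lib.P037.H20

open Finset

variable {n : ℕ}

theorem jX2_image_le (A : Fin n → Fin n → Bool) (q : ℕ) (f : Fin q → Fin n) :
    jX2 A (univ.image f) ≤ ∑ i, ∑ j, jNpair A (f i) (f j) := by
  unfold jX2
  refine le_trans (Finset.sum_image_le_of_nonneg (fun _ _ => Nat.zero_le _)) ?_
  apply Finset.sum_le_sum
  intro i _
  exact Finset.sum_image_le_of_nonneg (fun _ _ => Nat.zero_le _)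

theorem jsum_Y2 (A : Fin n → Fin n → Bool) (q : ℕ) :
    (∑ f : Fin q → Fin n, ∑ i, ∑ j, jNpair A (f i) (f j)) * n ^ 2 ≤ q ^ 2 * n ^ q * jN A := by
  rw [Finset.sum_comm, Finset.sum_mul]
  have h : ∀ i j : Fin q, (∑ f : Fin q → Fin n, jNpair A (f i) (f j)) * n ^ 2 ≤ n ^ q * jN A := by
    intro i j
    by_cases hij : i = j
    · subst hij
      simp [jNpair_self]
    · rw [jmarg_two q i j hij, jN_eq_sum_jNpair]
  calc ∑ i, (∑ f : Fin q → Fin n, ∑ j, jNpair A (f i) (f j)) * n ^ 2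
      = ∑ i, ∑ j, (∑ f : Fin q → Fin n, jNpair A (f i) (f j)) * n ^ 2 := by
        apply Finset.sum_congr rfl
        intro i _
        rw [Finset.sum_comm, Finset.sum_mul]
    _ ≤ ∑ _i : Fin q, ∑ _j : Fin q, n ^ q * jN A :=
        Finset.sum_le_sum (fun i _ => Finset.sum_le_sum (fun j _ => h i j))
    _ = q ^ 2 * n ^ q * jN A := by
        simp
        ring

/-- Expected number of rows that carry a given event in a pair of columns with no sampled row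
at or below them carrying it. -/
theorem jtail_bot (q : ℕ) (E1 E2 : Fin n → Fin n → Prop)
    [∀ r x, Decidable (E1 r x)] [∀ r x, Decidable (E2 r x)] :
    (∑ f : Fin q → Fin n, ∑ r : Fin n, ∑ x : Fin n, ∑ y : Fin n,
      (if (x < y ∧ E1 r x ∧ E2 r y ∧
        ∀ ρ ∈ univ.image f, r ≤ ρ → ¬ (E1 ρ x ∧ E2 ρ y)) then 1 else 0)) * (q + 1)
      ≤ n ^ 2 * n ^ (q + 1) := by
  classical
  have hswap : ∑ f : Fin q → Fin n, ∑ r : Fin n, ∑ x : Fin n, ∑ y : Fin n,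
      (if (x < y ∧ E1 r x ∧ E2 r y ∧
        ∀ ρ ∈ univ.image f, r ≤ ρ → ¬ (E1 ρ x ∧ E2 ρ y)) then 1 else 0)
      = ∑ x : Fin n, ∑ y : Fin n, ∑ r : Fin n, ∑ f : Fin q → Fin n,
      (if (x < y ∧ E1 r x ∧ E2 r y ∧
        ∀ ρ ∈ univ.image f, r ≤ ρ → ¬ (E1 ρ x ∧ E2 ρ y)) then 1 else 0) := by
    calc ∑ f : Fin q → Fin n, ∑ r : Fin n, ∑ x : Fin n, ∑ y : Fin n,
      (if (x < y ∧ E1 r x ∧ E2 r y ∧
        ∀ ρ ∈ univ.image f, r ≤ ρ → ¬ (E1 ρ x ∧ E2 ρ y)) then 1 else 0)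
        = ∑ r : Fin n, ∑ f : Fin q → Fin n, ∑ x : Fin n, ∑ y : Fin n,
      (if (x < y ∧ E1 r x ∧ E2 r y ∧
        ∀ ρ ∈ univ.image f, r ≤ ρ → ¬ (E1 ρ x ∧ E2 ρ y)) then 1 else 0) :=
          Finset.sum_comm
      _ = ∑ r : Fin n, ∑ x : Fin n, ∑ f : Fin q → Fin n, ∑ y : Fin n,
      (if (x < y ∧ E1 r x ∧ E2 r y ∧
        ∀ ρ ∈ univ.image f, r ≤ ρ → ¬ (E1 ρ x ∧ E2 ρ y)) then 1 else 0) :=
          Finset.sum_congr rfl (fun r _ => Finset.sum_comm)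
      _ = ∑ x : Fin n, ∑ r : Fin n, ∑ f : Fin q → Fin n, ∑ y : Fin n,
      (if (x < y ∧ E1 r x ∧ E2 r y ∧
        ∀ ρ ∈ univ.image f, r ≤ ρ → ¬ (E1 ρ x ∧ E2 ρ y)) then 1 else 0) :=
          Finset.sum_comm
      _ = ∑ x : Fin n, ∑ r : Fin n, ∑ y : Fin n, ∑ f : Fin q → Fin n,
      (if (x < y ∧ E1 r x ∧ E2 r y ∧
        ∀ ρ ∈ univ.image f, r ≤ ρ → ¬ (E1 ρ x ∧ E2 ρ y)) then 1 else 0) :=
          Finset.sum_congr rfl (fun x _ => Finset.sum_congr rfl (fun r _ => Finset.sum_comm))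
      _ = ∑ x : Fin n, ∑ y : Fin n, ∑ r : Fin n, ∑ f : Fin q → Fin n,
      (if (x < y ∧ E1 r x ∧ E2 r y ∧
        ∀ ρ ∈ univ.image f, r ≤ ρ → ¬ (E1 ρ x ∧ E2 ρ y)) then 1 else 0) :=
          Finset.sum_congr rfl (fun x _ => Finset.sum_comm)
  rw [hswap]
  have hfix : ∀ x y : Fin n, ∑ r : Fin n, ∑ f : Fin q → Fin n,
      (if (x < y ∧ E1 r x ∧ E2 r y ∧
        ∀ ρ ∈ univ.image f, r ≤ ρ → ¬ (E1 ρ x ∧ E2 ρ y)) then 1 else 0)
      ≤ ∑ t ∈ range n, t ^ q := by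
    intro x y
    set P : Finset (Fin n) := univ.filter (fun ρ => E1 ρ x ∧ E2 ρ y) with hP
    have hr : ∀ r : Fin n, ∑ f : Fin q → Fin n,
        (if (x < y ∧ E1 r x ∧ E2 r y ∧
          ∀ ρ ∈ univ.image f, r ≤ ρ → ¬ (E1 ρ x ∧ E2 ρ y)) then 1 else 0)
        ≤ if r ∈ P then (n - (P.filter (fun ρ => r ≤ ρ)).card) ^ q else 0 := by
      intro r
      by_cases hrP : r ∈ P
      · rw [if_pos hrP, ← jcount_fun_avoid q n (P.filter (fun ρ => r ≤ ρ))]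
        apply Finset.sum_le_sum
        intro f _
        by_cases hc : (x < y ∧ E1 r x ∧ E2 r y ∧
          ∀ ρ ∈ univ.image f, r ≤ ρ → ¬ (E1 ρ x ∧ E2 ρ y))
        · rw [if_pos hc, if_pos]
          intro k hk
          simp only [hP, mem_filter, mem_univ, true_and] at hk
          exact hc.2.2.2 (f k) (mem_image_of_mem f (mem_univ k)) hk.2 hk.1
        · rw [if_neg hc]
          exact Nat.zero_le _
      · rw [if_neg hrP]
        apply le_of_eq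
        apply Finset.sum_eq_zero
        intro f _
        rw [if_neg]
        intro hc
        apply hrP
        simp only [hP, mem_filter, mem_univ, true_and]
        exact ⟨hc.2.1, hc.2.2.1⟩
    refine le_trans (Finset.sum_le_sum (fun r _ => hr r)) ?_
    rw [← Finset.sum_filter]
    have hfilt : univ.filter (fun r => r ∈ P) = P := by
      ext r; simp
    rw [hfilt]
    exact jtail_sum_le q P
  have htot : ∑ x : Fin n, ∑ y : Fin n, ∑ r : Fin n, ∑ f : Fin q → Fin n,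
      (if (x < y ∧ E1 r x ∧ E2 r y ∧
        ∀ ρ ∈ univ.image f, r ≤ ρ → ¬ (E1 ρ x ∧ E2 ρ y)) then 1 else 0)
      ≤ n ^ 2 * ∑ t ∈ range n, t ^ q := by
    refine le_trans (Finset.sum_le_sum (fun x _ => Finset.sum_le_sum (fun y _ => hfix x y))) ?_
    simp
    apply le_of_eq
    ring
  calc (∑ x : Fin n, ∑ y : Fin n, ∑ r : Fin n, ∑ f : Fin q → Fin n,
      (if (x < y ∧ E1 r x ∧ E2 r y ∧
        ∀ ρ ∈ univ.image f, r ≤ ρ → ¬ (E1 ρ x ∧ E2 ρ y)) then 1 else 0)) * (q + 1)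
      ≤ (n ^ 2 * ∑ t ∈ range n, t ^ q) * (q + 1) := Nat.mul_le_mul_right _ htot
    _ = n ^ 2 * ((q + 1) * ∑ t ∈ range n, t ^ q) := by ring
    _ ≤ n ^ 2 * n ^ (q + 1) := Nat.mul_le_mul_left _ (jpow_sum_le q n)

/-- Expected number of rows that carry a given event in a pair of columns with no sampled row
at or above them carrying it. -/
theorem jtail_top (q : ℕ) (E1 E2 : Fin n → Fin n → Prop)
    [∀ r x, Decidable (E1 r x)] [∀ r x, Decidable (E2 r x)] :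
    (∑ f : Fin q → Fin n, ∑ r : Fin n, ∑ x : Fin n, ∑ y : Fin n,
      (if (x < y ∧ E1 r x ∧ E2 r y ∧
        ∀ ρ ∈ univ.image f, ρ ≤ r → ¬ (E1 ρ x ∧ E2 ρ y)) then 1 else 0)) * (q + 1)
      ≤ n ^ 2 * n ^ (q + 1) := by
  classical
  have hswap : ∑ f : Fin q → Fin n, ∑ r : Fin n, ∑ x : Fin n, ∑ y : Fin n,
      (if (x < y ∧ E1 r x ∧ E2 r y ∧
        ∀ ρ ∈ univ.image f, ρ ≤ r → ¬ (E1 ρ x ∧ E2 ρ y)) then 1 else 0)
      = ∑ x : Fin n, ∑ y : Fin n, ∑ r : Fin n, ∑ f : Fin q → Fin n,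
      (if (x < y ∧ E1 r x ∧ E2 r y ∧
        ∀ ρ ∈ univ.image f, ρ ≤ r → ¬ (E1 ρ x ∧ E2 ρ y)) then 1 else 0) := by
    calc ∑ f : Fin q → Fin n, ∑ r : Fin n, ∑ x : Fin n, ∑ y : Fin n,
      (if (x < y ∧ E1 r x ∧ E2 r y ∧
        ∀ ρ ∈ univ.image f, ρ ≤ r → ¬ (E1 ρ x ∧ E2 ρ y)) then 1 else 0)
        = ∑ r : Fin n, ∑ f : Fin q → Fin n, ∑ x : Fin n, ∑ y : Fin n,
      (if (x < y ∧ E1 r x ∧ E2 r y ∧
        ∀ ρ ∈ univ.image f, ρ ≤ r → ¬ (E1 ρ x ∧ E2 ρ y)) then 1 else 0) :=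
          Finset.sum_comm
      _ = ∑ r : Fin n, ∑ x : Fin n, ∑ f : Fin q → Fin n, ∑ y : Fin n,
      (if (x < y ∧ E1 r x ∧ E2 r y ∧
        ∀ ρ ∈ univ.image f, ρ ≤ r → ¬ (E1 ρ x ∧ E2 ρ y)) then 1 else 0) :=
          Finset.sum_congr rfl (fun r _ => Finset.sum_comm)
      _ = ∑ x : Fin n, ∑ r : Fin n, ∑ f : Fin q → Fin n, ∑ y : Fin n,
      (if (x < y ∧ E1 r x ∧ E2 r y ∧
        ∀ ρ ∈ univ.image f, ρ ≤ r → ¬ (E1 ρ x ∧ E2 ρ y)) then 1 else 0) :=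
          Finset.sum_comm
      _ = ∑ x : Fin n, ∑ r : Fin n, ∑ y : Fin n, ∑ f : Fin q → Fin n,
      (if (x < y ∧ E1 r x ∧ E2 r y ∧
        ∀ ρ ∈ univ.image f, ρ ≤ r → ¬ (E1 ρ x ∧ E2 ρ y)) then 1 else 0) :=
          Finset.sum_congr rfl (fun x _ => Finset.sum_congr rfl (fun r _ => Finset.sum_comm))
      _ = ∑ x : Fin n, ∑ y : Fin n, ∑ r : Fin n, ∑ f : Fin q → Fin n,
      (if (x < y ∧ E1 r x ∧ E2 r y ∧
        ∀ ρ ∈ univ.image f, ρ ≤ r → ¬ (E1 ρ x ∧ E2 ρ y)) then 1 else 0) :=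
          Finset.sum_congr rfl (fun x _ => Finset.sum_comm)
  rw [hswap]
  have hfix : ∀ x y : Fin n, ∑ r : Fin n, ∑ f : Fin q → Fin n,
      (if (x < y ∧ E1 r x ∧ E2 r y ∧
        ∀ ρ ∈ univ.image f, ρ ≤ r → ¬ (E1 ρ x ∧ E2 ρ y)) then 1 else 0)
      ≤ ∑ t ∈ range n, t ^ q := by
    intro x y
    set P : Finset (Fin n) := univ.filter (fun ρ => E1 ρ x ∧ E2 ρ y) with hP
    have hr : ∀ r : Fin n, ∑ f : Fin q → Fin n,
        (if (x < y ∧ E1 r x ∧ E2 r y ∧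
          ∀ ρ ∈ univ.image f, ρ ≤ r → ¬ (E1 ρ x ∧ E2 ρ y)) then 1 else 0)
        ≤ if r ∈ P then (n - (P.filter (fun ρ => ρ ≤ r)).card) ^ q else 0 := by
      intro r
      by_cases hrP : r ∈ P
      · rw [if_pos hrP, ← jcount_fun_avoid q n (P.filter (fun ρ => ρ ≤ r))]
        apply Finset.sum_le_sum
        intro f _
        by_cases hc : (x < y ∧ E1 r x ∧ E2 r y ∧
          ∀ ρ ∈ univ.image f, ρ ≤ r → ¬ (E1 ρ x ∧ E2 ρ y))
        · rw [if_pos hc, if_pos]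
          intro k hk
          simp only [hP, mem_filter, mem_univ, true_and] at hk
          exact hc.2.2.2 (f k) (mem_image_of_mem f (mem_univ k)) hk.2 hk.1
        · rw [if_neg hc]
          exact Nat.zero_le _
      · rw [if_neg hrP]
        apply le_of_eq
        apply Finset.sum_eq_zero
        intro f _
        rw [if_neg]
        intro hc
        apply hrP
        simp only [hP, mem_filter, mem_univ, true_and]
        exact ⟨hc.2.1, hc.2.2.1⟩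
    refine le_trans (Finset.sum_le_sum (fun r _ => hr r)) ?_
    rw [← Finset.sum_filter]
    have hfilt : univ.filter (fun r => r ∈ P) = P := by
      ext r; simp
    rw [hfilt]
    exact jtail_sum_le_top q P
  have htot : ∑ x : Fin n, ∑ y : Fin n, ∑ r : Fin n, ∑ f : Fin q → Fin n,
      (if (x < y ∧ E1 r x ∧ E2 r y ∧
        ∀ ρ ∈ univ.image f, ρ ≤ r → ¬ (E1 ρ x ∧ E2 ρ y)) then 1 else 0)
      ≤ n ^ 2 * ∑ t ∈ range n, t ^ q := by
    refine le_trans (Finset.sum_le_sum (fun x _ => Finset.sum_le_sum (fun y _ => hfix x y))) ?_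
    simp
    apply le_of_eq
    ring
  calc (∑ x : Fin n, ∑ y : Fin n, ∑ r : Fin n, ∑ f : Fin q → Fin n,
      (if (x < y ∧ E1 r x ∧ E2 r y ∧
        ∀ ρ ∈ univ.image f, ρ ≤ r → ¬ (E1 ρ x ∧ E2 ρ y)) then 1 else 0)) * (q + 1)
      ≤ (n ^ 2 * ∑ t ∈ range n, t ^ q) * (q + 1) := Nat.mul_le_mul_right _ htot
    _ = n ^ 2 * ((q + 1) * ∑ t ∈ range n, t ^ q) := by ring
    _ ≤ n ^ 2 * n ^ (q + 1) := Nat.mul_le_mul_left _ (jpow_sum_le q n)

theorem jsum_Ybot (A : Fin n → Fin n → Bool) (q : ℕ) :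
    (∑ f : Fin q → Fin n, jXbot A (univ.image f)) * (q + 1) ≤ n ^ 2 * n ^ (q + 1) :=
  jtail_bot q (fun r x => A r x = false) (fun r y => A r y = false)

theorem jsum_Ytop (A : Fin n → Fin n → Bool) (q : ℕ) :
    (∑ f : Fin q → Fin n, jXtop A (univ.image f)) * (q + 1) ≤ n ^ 2 * n ^ (q + 1) :=
  jtail_top q (fun r x => A r x = true) (fun r y => A r y = false)

theorem jexists_sample (A : Fin n → Fin n → Bool) (q : ℕ) (hq : 0 < q) (hn : 0 < n)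
    (hN : 0 < jN A) :
    ∃ Q : Finset (Fin n), Q.card ≤ q ∧
      jX2 A Q * n ^ 2 ≤ 3 * q ^ 2 * jN A ∧ jXbot A Q * (q + 1) ≤ 3 * n ^ 3 ∧
      jXtop A Q * (q + 1) ≤ 3 * n ^ 3 := by
  classical
  have : Nonempty (Fin n) := ⟨⟨0, hn⟩⟩
  have hsum : ∑ f : Fin q → Fin n,
      ((∑ i, ∑ j, jNpair A (f i) (f j)) * n ^ 2 * n ^ 3 +
        jXbot A (univ.image f) * (q + 1) * (q ^ 2 * jN A) +
        jXtop A (univ.image f) * (q + 1) * (q ^ 2 * jN A))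
      ≤ ∑ _f : Fin q → Fin n, 3 * q ^ 2 * jN A * n ^ 3 := by
    have e0 : ∑ _f : Fin q → Fin n, 3 * q ^ 2 * jN A * n ^ 3
        = 3 * (q ^ 2 * n ^ q * jN A * n ^ 3) := by
      simp
      ring
    rw [e0]
    simp only [Finset.sum_add_distrib, ← Finset.sum_mul]
    have h2 := jsum_Y2 A q
    have h3 := jsum_Ybot A q
    have h4 := jsum_Ytop A q
    have t2 : (∑ f : Fin q → Fin n, ∑ i, ∑ j, jNpair A (f i) (f j)) * n ^ 2 * n ^ 3
        ≤ q ^ 2 * n ^ q * jN A * n ^ 3 := Nat.mul_le_mul_right _ h2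
    have t3 : (∑ f : Fin q → Fin n, jXbot A (univ.image f)) * (q + 1) * (q ^ 2 * jN A)
        ≤ n ^ 2 * n ^ (q + 1) * (q ^ 2 * jN A) := Nat.mul_le_mul_right _ h3
    have t4 : (∑ f : Fin q → Fin n, jXtop A (univ.image f)) * (q + 1) * (q ^ 2 * jN A)
        ≤ n ^ 2 * n ^ (q + 1) * (q ^ 2 * jN A) := Nat.mul_le_mul_right _ h4
    have e3 : n ^ 2 * n ^ (q + 1) * (q ^ 2 * jN A) = q ^ 2 * n ^ q * jN A * n ^ 3 := by ring
    rw [e3] at t3 t4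
    omega
  obtain ⟨f, _, hf⟩ := Finset.exists_le_of_sum_le Finset.univ_nonempty hsum
  have hn3 : 0 < n ^ 3 := pow_pos hn 3
  have hqN : 0 < q ^ 2 * jN A := Nat.mul_pos (pow_pos hq 2) hN
  refine ⟨univ.image f, ?_, ?_, ?_, ?_⟩
  · exact le_trans card_image_le (by simp)
  · have h1 : (∑ i, ∑ j, jNpair A (f i) (f j)) * n ^ 2 * n ^ 3 ≤ 3 * q ^ 2 * jN A * n ^ 3 := by
      omega
    have h2 := Nat.le_of_mul_le_mul_right h1 hn3
    exact le_trans (Nat.mul_le_mul_right _ (jX2_image_le A q f)) h2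
  · have h1 : jXbot A (univ.image f) * (q + 1) * (q ^ 2 * jN A) ≤ 3 * n ^ 3 * (q ^ 2 * jN A) := by
      have e : 3 * n ^ 3 * (q ^ 2 * jN A) = 3 * q ^ 2 * jN A * n ^ 3 := by ring
      rw [e]
      omega
    exact Nat.le_of_mul_le_mul_right h1 hqN
  · have h1 : jXtop A (univ.image f) * (q + 1) * (q ^ 2 * jN A) ≤ 3 * n ^ 3 * (q ^ 2 * jN A) := by
      have e : 3 * n ^ 3 * (q ^ 2 * jN A) = 3 * q ^ 2 * jN A * n ^ 3 := by ring
      rw [e]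
      omega
    exact Nat.le_of_mul_le_mul_right h1 hqN

/-- Core combinatorial statement for the single-one pattern: a pattern-free matrix close to
`A`, with explicit error terms. -/
theorem jcore (A : Fin n → Fin n → Bool) (q : ℕ) (hq : 0 < q) (hn : 0 < n) (hN : 0 < jN A) :
    ∃ B : Fin n → Fin n → Bool, (∀ r r' a b, ¬ jcp B r r' a b) ∧
      ∃ s d x2 xb xt : ℕ,
        (univ.filter (fun p : Fin n × Fin n => A p.1 p.2 ≠ B p.1 p.2)).card ≤ s + n * d ∧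
        s ^ 2 ≤ n * (8 * xb + 16 * xt + 16 * n) ∧
        d ^ 2 ≤ 8 * q ^ 2 * (x2 + q ^ 2) ∧
        x2 * n ^ 2 ≤ 3 * q ^ 2 * jN A ∧ xb * (q + 1) ≤ 3 * n ^ 3 ∧ xt * (q + 1) ≤ 3 * n ^ 3 := by
  obtain ⟨Q, hQ, h2, h3, h4⟩ := jexists_sample A q hq hn hN
  obtain ⟨B, hB, s, d, hdiff, hs, hd⟩ := jexists_free_close A Q
  refine ⟨B, hB, s, d, jX2 A Q, jXbot A Q, jXtop A Q, hdiff, hs, ?_, h2, h3, h4⟩
  have hQ2 : Q.card ^ 2 ≤ q ^ 2 := Nat.pow_le_pow_left hQ 2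
  calc d ^ 2 ≤ 8 * Q.card ^ 2 * (jX2 A Q + Q.card ^ 2) := hd
    _ ≤ 8 * q ^ 2 * (jX2 A Q + q ^ 2) := by
        apply Nat.mul_le_mul
        · exact Nat.mul_le_mul_left _ hQ2
        · omega

end Vale.Agent.Lib.P037.H20
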