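import Vale.Agent.Lib.P037.H20.Defs
import Vale.Agent.Lib.P037.H20.Core

namespace Vale.Agent.Lib.P037.H20

open Finset

theorem bool_eq_not_of_ne {a b : Bool} (h : a ≠ b) : b = !a := by
  cases a <;> cases b <;> simp_all

theorem copies_eq_zero_iff {n : ℕ} (H : Fin 2 → Fin 2 → Bool) (A : Fin n → Fin n → Bool) :
    copies H A = 0 ↔ ∀ r r' c c' : Fin n, r < r' → c < c' →
      ¬ (A r c = H 0 0 ∧ A r c' = H 0 1 ∧ A r' c = H 1 0 ∧ A r' c' = H 1 1) := by
  unfold copies
  rw [card_eq_zero, filter_eq_empty_iff]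
  constructor
  · intro h r r' c c' hr hc hA
    exact h (mem_univ ((r, r'), (c, c'))) ⟨hr, hc, hA⟩
  · intro h q _ hq
    exact h q.1.1 q.1.2 q.2.1 q.2.2 hq.1 hq.2.1 hq.2.2

/-- corner `(0,0)`. -/
theorem main00 {n : ℕ} (H : Fin 2 → Fin 2 → Bool)
    (hrow : H 0 0 ≠ H 0 1) (hcol : H 0 0 ≠ H 1 0)
    (A : Fin n → Fin n → Bool) (ε : ℝ) (hε : 0 < ε)
    (hfar : ∀ B : Fin n → Fin n → Bool, copies H B = 0 → copies (flipAt H 1 1) B = 0 →
      ε * (n : ℝ) ^ 2 ≤ (entryDiff A B : ℝ)) :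
    ε ^ 3 * (n : ℝ) ^ 4 / 32 ≤ (copies H A : ℝ) + (copies (flipAt H 1 1) A : ℝ) := by
  have e1 : H 0 1 = !(H 0 0) := bool_eq_not_of_ne hrow
  have e2 : H 1 0 = !(H 0 0) := bool_eq_not_of_ne hcol
  have key := gen (R := Fin n) (C := Fin n) n (by simp) (by simp) A (H 0 0) (H 1 1) ε hε ?_
  · have c1 : copies H A = (univ.filter fun q : (Fin n × Fin n) × (Fin n × Fin n) =>
        q.1.1 < q.1.2 ∧ q.2.1 < q.2.2 ∧ A q.1.1 q.2.1 = H 0 0 ∧ A q.1.1 q.2.2 = (!(H 0 0)) ∧
          A q.1.2 q.2.1 = (!(H 0 0)) ∧ A q.1.2 q.2.2 = H 1 1).card := by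
      unfold copies
      rw [e1, e2]
    have c2 : copies (flipAt H 1 1) A = (univ.filter fun q : (Fin n × Fin n) × (Fin n × Fin n) =>
        q.1.1 < q.1.2 ∧ q.2.1 < q.2.2 ∧ A q.1.1 q.2.1 = H 0 0 ∧ A q.1.1 q.2.2 = (!(H 0 0)) ∧
          A q.1.2 q.2.1 = (!(H 0 0)) ∧ A q.1.2 q.2.2 = (!(H 1 1))).card := by
      unfold copies flipAt
      simp [e1, e2]
    rw [c1, c2]
    exact key
  · intro B hB
    apply hfar B
    · rw [copies_eq_zero_iff]
      intro r r' c c' hr hc hA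
      apply hB r r' c c' hr hc
      rw [e1, e2] at hA
      exact ⟨hA.1, hA.2.1, hA.2.2.1⟩
    · rw [copies_eq_zero_iff]
      intro r r' c c' hr hc hA
      apply hB r r' c c' hr hc
      simp only [flipAt] at hA
      simp at hA
      rw [e1, e2] at hA
      exact ⟨hA.1, hA.2.1, hA.2.2.1⟩

/-- the reversed order on `Fin n`, as a linear order on `Fin n` itself (used in proofs only). -/
@[reducible] def revOrd (n : ℕ) : LinearOrder (Fin n) := inferInstanceAs (LinearOrder (Fin n)ᵒᵈ)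

theorem revOrd_lt {n : ℕ} (a b : Fin n) : (@LT.lt (Fin n) (revOrd n).toLT a b) ↔ b < a := Iff.rfl

/-- corner `(1,0)`: rows reversed. -/
theorem main10 {n : ℕ} (H : Fin 2 → Fin 2 → Bool)
    (hrow : H 1 0 ≠ H 1 1) (hcol : H 1 0 ≠ H 0 0)
    (A : Fin n → Fin n → Bool) (ε : ℝ) (hε : 0 < ε)
    (hfar : ∀ B : Fin n → Fin n → Bool, copies H B = 0 → copies (flipAt H 0 1) B = 0 →
      ε * (n : ℝ) ^ 2 ≤ (entryDiff A B : ℝ)) :
    ε ^ 3 * (n : ℝ) ^ 4 / 32 ≤ (copies H A : ℝ) + (copies (flipAt H 0 1) A : ℝ) := by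
  have e1 : H 1 1 = !(H 1 0) := bool_eq_not_of_ne hrow
  have e2 : H 0 0 = !(H 1 0) := bool_eq_not_of_ne hcol
  have key := @gen (Fin n) (Fin n) _ _ (revOrd n) _ n (by simp) (by simp) A (H 1 0) (H 0 1) ε hε
  simp only [revOrd_lt] at key
  refine le_trans (key ?_) (add_le_add ?_ ?_)
  · intro B hB
    apply hfar B
    · rw [copies_eq_zero_iff]
      intro r r' c c' hr hc hA
      apply hB r' r c c' hr hc
      rw [e1, e2] at hA
      exact ⟨hA.2.2.1, hA.2.2.2, hA.1⟩
    · rw [copies_eq_zero_iff]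
      intro r r' c c' hr hc hA
      apply hB r' r c c' hr hc
      simp only [flipAt] at hA
      simp at hA
      rw [e1, e2] at hA
      exact ⟨hA.2.2.1, hA.2.2.2, hA.1⟩
  · unfold copies
    apply le_of_eq
    norm_cast
    apply Finset.card_equiv ((Equiv.prodComm _ _).prodCongr (Equiv.refl _))
    intro q
    simp only [mem_filter, mem_univ, true_and, Equiv.prodCongr_apply, Prod.map,
      Equiv.prodComm_apply, Prod.swap, Equiv.refl_apply]
    rw [e1, e2]
    tauto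
  · unfold copies flipAt
    apply le_of_eq
    norm_cast
    apply Finset.card_equiv ((Equiv.prodComm _ _).prodCongr (Equiv.refl _))
    intro q
    simp only [mem_filter, mem_univ, true_and, Equiv.prodCongr_apply, Prod.map,
      Equiv.prodComm_apply, Prod.swap, Equiv.refl_apply]
    simp
    rw [e1, e2]
    tauto

/-- corner `(0,1)`: columns reversed. -/
theorem main01 {n : ℕ} (H : Fin 2 → Fin 2 → Bool)
    (hrow : H 0 1 ≠ H 0 0) (hcol : H 0 1 ≠ H 1 1)
    (A : Fin n → Fin n → Bool) (ε : ℝ) (hε : 0 < ε)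
    (hfar : ∀ B : Fin n → Fin n → Bool, copies H B = 0 → copies (flipAt H 1 0) B = 0 →
      ε * (n : ℝ) ^ 2 ≤ (entryDiff A B : ℝ)) :
    ε ^ 3 * (n : ℝ) ^ 4 / 32 ≤ (copies H A : ℝ) + (copies (flipAt H 1 0) A : ℝ) := by
  have e1 : H 0 0 = !(H 0 1) := bool_eq_not_of_ne hrow
  have e2 : H 1 1 = !(H 0 1) := bool_eq_not_of_ne hcol
  have key := @gen (Fin n) (Fin n) _ _ _ (revOrd n) n (by simp) (by simp) A (H 0 1) (H 1 0) ε hε
  simp only [revOrd_lt] at key
  refine le_trans (key ?_) (add_le_add ?_ ?_)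
  · intro B hB
    apply hfar B
    · rw [copies_eq_zero_iff]
      intro r r' c c' hr hc hA
      apply hB r r' c' c hr hc
      rw [e1, e2] at hA
      exact ⟨hA.2.1, hA.1, hA.2.2.2⟩
    · rw [copies_eq_zero_iff]
      intro r r' c c' hr hc hA
      apply hB r r' c' c hr hc
      simp only [flipAt] at hA
      simp at hA
      rw [e1, e2] at hA
      exact ⟨hA.2.1, hA.1, hA.2.2.2⟩
  · unfold copies
    apply le_of_eq
    norm_cast
    apply Finset.card_equiv ((Equiv.refl _).prodCongr (Equiv.prodComm _ _))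
    intro q
    simp only [mem_filter, mem_univ, true_and, Equiv.prodCongr_apply, Prod.map,
      Equiv.prodComm_apply, Prod.swap, Equiv.refl_apply]
    rw [e1, e2]
    tauto
  · unfold copies flipAt
    apply le_of_eq
    norm_cast
    apply Finset.card_equiv ((Equiv.refl _).prodCongr (Equiv.prodComm _ _))
    intro q
    simp only [mem_filter, mem_univ, true_and, Equiv.prodCongr_apply, Prod.map,
      Equiv.prodComm_apply, Prod.swap, Equiv.refl_apply]
    simp
    rw [e1, e2]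
    tauto

/-- corner `(1,1)`: rows and columns reversed. -/
theorem main11 {n : ℕ} (H : Fin 2 → Fin 2 → Bool)
    (hrow : H 1 1 ≠ H 1 0) (hcol : H 1 1 ≠ H 0 1)
    (A : Fin n → Fin n → Bool) (ε : ℝ) (hε : 0 < ε)
    (hfar : ∀ B : Fin n → Fin n → Bool, copies H B = 0 → copies (flipAt H 0 0) B = 0 →
      ε * (n : ℝ) ^ 2 ≤ (entryDiff A B : ℝ)) :
    ε ^ 3 * (n : ℝ) ^ 4 / 32 ≤ (copies H A : ℝ) + (copies (flipAt H 0 0) A : ℝ) := by
  have e1 : H 1 0 = !(H 1 1) := bool_eq_not_of_ne hrow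
  have e2 : H 0 1 = !(H 1 1) := bool_eq_not_of_ne hcol
  have key := @gen (Fin n) (Fin n) _ _ (revOrd n) (revOrd n) n (by simp) (by simp) A
    (H 1 1) (H 0 0) ε hε
  simp only [revOrd_lt] at key
  refine le_trans (key ?_) (add_le_add ?_ ?_)
  · intro B hB
    apply hfar B
    · rw [copies_eq_zero_iff]
      intro r r' c c' hr hc hA
      apply hB r' r c' c hr hc
      rw [e1, e2] at hA
      exact ⟨hA.2.2.2, hA.2.2.1, hA.2.1⟩
    · rw [copies_eq_zero_iff]
      intro r r' c c' hr hc hA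
      apply hB r' r c' c hr hc
      simp only [flipAt] at hA
      simp at hA
      rw [e1, e2] at hA
      exact ⟨hA.2.2.2, hA.2.2.1, hA.2.1⟩
  · unfold copies
    apply le_of_eq
    norm_cast
    apply Finset.card_equiv ((Equiv.prodComm _ _).prodCongr (Equiv.prodComm _ _))
    intro q
    simp only [mem_filter, mem_univ, true_and, Equiv.prodCongr_apply, Prod.map,
      Equiv.prodComm_apply, Prod.swap, Equiv.refl_apply]
    rw [e1, e2]
    tauto
  · unfold copies flipAt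
    apply le_of_eq
    norm_cast
    apply Finset.card_equiv ((Equiv.prodComm _ _).prodCongr (Equiv.prodComm _ _))
    intro q
    simp only [mem_filter, mem_univ, true_and, Equiv.prodCongr_apply, Prod.map,
      Equiv.prodComm_apply, Prod.swap, Equiv.refl_apply]
    simp
    rw [e1, e2]
    tauto

/-- All four corners at once. -/
theorem main {n : ℕ} (H : Fin 2 → Fin 2 → Bool) (i j : Fin 2)
    (hrow : H i j ≠ H i (j + 1)) (hcol : H i j ≠ H (i + 1) j)
    (A : Fin n → Fin n → Bool) (ε : ℝ) (hε : 0 < ε)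
    (hfar : ∀ B : Fin n → Fin n → Bool,
      copies H B = 0 → copies (flipAt H (i + 1) (j + 1)) B = 0 →
        ε * (n : ℝ) ^ 2 ≤ (entryDiff A B : ℝ)) :
    ε ^ 3 * (n : ℝ) ^ 4 / 32 ≤
      (copies H A : ℝ) + (copies (flipAt H (i + 1) (j + 1)) A : ℝ) := by
  have h01 : (0 : Fin 2) + 1 = 1 := by decide
  have h10 : (1 : Fin 2) + 1 = 0 := by decide
  fin_cases i <;> fin_cases j
  · simp only [Fin.zero_eta, h01] at hrow hcol hfar ⊢
    exact main00 H hrow hcol A ε hε hfar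
  · simp only [Fin.zero_eta, Fin.mk_one, h01, h10] at hrow hcol hfar ⊢
    exact main01 H hrow hcol A ε hε hfar
  · simp only [Fin.zero_eta, Fin.mk_one, h01, h10] at hrow hcol hfar ⊢
    exact main10 H hrow hcol A ε hε hfar
  · simp only [Fin.mk_one, h10] at hrow hcol hfar ⊢
    exact main11 H hrow hcol A ε hε hfar

end Vale.Agent.Lib.P037.H20
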